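import Crest.Prelude.Def_PairPotential
import Crest.Prelude.Def_UnitPacking

set_option autoImplicit false

namespace Crest.Agent.R149

open MeasureTheory Crest.ProbabilityR.Continuum Classical
open scoped ENNReal BigOperators

/-- Pair energy of a configuration indexed by an arbitrary finite type. -/
noncomputable def En (ψ : ℝ → ℝ) {ι : Type} [Fintype ι] (x : ι → Pt) : ℝ :=
  (1 / 2) * ∑ i, ∑ j, if i = j then 0 else ψ (dist (x i) (x j))

/-- Cross energy between different classes of the assignment `a`. -/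
noncomputable def Cr (ψ : ℝ → ℝ) {ι C : Type} [Fintype ι] (a : ι → C) (x : ι → Pt) : ℝ :=
  (1 / 2) * ∑ i, ∑ j, if a i = a j then 0 else ψ (dist (x i) (x j))

/-- Boltzmann factor. -/
noncomputable def bf (ψ : ℝ → ℝ) {ι : Type} [Fintype ι] (x : ι → Pt) : ℝ≥0∞ :=
  ENNReal.ofReal (Real.exp (-En ψ x))

/-- Unnormalised configuration integral over a product of regions. -/
noncomputable def Zp (ψ : ℝ → ℝ) {ι : Type} [Fintype ι] (Λ : ι → Set Pt) : ℝ≥0∞ :=
  ∫⁻ x in Set.pi Set.univ Λ, bf ψ x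

/-- Unnormalised configuration integral of `n` particles in the cube of side `ℓ`. -/
noncomputable def Zc (ψ : ℝ → ℝ) (ℓ : ℝ) (n : ℕ) : ℝ≥0∞ := Zp ψ (fun _ : Fin n => cube ℓ)

/-- Translated cube. -/
def tcube (v : Pt) (ℓ : ℝ) : Set Pt := {x | x - v ∈ cube ℓ}

theorem energy_eq_En (ψ : ℝ → ℝ) {N : ℕ} (x : Fin N → Pt) : energy ψ x = En ψ x := by
  unfold energy En
  have h1 : ∑ p : {p : Fin N × Fin N // p.1 < p.2}, ψ (dist (x p.1.1) (x p.1.2))
      = ∑ i, ∑ j, if i < j then ψ (dist (x i) (x j)) else 0 := by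
    rw [← Finset.sum_product', Finset.univ_product_univ, ← Finset.sum_filter]
    exact (Finset.sum_subtype (F := inferInstance) (p := fun p : Fin N × Fin N => p.1 < p.2)
      (Finset.univ.filter fun p : Fin N × Fin N => p.1 < p.2) (by simp)
      (fun p => ψ (dist (x p.1) (x p.2)))).symm
  have h2 : (∑ i, ∑ j, if j < i then ψ (dist (x i) (x j)) else 0)
      = ∑ i, ∑ j, if i < j then ψ (dist (x i) (x j)) else 0 := by
    rw [Finset.sum_comm]
    refine Finset.sum_congr rfl fun i _ => Finset.sum_congr rfl fun j _ => ?_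
    rw [dist_comm]
  have h3 : (∑ i, ∑ j, if i = j then 0 else ψ (dist (x i) (x j)))
      = (∑ i, ∑ j, if i < j then ψ (dist (x i) (x j)) else 0)
        + ∑ i, ∑ j, if j < i then ψ (dist (x i) (x j)) else 0 := by
    rw [← Finset.sum_add_distrib]
    refine Finset.sum_congr rfl fun i _ => ?_
    rw [← Finset.sum_add_distrib]
    refine Finset.sum_congr rfl fun j _ => ?_
    rcases lt_trichotomy i j with h | h | h
    · simp [h, h.ne, not_lt.mpr h.le]
    · simp [h]
    · simp [h, h.ne', not_lt.mpr h.le]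
  rw [h1]
  have h4 : (∑ i, ∑ j, @ite ℝ (i = j) (Classical.propDecidable _) 0 (ψ (dist (x i) (x j))))
      = ∑ i, ∑ j, if i = j then 0 else ψ (dist (x i) (x j)) := by
    refine Finset.sum_congr rfl fun i _ => Finset.sum_congr rfl fun j _ => ?_
    split_ifs <;> rfl
  rw [h4, h3, h2]; ring

theorem En_reindex (ψ : ℝ → ℝ) {ι κ : Type} [Fintype ι] [Fintype κ] (e : ι ≃ κ) (x : κ → Pt) :
    En ψ (fun i => x (e i)) = En ψ x := by
  unfold En
  congr 1
  rw [← e.sum_comp]
  refine Finset.sum_congr rfl fun i _ => ?_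
  rw [← e.sum_comp]
  refine Finset.sum_congr rfl fun j _ => ?_
  simp

theorem En_translate (ψ : ℝ → ℝ) {ι : Type} [Fintype ι] (v : Pt) (x : ι → Pt) :
    En ψ (fun i => v + x i) = En ψ x := by
  unfold En
  simp

theorem measurable_En {ψ : ℝ → ℝ} (hψ : Measurable ψ) {ι : Type} [Fintype ι] :
    Measurable (fun x : ι → Pt => En ψ x) := by
  unfold En
  refine measurable_const.mul (Finset.measurable_sum _ fun i _ => Finset.measurable_sum _ fun j _ => ?_)
  by_cases h : i = j
  · simp [h]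
  · simp only [h, if_false]
    exact hψ.comp ((measurable_pi_apply i).dist (measurable_pi_apply j))

theorem measurable_bf {ψ : ℝ → ℝ} (hψ : Measurable ψ) {ι : Type} [Fintype ι] :
    Measurable (fun x : ι → Pt => bf ψ x) :=
  ENNReal.measurable_ofReal.comp (Real.measurable_exp.comp (measurable_En hψ).neg)

theorem En_add (ψ χ : ℝ → ℝ) {ι : Type} [Fintype ι] (x : ι → Pt) :
    En (ψ + χ) x = En ψ x + En χ x := by
  unfold En
  rw [← mul_add, ← Finset.sum_add_distrib]
  congr 1
  refine Finset.sum_congr rfl fun i _ => ?_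
  rw [← Finset.sum_add_distrib]
  refine Finset.sum_congr rfl fun j _ => ?_
  split_ifs <;> simp

theorem En_smul (t : ℝ) (ψ : ℝ → ℝ) {ι : Type} [Fintype ι] (x : ι → Pt) :
    En (t • ψ) x = t * En ψ x := by
  unfold En
  rw [mul_left_comm]
  congr 1
  rw [Finset.mul_sum]
  refine Finset.sum_congr rfl fun i _ => ?_
  rw [Finset.mul_sum]
  refine Finset.sum_congr rfl fun j _ => ?_
  split_ifs <;> simp

theorem En_sub (ψ χ : ℝ → ℝ) {ι : Type} [Fintype ι] (x : ι → Pt) :
    En (ψ - χ) x = En ψ x - En χ x := by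
  have h : ψ - χ = ψ + (-1 : ℝ) • χ := by ext r; simp [sub_eq_add_neg]
  rw [h, En_add, En_smul]; ring

theorem En_mono {ψ χ : ℝ → ℝ} (h : ∀ r, 0 ≤ r → ψ r ≤ χ r) {ι : Type} [Fintype ι] (x : ι → Pt) :
    En ψ x ≤ En χ x := by
  unfold En
  refine mul_le_mul_of_nonneg_left ?_ (by norm_num)
  refine Finset.sum_le_sum fun i _ => Finset.sum_le_sum fun j _ => ?_
  split_ifs
  · exact le_rfl
  · exact h _ dist_nonneg

theorem En_zero {ι : Type} [Fintype ι] (x : ι → Pt) : En 0 x = 0 := by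
  unfold En; simp

theorem En_nonneg {ψ : ℝ → ℝ} (h : ∀ r, 0 ≤ r → 0 ≤ ψ r) {ι : Type} [Fintype ι] (x : ι → Pt) :
    0 ≤ En ψ x := by
  have := En_mono (ψ := 0) (χ := ψ) (fun r hr => h r hr) x
  rwa [En_zero] at this

theorem Cr_sub (ψ χ : ℝ → ℝ) {ι C : Type} [Fintype ι] (a : ι → C) (x : ι → Pt) :
    Cr (ψ - χ) a x = Cr ψ a x - Cr χ a x := by
  unfold Cr
  rw [← mul_sub, ← Finset.sum_sub_distrib]
  congr 1
  refine Finset.sum_congr rfl fun i _ => ?_
  rw [← Finset.sum_sub_distrib]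
  refine Finset.sum_congr rfl fun j _ => ?_
  split_ifs <;> simp

theorem Cr_nonpos {ψ : ℝ → ℝ} {ι C : Type} [Fintype ι] (a : ι → C) (x : ι → Pt)
    (h : ∀ i j, a i ≠ a j → ψ (dist (x i) (x j)) ≤ 0) : Cr ψ a x ≤ 0 := by
  unfold Cr
  refine mul_nonpos_of_nonneg_of_nonpos (by norm_num) ?_
  refine Finset.sum_nonpos fun i _ => Finset.sum_nonpos fun j _ => ?_
  split_ifs with hij
  · exact le_rfl
  · exact h i j hij

theorem Cr_nonneg {ψ : ℝ → ℝ} (h : ∀ r, 0 ≤ r → 0 ≤ ψ r) {ι C : Type} [Fintype ι] (a : ι → C)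
    (x : ι → Pt) : 0 ≤ Cr ψ a x := by
  unfold Cr
  refine mul_nonneg (by norm_num) ?_
  refine Finset.sum_nonneg fun i _ => Finset.sum_nonneg fun j _ => ?_
  split_ifs with hij
  · exact le_rfl
  · exact h _ dist_nonneg

/-- Restriction of a configuration to a fibre of an assignment. -/
def res {ι C : Type} (a : ι → C) (c : C) (x : ι → Pt) : {i // a i = c} → Pt := fun i => x i

/-- Energy of the particles in one class of an assignment. -/
noncomputable def EnR (ψ : ℝ → ℝ) {ι C : Type} [Fintype ι] (a : ι → C) (c : C) (x : ι → Pt) : ℝ :=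
  En ψ (res a c x)

theorem EnR_sub (ψ χ : ℝ → ℝ) {ι C : Type} [Fintype ι] (a : ι → C) (c : C) (x : ι → Pt) :
    EnR (ψ - χ) a c x = EnR ψ a c x - EnR χ a c x := En_sub _ _ _

theorem EnR_smul (t : ℝ) (ψ : ℝ → ℝ) {ι C : Type} [Fintype ι] (a : ι → C) (c : C) (x : ι → Pt) :
    EnR (t • ψ) a c x = t * EnR ψ a c x := En_smul _ _ _

theorem EnR_nonneg {ψ : ℝ → ℝ} (h : ∀ r, 0 ≤ r → 0 ≤ ψ r) {ι C : Type} [Fintype ι] (a : ι → C)
    (c : C) (x : ι → Pt) : 0 ≤ EnR ψ a c x := En_nonneg h _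

theorem En_split (ψ : ℝ → ℝ) {ι C : Type} [Fintype ι] [Fintype C] (a : ι → C) (x : ι → Pt) :
    En ψ x = ∑ c, EnR ψ a c x + Cr ψ a x := by
  unfold EnR
  have h1 : ∀ c, En ψ (res a c x) = (1 / 2) * ∑ i, if a i = c then
      (∑ j, if a j = c then (if i = j then 0 else ψ (dist (x i) (x j))) else 0) else 0 := by
    intro c
    unfold En res
    congr 1
    rw [← Finset.sum_filter]
    rw [Finset.sum_subtype (F := inferInstance) (p := fun i => a i = c)
      (Finset.univ.filter fun i => a i = c) (by simp)]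
    refine Finset.sum_congr rfl fun i _ => ?_
    rw [← Finset.sum_filter]
    rw [Finset.sum_subtype (F := inferInstance) (p := fun i => a i = c)
      (Finset.univ.filter fun i => a i = c) (by simp)]
    refine Finset.sum_congr rfl fun j _ => ?_
    simp [Subtype.ext_iff]
  simp_rw [h1]
  rw [← Finset.mul_sum, Finset.sum_comm]
  unfold En Cr
  rw [← mul_add, ← Finset.sum_add_distrib]
  congr 1
  refine Finset.sum_congr rfl fun i _ => ?_
  rw [Finset.sum_ite_eq, if_pos (Finset.mem_univ _), ← Finset.sum_add_distrib]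
  refine Finset.sum_congr rfl fun j _ => ?_
  by_cases h : a i = a j
  · simp [h]
  · have h' : i ≠ j := fun e => h (by rw [e])
    simp [h, h', Ne.symm h]

theorem measurableSet_cube (ℓ : ℝ) : MeasurableSet (cube ℓ) := by
  have : cube ℓ = ⋂ k : Fin 3, {x : Pt | 0 ≤ x k} ∩ {x : Pt | x k ≤ ℓ} := by
    ext x; simp [cube]
  rw [this]
  refine MeasurableSet.iInter fun k => MeasurableSet.inter ?_ ?_
  · exact measurableSet_le measurable_const (by fun_prop)
  · exact measurableSet_le (by fun_prop) measurable_const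

theorem measurableSet_tcube (v : Pt) (ℓ : ℝ) : MeasurableSet (tcube v ℓ) :=
  (measurable_sub_const v) (measurableSet_cube ℓ)

theorem volume_box (s : Fin 3 → Set ℝ) (hs : ∀ k, MeasurableSet (s k)) :
    volume {x : Pt | ∀ k, x k ∈ s k} = ∏ k, volume (s k) := by
  have h := (PiLp.volume_preserving_ofLp (Fin 3)).measure_preimage
    (s := Set.pi Set.univ s) (MeasurableSet.univ_pi hs).nullMeasurableSet
  rw [← volume_pi_pi, ← h]
  congr 1
  ext x; simp

theorem volume_cube {ℓ : ℝ} (hℓ : 0 ≤ ℓ) : volume (cube ℓ) = ENNReal.ofReal (ℓ ^ 3) := by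
  have := volume_box (fun _ => Set.Icc 0 ℓ) (fun _ => measurableSet_Icc)
  simp only [Set.mem_Icc, Real.volume_Icc, sub_zero, Finset.prod_const, Finset.card_univ,
    Fintype.card_fin] at this
  rw [ENNReal.ofReal_pow hℓ, ← this]; rfl

theorem volume_tcube (v : Pt) {ℓ : ℝ} (hℓ : 0 ≤ ℓ) :
    volume (tcube v ℓ) = ENNReal.ofReal (ℓ ^ 3) := by
  rw [← volume_cube hℓ]
  have := measure_preimage_add_right volume (-v) (cube ℓ)
  rw [← this]
  congr 1

theorem cube_mono {ℓ L : ℝ} (h : ℓ ≤ L) : cube ℓ ⊆ cube L :=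
  fun _ hx k => ⟨(hx k).1, (hx k).2.trans h⟩

theorem Zp_reindex' {ψ : ℝ → ℝ} (hψ : Measurable ψ) {ι κ : Type} [Fintype ι] [Fintype κ]
    (e : ι ≃ κ) (S : κ → Set Pt) (hS : ∀ k, MeasurableSet (S k)) :
    Zp ψ (fun i : ι => S (e i)) = Zp ψ S := by
  unfold Zp
  have hmp : MeasurePreserving (fun (x : κ → Pt) (i : ι) => x (e i)) volume volume := by
    have := (volume_measurePreserving_piCongrLeft (fun _ : ι => Pt) e.symm)
    convert this using 1
    ext x i
    simp [MeasurableEquiv.coe_piCongrLeft, Equiv.piCongrLeft_apply_eq_cast]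
  have h := hmp.setLIntegral_comp_preimage (s := Set.pi Set.univ fun i : ι => S (e i))
    (MeasurableSet.univ_pi fun _ => hS _) (measurable_bf (ι := ι) hψ)
  rw [← h]
  have hset : (fun (x : κ → Pt) (i : ι) => x (e i)) ⁻¹' (Set.pi Set.univ fun i : ι => S (e i))
      = Set.pi Set.univ S := by
    ext x
    simp only [Set.mem_preimage, Set.mem_pi, Set.mem_univ, forall_true_left]
    exact ⟨fun h j => by simpa using h (e.symm j), fun h i => h _⟩
  rw [hset]
  refine lintegral_congr fun x => ?_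
  unfold bf
  rw [En_reindex]

theorem Zp_reindex {ψ : ℝ → ℝ} (hψ : Measurable ψ) {ι κ : Type} [Fintype ι] [Fintype κ]
    (e : ι ≃ κ) (S : Set Pt) (hS : MeasurableSet S) :
    Zp ψ (fun _ : ι => S) = Zp ψ (fun _ : κ => S) :=
  Zp_reindex' hψ e (fun _ => S) (fun _ => hS)

theorem Zp_translate {ψ : ℝ → ℝ} (hψ : Measurable ψ) {ι : Type} [Fintype ι] (v : Pt) (ℓ : ℝ) :
    Zp ψ (fun _ : ι => tcube v ℓ) = Zp ψ (fun _ : ι => cube ℓ) := by
  unfold Zp
  have hmp : MeasurePreserving (fun (x : ι → Pt) => (fun _ : ι => v) + x) volume volume :=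
    measurePreserving_add_left volume _
  have h := hmp.setLIntegral_comp_preimage (s := Set.pi Set.univ fun _ : ι => tcube v ℓ)
    (MeasurableSet.univ_pi fun _ => measurableSet_tcube v ℓ) (measurable_bf (ι := ι) hψ)
  rw [← h]
  have hset : (fun (x : ι → Pt) => (fun _ : ι => v) + x) ⁻¹' (Set.pi Set.univ fun _ : ι => tcube v ℓ)
      = Set.pi Set.univ fun _ : ι => cube ℓ := by
    ext x
    simp [tcube, Set.mem_pi]
  rw [hset]
  refine lintegral_congr fun x => ?_
  unfold bf
  have := En_translate ψ v x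
  exact congrArg (fun t => ENNReal.ofReal (Real.exp (-t))) this

theorem Zp_tcube {ψ : ℝ → ℝ} (hψ : Measurable ψ) {ι : Type} [Fintype ι] (v : Pt) (ℓ : ℝ) :
    Zp ψ (fun _ : ι => tcube v ℓ) = Zc ψ ℓ (Fintype.card ι) := by
  rw [Zp_translate hψ, Zc]
  exact Zp_reindex hψ (Fintype.equivFin ι) _ (measurableSet_cube ℓ)

set_option backward.isDefEq.respectTransparency false in
theorem lintegral_fin_prod {n : ℕ} {E : Fin n → Type} {mE : ∀ i, MeasurableSpace (E i)}
    {μ : (i : Fin n) → Measure (E i)} [∀ i, SigmaFinite (μ i)]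
    (f : (i : Fin n) → E i → ℝ≥0∞) (hf : ∀ i, Measurable (f i)) :
    ∫⁻ x : (i : Fin n) → E i, ∏ i, f i (x i) ∂(Measure.pi μ) = ∏ i, ∫⁻ x, f i x ∂(μ i) := by
  induction n with
  | zero => simp
  | succ n ih =>
    calc
      _ = ∫⁻ x : E 0 × ((i : Fin n) → E (Fin.succ i)),
            f 0 x.1 * ∏ i : Fin n, f (Fin.succ i) (x.2 i)
            ∂((μ 0).prod (Measure.pi (fun i ↦ μ i.succ))) := by
          rw [← ((measurePreserving_piFinSuccAbove μ 0).symm).lintegral_comp_emb
            (MeasurableEquiv.measurableEmbedding _)]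
          simp_rw [MeasurableEquiv.piFinSuccAbove_symm_apply, Fin.insertNthEquiv,
            Fin.prod_univ_succ, Fin.insertNth_zero, Equiv.coe_fn_mk, Fin.cons_succ,
            Fin.zero_succAbove, cast_eq, Fin.cons_zero]
      _ = (∫⁻ x, f 0 x ∂μ 0)
            * ∏ i : Fin n, ∫⁻ (x : E (Fin.succ i)), f (Fin.succ i) x ∂(μ i.succ) := by
          rw [← ih _ (fun i => hf _), ← lintegral_prod_mul (hf 0).aemeasurable]
          exact (Finset.measurable_prod _ fun i _ =>
            (hf _).comp (measurable_pi_apply i)).aemeasurable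
      _ = ∏ i, ∫⁻ x, f i x ∂(μ i) := by rw [Fin.prod_univ_succ]

theorem lintegral_fintype_prod' {ι : Type} [Fintype ι] {E : ι → Type}
    {mE : ∀ i, MeasurableSpace (E i)} {μ : (i : ι) → Measure (E i)} [∀ i, SigmaFinite (μ i)]
    (f : (i : ι) → E i → ℝ≥0∞) (hf : ∀ i, Measurable (f i)) :
    ∫⁻ x : (i : ι) → E i, ∏ i, f i (x i) ∂(Measure.pi μ) = ∏ i, ∫⁻ x, f i x ∂(μ i) := by
  let e := (Fintype.equivFin ι).symm
  rw [← (measurePreserving_piCongrLeft _ e).lintegral_comp_emb
    (MeasurableEquiv.measurableEmbedding _)]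
  simp_rw [← e.prod_comp, MeasurableEquiv.coe_piCongrLeft, Equiv.piCongrLeft_apply_apply]
  exact lintegral_fin_prod (fun i => f (e i)) (fun i => hf _)

theorem measurePreserving_glue {ι C : Type} [Fintype ι] [Fintype C] (a : ι → C)
    (μ : C → Measure Pt) [∀ c, SigmaFinite (μ c)] :
    MeasurePreserving (fun (y : (c : C) → {i // a i = c} → Pt) (i : ι) => y (a i) ⟨i, rfl⟩)
      (Measure.pi fun c => Measure.pi fun _ : {i // a i = c} => μ c)
      (Measure.pi fun i => μ (a i)) := by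
  have hm : Measurable (fun (y : (c : C) → {i // a i = c} → Pt) (i : ι) => y (a i) ⟨i, rfl⟩) :=
    measurable_pi_lambda _ fun i => (measurable_pi_apply _).comp (measurable_pi_apply _)
  refine ⟨hm, ?_⟩
  symm
  refine Measure.pi_eq fun s hs => ?_
  rw [Measure.map_apply hm (MeasurableSet.univ_pi hs)]
  have hset : (fun (y : (c : C) → {i // a i = c} → Pt) (i : ι) => y (a i) ⟨i, rfl⟩) ⁻¹'
      (Set.pi Set.univ s) = Set.pi Set.univ fun c => Set.pi Set.univ fun i : {i // a i = c} => s i := by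
    ext y
    simp only [Set.mem_preimage, Set.mem_pi, Set.mem_univ, forall_true_left]
    constructor
    · rintro h c ⟨i, rfl⟩
      exact h i
    · intro h i
      exact h (a i) ⟨i, rfl⟩
  rw [hset, Measure.pi_pi]
  simp_rw [Measure.pi_pi]
  rw [← Fintype.prod_sigma' (fun c (i : {i // a i = c}) => μ c (s i))]
  rw [← (Equiv.sigmaFiberEquiv a).prod_comp]
  refine Finset.prod_congr rfl ?_
  rintro ⟨c, i, rfl⟩ _
  rfl

/-- Factorisation of a configuration integral along the fibres of an assignment. -/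
theorem lintegral_factor {ι C : Type} [Fintype ι] [Fintype C] (a : ι → C) (Λ : C → Set Pt)
    (F : (c : C) → ({i // a i = c} → Pt) → ℝ≥0∞) (hF : ∀ c, Measurable (F c)) :
    ∫⁻ x in Set.pi Set.univ (fun i => Λ (a i)), ∏ c, F c (res a c x)
      = ∏ c, ∫⁻ y in Set.pi Set.univ (fun _ : {i // a i = c} => Λ c), F c y := by
  have hmp := measurePreserving_glue a (fun c => volume.restrict (Λ c))
  have hmeas : Measurable (fun x : ι → Pt => ∏ c, F c (res a c x)) :=
    Finset.measurable_prod _ fun c _ => (hF c).comp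
      (measurable_pi_lambda _ fun i => measurable_pi_apply _)
  rw [volume_pi, Measure.restrict_pi_pi, ← hmp.lintegral_comp hmeas]
  simp_rw [volume_pi, Measure.restrict_pi_pi]
  rw [← lintegral_fintype_prod' F hF]
  refine lintegral_congr fun y => Finset.prod_congr rfl fun c _ => ?_
  congr 1
  funext ⟨i, hi⟩
  subst hi
  rfl

end Crest.Agent.R149
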