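import Crest.Agent.R149.Cell

set_option autoImplicit false

namespace Crest.Agent.R149

open MeasureTheory Crest.ProbabilityR.Continuum Classical Filter Topology
open scoped ENNReal BigOperators

theorem Core.good_sub2 {φ σ τ : ℝ → ℝ} {K δ η θ A A' : ℝ} (h : Core φ K δ η θ) (hσ : Tail σ A 2)
    (hτ : Tail τ A' 2) (hK : 1032 * mm * (A + A') ≤ K) : Good (φ - σ - τ) := by
  rw [sub_sub]
  exact h.good_sub (hσ.add two_pos hτ) le_rfl hK

theorem kappa_le {ℓ z : ℝ} (hℓ : 0 < ℓ) (hz : 1 / ℓ ≤ z) (hz1 : z ≤ 1 / 10000) :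
    (ℓ + 2) ^ 3 ≤ (1 + 7 * z) * ℓ ^ 3 := by
  have h1 : 1 ≤ z * ℓ := by rwa [div_le_iff₀ hℓ] at hz
  have hz0 : 0 < z := lt_of_lt_of_le (by positivity) hz
  have h2 : (ℓ + 2) ^ 3 ≤ ((1 + 2 * z) * ℓ) ^ 3 := pow_le_pow_left₀ (by positivity) (by linarith) 3
  have h3 : (1 + 2 * z) ^ 3 ≤ 1 + 7 * z := by nlinarith [mul_pos hz0 hz0]
  rw [mul_pow] at h2
  exact h2.trans (mul_le_mul_of_nonneg_right h3 (by positivity))

/-- Comparison of two long-range tails over the same short-range part. -/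
theorem cmp {φ σ τ τ' : ℝ → ℝ} {K δ η θ Aσ A A' R R' ℓ z s γ ν x : ℝ} {m : ℕ}
    (h : Core φ K δ η θ) (hσ : Tail σ Aσ 2) (hR' : 0 < R') (hσR : ∀ r, R' ≤ r → σ r = 0)
    (hτ : Tail τ A R) (hτ' : Tail τ' A' R) (hR : 2 ≤ R)
    (hK : 1032 * mm * (2 * Aσ + 2 * A) ≤ K) (hK' : 1032 * mm * (Aσ + A') ≤ K)
    (hm : 0 < m) (hℓ : ℓ = m * R') (hz1 : 1 / (m : ℝ) ≤ z) (hz2 : ℓ / R ≤ z) (hz3 : 1 / ℓ ≤ z)
    (hz : z ≤ 1 / 10000) (hs : 0 ≤ s) (hA' : A' ≤ A + (1 - 3000 * z) * s) (hγ : γ ≤ 0)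
    (hmin : ∀ y, 0 ≤ y → γ + ν * y + s / 2 * y ^ 2 ≤ G (φ - σ - τ) y) (hx : 0 ≤ x) :
    γ + ν * x - z * (2000 * (γ + ν * x) - 7 * γ + 2000 * (1 + K) * (2 + x) + (x + 1))
      ≤ G (φ - σ - τ') x := by
  have hℓ0 : 0 < ℓ := by rw [hℓ]; positivity
  have hz0 : 0 < z := lt_of_lt_of_le (by positivity) hz3
  have hℓ1 : 1 ≤ ℓ := by
    have : 1 / ℓ ≤ 1 := by linarith
    rwa [div_le_one hℓ0] at this
  have hR0 : 0 < R := by linarith
  have hAσ := hσ.Anonneg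
  have hA := hτ.Anonneg
  have hA'0 := hτ'.Anonneg
  have hm0 := mm_pos
  have hK0 := h.Knn
  set lam := 2000 * z with hlam
  set μ := 1 + lam with hμ
  have hμ0 : 0 ≤ μ := by positivity
  have hμ2 : μ ≤ 2 := by linarith
  have hτ2 := hτ.mono two_pos hR
  have hτ2' := hτ'.mono two_pos hR
  have hG1 : Good (φ - σ - τ) := h.good_sub2 hσ hτ2
    ((mul_le_mul_of_nonneg_left (by linarith) (by positivity)).trans hK)
  have hG1' : Good (φ - σ - τ') := h.good_sub2 hσ hτ2' hK'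
  have hG2 : Good (φ - μ • σ) := h.good_sub (hσ.smul hμ0) le_rfl (by
    have : μ * Aσ ≤ 2 * Aσ + 2 * A := by nlinarith only [hμ2, hAσ, hA]
    exact (mul_le_mul_of_nonneg_left this (by positivity)).trans hK)
  have hG3 : Good (φ - μ • σ - μ • τ) := h.good_sub2 (hσ.smul hμ0) (hτ2.smul hμ0) (by
    have : μ * Aσ + μ * A ≤ 2 * Aσ + 2 * A := by nlinarith only [hμ2, hAσ, hA]
    exact (mul_le_mul_of_nonneg_left this (by positivity)).trans hK)
  have hT4 := (hσ.smul (c := 2) (by norm_num)).add two_pos (hτ2.smul (c := 2) (by norm_num))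
  have hG4 : Good (φ - ((2 : ℝ) • σ + (2 : ℝ) • τ)) := h.good_sub hT4 le_rfl hK
  have hS4 : Stab (φ - ((2 : ℝ) • σ + (2 : ℝ) • τ)) (K / 2) := h.stab hT4 le_rfl hK
  set b := ℓ + 2 with hb
  have hb0 : 0 < b := by positivity
  have hκ := kappa_le hℓ0 hz3 hz
  have hbR : b / R ≤ 3 * z := by
    have : b / R ≤ 3 * (ℓ / R) := by
      rw [← mul_div_assoc]; gcongr; linarith
    linarith
  have hlow := (hτ.smul hμ0).hlow hb0 hR0 hbR (by linarith)
  have hup := hτ'.hup hℓ0 hR0 hz2 (by linarith) le_rfl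
  have hW : ∀ n : ℕ, b ^ 3 * ((1 - lam) * γ - lam) + ((1 - lam) * ν - lam * (K / 2)) * n
      + A' * (1 + 512 * z) / ℓ ^ 3 / 2 * (n : ℝ) ^ 2 ≤ W (φ - μ • σ) ℓ n := by
    intro n
    have a1 := LPupper hG2 (hτ.dec.smul hμ0) hG3 hℓ0 hlow n
    rw [← hb] at a1
    set y := (n : ℝ) / b ^ 3 with hy
    have hy0 : 0 ≤ y := by positivity
    have hny : (n : ℝ) = y * b ^ 3 := by rw [hy]; field_simp
    have a2 := G_concave hG1 hG4 (a := 1 - lam) (b := lam) (by linarith) (by positivity)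
      (by ring) hy0
    have e : (1 - lam) • (φ - σ - τ) + lam • (φ - ((2 : ℝ) • σ + (2 : ℝ) • τ)) = φ - μ • σ - μ • τ := by
      funext r
      simp only [Pi.add_apply, Pi.smul_apply, Pi.sub_apply, smul_eq_mul, hμ]
      ring
    rw [e] at a2
    have a3 := G_lower hG4.meas hS4 hy0
    have a4 := hmin y hy0
    have a5 := mul_le_mul_of_nonneg_left a3 (show 0 ≤ lam by positivity)
    have a6 := mul_le_mul_of_nonneg_left a4 (show 0 ≤ 1 - lam by linarith)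
    have a7 : (1 - lam) * (γ + ν * y + s / 2 * y ^ 2) + lam * (-1 - K / 2 * y)
        ≤ (W (φ - μ • σ) ℓ n - μ * A * (1 - 272 * (3 * z)) / b ^ 3 / 2 * (n : ℝ) ^ 2) / b ^ 3 := by
      linarith
    rw [le_div_iff₀ (by positivity)] at a7
    have a8 : A' * (1 + 512 * z) / ℓ ^ 3 ≤ ((1 - lam) * s + μ * A * (1 - 272 * (3 * z))) / b ^ 3 := by
      rw [div_le_div_iff₀ (by positivity) (by positivity)]
      have b1 : A' * (1 + 512 * z) * b ^ 3 ≤ A' * (1 + 512 * z) * ((1 + 7 * z) * ℓ ^ 3) := by gcongr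
      have b2 : (1 + 512 * z) * (1 + 7 * z) ≤ 1 + 520 * z := by nlinarith only [hz, hz0]
      have b3 : A' * ((1 + 512 * z) * (1 + 7 * z)) ≤ (A + (1 - 3000 * z) * s) * (1 + 520 * z) :=
        mul_le_mul hA' b2 (by positivity) (by linarith)
      have b4 : 1 + 520 * z ≤ μ * (1 - 272 * (3 * z)) := by
        rw [hμ, hlam]; nlinarith only [hz, hz0]
      have b5 : (1 - 3000 * z) * (1 + 520 * z) ≤ 1 - lam := by
        rw [hlam]; nlinarith only [hz, hz0]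
      have b6 := mul_le_mul_of_nonneg_left b4 hA
      have b7 := mul_le_mul_of_nonneg_right b5 hs
      have b8 : A' * ((1 + 512 * z) * (1 + 7 * z)) ≤ (1 - lam) * s + μ * A * (1 - 272 * (3 * z)) := by
        linarith
      have b9 := mul_le_mul_of_nonneg_right b8 (show 0 ≤ ℓ ^ 3 by positivity)
      linarith
    have a9 := mul_le_mul_of_nonneg_right a8 (show 0 ≤ (n : ℝ) ^ 2 / 2 by positivity)
    have e2 : ((1 - lam) * (γ + ν * y + s / 2 * y ^ 2) + lam * (-1 - K / 2 * y)) * b ^ 3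
        = b ^ 3 * ((1 - lam) * γ - lam) + ((1 - lam) * ν - lam * (K / 2)) * n
          + (1 - lam) * s / b ^ 3 * ((n : ℝ) ^ 2 / 2) := by
      rw [hny]; field_simp; ring
    have e3 : ((1 - lam) * s + μ * A * (1 - 272 * (3 * z))) / b ^ 3 * ((n : ℝ) ^ 2 / 2)
        = (1 - lam) * s / b ^ 3 * ((n : ℝ) ^ 2 / 2)
          + μ * A * (1 - 272 * (3 * z)) / b ^ 3 / 2 * (n : ℝ) ^ 2 := by ring
    linarith
  have hμm : 1 ≤ μ * (1 - 3 / m) := by
    have e : (3 : ℝ) / m = 3 * (1 / m) := by ring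
    have : 1 - 3 * z ≤ 1 - 3 / (m : ℝ) := by linarith
    have b4 : 1 ≤ μ * (1 - 3 * z) := by
        rw [hμ, hlam]; nlinarith only [hz, hz0]
    exact b4.trans (mul_le_mul_of_nonneg_left this hμ0)
  have hfin := LPlower h.nonneg (fun r _ => hσ.dec.nonneg r) hR' hσR hm hμ0 hμm hτ'.dec
    (by positivity) hℓ hℓ1 hup hG1' hG2 _ _ hW hx
  refine le_trans ?_ hfin
  have c1 : (x + 1) / ℓ ≤ z * (x + 1) := by
    have : (x + 1) / ℓ = 1 / ℓ * (x + 1) := by ring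
    rw [this]; gcongr
  have c2 : (1 + 7 * z) * ((1 - lam) * γ - lam) ≤ b ^ 3 * ((1 - lam) * γ - lam) / ℓ ^ 3 := by
    rw [le_div_iff₀ (by positivity)]
    have c3 : (1 - lam) * γ - lam ≤ 0 := by
      have : (1 - lam) * γ ≤ 0 := mul_nonpos_of_nonneg_of_nonpos (by linarith) hγ
      have : 0 ≤ lam := by positivity
      linarith
    nlinarith only [c3, hκ]
  have c4 : 0 ≤ z * z * (-γ) := by have : 0 ≤ -γ := by linarith
                                   positivity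
  have c5 : 0 ≤ z * K := by positivity
  have c6 : 0 ≤ z * K * x := by positivity
  have c7 : 0 ≤ z * x := by positivity
  have c8 : z * z ≤ z * (1 / 10000) := by gcongr
  rw [hlam] at c2 ⊢
  linarith only [c1, c2, c4, c5, c6, c7, c8, hz0]

/-- One-sided directional bound for the free energy at `ψ` in direction `-d`. -/
def Bd (ψ d : ℝ → ℝ) (x q : ℝ) : Prop :=
  ∃ σ₀, 0 < σ₀ ∧ ∀ σ, 0 ≤ σ → σ ≤ σ₀ → Good (ψ - σ • d) ∧ G ψ x - σ * q ≤ G (ψ - σ • d) x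

theorem Bd.of_point {ψ d : ℝ → ℝ} {x q σ₀ : ℝ} (hψ : Good ψ) (hx : 0 ≤ x) (h0 : 0 < σ₀)
    (hG : Good (ψ - σ₀ • d)) (h : G ψ x - σ₀ * q ≤ G (ψ - σ₀ • d) x) : Bd ψ d x q := by
  refine ⟨σ₀, h0, fun σ hσ0 hσ => ?_⟩
  have ht0 : 0 ≤ σ / σ₀ := by positivity
  have ht1 : σ / σ₀ ≤ 1 := by rwa [div_le_one h0]
  have e : (1 - σ / σ₀) • ψ + (σ / σ₀) • (ψ - σ₀ • d) = ψ - σ • d := by
    funext r
    simp only [Pi.add_apply, Pi.smul_apply, Pi.sub_apply, smul_eq_mul]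
    field_simp; ring
  have h1 := G_concave hψ hG (a := 1 - σ / σ₀) (b := σ / σ₀) (by linarith) ht0 (by ring) hx
  have h2 := hψ.convex_comb hG (a := 1 - σ / σ₀) (b := σ / σ₀) (by linarith) ht0
  rw [e] at h1 h2
  refine ⟨h2, le_trans ?_ h1⟩
  have h3 := mul_le_mul_of_nonneg_left h ht0
  have e2 : σ / σ₀ * (G ψ x - σ₀ * q) = σ / σ₀ * G ψ x - σ * q := by field_simp
  linarith

theorem Bd.add {ψ d d' : ℝ → ℝ} {x q q' : ℝ} (hx : 0 ≤ x) (h : Bd ψ d x q) (h' : Bd ψ d' x q') :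
    Bd ψ (d + d') x (q + q') := by
  obtain ⟨a, ha, h⟩ := h
  obtain ⟨a', ha', h'⟩ := h'
  refine ⟨min a a' / 2, by positivity, fun σ hσ0 hσ => ?_⟩
  obtain ⟨g1, g2⟩ := h (2 * σ) (by positivity) (by linarith [min_le_left a a'])
  obtain ⟨g1', g2'⟩ := h' (2 * σ) (by positivity) (by linarith [min_le_right a a'])
  have e : (1 / 2 : ℝ) • (ψ - (2 * σ) • d) + (1 / 2 : ℝ) • (ψ - (2 * σ) • d') = ψ - σ • (d + d') := by
    funext r
    simp only [Pi.add_apply, Pi.smul_apply, Pi.sub_apply, smul_eq_mul]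
    ring
  have h1 := G_concave g1 g1' (a := 1 / 2) (b := 1 / 2) (by norm_num) (by norm_num) (by norm_num) hx
  have h2 := g1.convex_comb g1' (a := 1 / 2) (b := 1 / 2) (by norm_num) (by norm_num)
  rw [e] at h1 h2
  exact ⟨h2, by linarith⟩

theorem Bd.smul {ψ d : ℝ → ℝ} {x q c : ℝ} (h : Bd ψ d x q) (hc : 0 ≤ c) :
    Bd ψ (c • d) x (c * q) := by
  obtain ⟨a, ha, h⟩ := h
  refine ⟨a / (c + 1), by positivity, fun σ hσ0 hσ => ?_⟩
  rw [le_div_iff₀ (by positivity)] at hσ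
  have := h (σ * c) (by positivity) (by nlinarith)
  rw [smul_smul, ← mul_assoc]
  exact this

theorem Bd.mono {ψ d : ℝ → ℝ} {x q q' : ℝ} (h : Bd ψ d x q) (hq : q ≤ q') : Bd ψ d x q' := by
  obtain ⟨a, ha, h⟩ := h
  refine ⟨a, ha, fun σ hσ0 hσ => ⟨(h σ hσ0 hσ).1, le_trans ?_ (h σ hσ0 hσ).2⟩⟩
  have := mul_le_mul_of_nonneg_left hq hσ0
  linarith

theorem Bd.zero {ψ : ℝ → ℝ} (hψ : Good ψ) (x : ℝ) : Bd ψ 0 x 0 :=
  ⟨1, one_pos, fun σ _ _ => by simpa using hψ⟩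

theorem Bd.sum {ψ : ℝ → ℝ} (hψ : Good ψ) {x : ℝ} (hx : 0 ≤ x) (d : ℕ → ℝ → ℝ) (q : ℕ → ℝ)
    (h : ∀ i, Bd ψ (d i) x (q i)) (k : ℕ) :
    Bd ψ (∑ i ∈ Finset.range k, d i) x (∑ i ∈ Finset.range k, q i) := by
  induction k with
  | zero => simpa using Bd.zero hψ x
  | succ k ih =>
    rw [Finset.sum_range_succ, Finset.sum_range_succ]
    exact ih.add hx (h k)

theorem Bd.back {ψ d : ℝ → ℝ} {x q t : ℝ} (h : Bd ψ d x q) (hx : 0 ≤ x) (ht : 0 ≤ t)
    (hG : Good (ψ + t • d)) : G (ψ + t • d) x ≤ G ψ x + t * q := by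
  obtain ⟨a, ha, h⟩ := h
  obtain ⟨g1, g2⟩ := h a ha.le le_rfl
  have hs : 0 < a + t := by positivity
  have e : (a / (a + t)) • (ψ + t • d) + (t / (a + t)) • (ψ - a • d) = ψ := by
    funext r
    simp only [Pi.add_apply, Pi.smul_apply, Pi.sub_apply, smul_eq_mul]
    field_simp; ring
  have h1 := G_concave hG g1 (a := a / (a + t)) (b := t / (a + t)) (by positivity) (by positivity)
    (by field_simp) hx
  rw [e] at h1
  have h2 := mul_le_mul_of_nonneg_left g2 (show 0 ≤ t / (a + t) by positivity)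
  have h3 : a / (a + t) * G (ψ + t • d) x + t / (a + t) * (G ψ x - a * q) ≤ G ψ x := by linarith
  have h4 : a / (a + t) * G (ψ + t • d) x + t / (a + t) * (G ψ x - a * q)
      = (a * G (ψ + t • d) x + t * (G ψ x - a * q)) / (a + t) := by ring
  rw [h4, div_le_iff₀ hs] at h3
  have h5 : a * G (ψ + t • d) x ≤ a * (G ψ x + t * q) := by linarith
  exact le_of_mul_le_mul_left h5 ha

/-- Supporting line of a convex function on `[0, ∞)` at a positive point. -/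
theorem exists_support {g : ℝ → ℝ} (hg : ConvexOn ℝ (Set.Ici 0) g) {x : ℝ} (hx : 0 < x) :
    ∃ ν : ℝ, ∀ y, 0 ≤ y → g x + ν * (y - x) ≤ g y := by
  have hbdd : ∀ y, 0 ≤ y → y < x → ∀ w, x < w → (g x - g y) / (x - y) ≤ (g w - g x) / (w - x) :=
    fun y hy hyx w hw => hg.slope_mono_adjacent hy (show w ∈ Set.Ici 0 from (hx.trans hw).le) hyx hw
  set S := (fun w => (g w - g x) / (w - x)) '' Set.Ioi x with hS
  have hne : S.Nonempty := Set.Nonempty.image _ Set.nonempty_Ioi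
  have hb : BddBelow S := ⟨(g x - g 0) / (x - 0), by
    rintro _ ⟨w, hw, rfl⟩
    exact hbdd 0 le_rfl hx w hw⟩
  refine ⟨sInf S, fun y hy => ?_⟩
  rcases lt_trichotomy y x with h | h | h
  · have h1 : (g x - g y) / (x - y) ≤ sInf S := le_csInf hne (by
      rintro _ ⟨w, hw, rfl⟩
      exact hbdd y hy h w hw)
    rw [div_le_iff₀ (by linarith)] at h1
    linarith
  · subst h; simp
  · have h1 : sInf S ≤ (g y - g x) / (y - x) := csInf_le hb ⟨y, h, rfl⟩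
    rw [le_div_iff₀ (by linarith)] at h1
    linarith

end Crest.Agent.R149
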