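import Crest.Agent.R149.Core

set_option autoImplicit false

namespace Crest.Agent.R149

open MeasureTheory Crest.ProbabilityR.Continuum Classical Filter Topology
open scoped ENNReal BigOperators

theorem volume_closedBall' (x : Pt) {r : ℝ} (hr : 0 ≤ r) :
    volume (Metric.closedBall x r) = ENNReal.ofReal (Real.pi * 4 / 3 * r ^ 3) := by
  rw [Measure.addHaar_closedBall_eq_addHaar_ball, volume_ball' x hr]

theorem turan_pos {n α D : ℝ} (hα : 0 < α) (hD0 : 0 ≤ D) (h : n * (n - α) / α ≤ D) :
    max (n - α) 0 ≤ D := by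
  refine max_le ?_ hD0
  by_cases hn : n ≤ α
  · linarith
  · refine le_trans ?_ h
    rw [le_div_iff₀ hα]
    nlinarith [not_le.mp hn]

/-- Lower bound on the free energy of a cell for the short-range part. -/
theorem Core.W_ge {φ : ℝ → ℝ} {K δ η θ : ℝ} (h : Core φ K δ η θ) {s ℓ : ℝ} (hs0 : 0 ≤ s)
    (hs : Real.exp (-s) = Real.pi * 4 / 3 * δ ^ 3) (hK : 4 * s ≤ K) (hℓ : 0 < ℓ) (n : ℕ) :
    s * max ((n : ℝ) - packingNumber ℓ) 0
      + K / 4 * max ((n : ℝ) * (n - mm * packingNumber ℓ) / (mm * packingNumber ℓ)) 0 - n - ℓ ^ 3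
      ≤ W φ ℓ n := by
  set π : ℝ := (packingNumber ℓ : ℝ) with hπ
  have hπ1 : 1 ≤ π := by rw [hπ]; exact_mod_cast one_le_packingNumber hℓ.le
  have hπ0 : 0 < π := by linarith
  set E₀ := s * max ((n : ℝ) - π) 0 + K / 4 * max ((n : ℝ) * (n - mm * π) / (mm * π)) 0 with hE₀
  have hδ := h.δpos
  have hδ1 : δ ≤ 1 / 2 := by linarith [h.δle, h.θle]
  set A : (Fin n → Fin n) → Fin n → Set Pt :=
    fun f i => if f i = i then cube ℓ else Metric.closedBall 0 δ with hA
  have hAm : ∀ f i, MeasurableSet (A f i) := fun f i => by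
    simp only [hA]
    split_ifs
    · exact measurableSet_cube ℓ
    · exact measurableSet_closedBall
  set wt : (Fin n → Fin n) → ℝ := fun f => Real.exp (-E₀) * ∏ i, if f i = i then 1 else Real.exp s
    with hwt
  set F : (Fin n → Fin n) → (Fin n → Pt) → ℝ≥0∞ := fun f x =>
    if ∀ i, f (f i) = f i then (forest f (A f)).indicator (fun _ => ENNReal.ofReal (wt f)) x else 0
    with hF
  have hFm : ∀ f, Measurable (F f) := fun f => by
    simp only [hF]
    split_ifs
    · exact measurable_const.indicator (measurableSet_forest f _ (hAm f))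
    · exact measurable_const
  have h1 : Zc φ ℓ n ≤ ∑ f, ∫⁻ x, F f x := by
    rw [← lintegral_finsetSum _ (fun f _ => hFm f)]
    unfold Zc Zp
    refine le_trans ?_ (setLIntegral_le_lintegral (Set.pi Set.univ fun _ : Fin n => cube ℓ) _)
    refine setLIntegral_mono' (MeasurableSet.univ_pi fun i => measurableSet_cube _) ?_
    intro x hx
    have hx' : ∀ i, x i ∈ cube ℓ := fun i => hx i (Set.mem_univ _)
    obtain ⟨I, -, hI, hmax⟩ := exists_max_indep (fun i j => dist (x i) (x j) ≤ δ)
      (fun i j h => by rwa [dist_comm]) Finset.univ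
    have hex : ∀ v, ∃ u, u ∈ I ∧ (v ∈ I → u = v) ∧ dist (x v) (x u) ≤ δ := by
      intro v
      by_cases hvI : v ∈ I
      · exact ⟨v, hvI, fun _ => rfl, by simpa using hδ.le⟩
      · obtain ⟨u, hu, hd⟩ := hmax v (Finset.mem_univ _) hvI
        exact ⟨u, hu, fun h => absurd h hvI, hd⟩
    choose f hf1 hf2 hf3 using hex
    have hff : ∀ i, f (f i) = f i := fun i => hf2 _ (hf1 i)
    have hfix : ∀ i, f i = i ↔ i ∈ I := fun i => ⟨fun e => e ▸ hf1 i, hf2 i⟩
    refine le_trans ?_ (Finset.single_le_sum (f := fun f => F f x) (fun _ _ => zero_le)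
      (Finset.mem_univ f))
    simp only [hF]
    rw [if_pos hff, Set.indicator_of_mem]
    · unfold bf
      refine ENNReal.ofReal_le_ofReal ?_
      have e1 : ∏ i, (if f i = i then 1 else Real.exp s) = Real.exp (s * (n - I.card)) := by
        have : ∀ i, (if f i = i then 1 else Real.exp s) = Real.exp (s - if i ∈ I then s else 0) := by
          intro i
          by_cases hi : i ∈ I
          · rw [if_pos ((hfix i).mpr hi), if_pos hi]; simp
          · rw [if_neg (fun e => hi ((hfix i).mp e)), if_neg hi]; simp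
        simp_rw [this]
        rw [← Real.exp_sum, Finset.sum_sub_distrib, Finset.sum_ite_mem]
        simp only [Finset.sum_const, Finset.card_univ, Fintype.card_fin, nsmul_eq_mul,
          Finset.univ_inter]
        congr 1; ring
      simp only [hwt]
      rw [e1, ← Real.exp_add, Real.exp_le_exp]
      have hb : ∀ i j, i ≠ j → badP δ x i j → K ≤ φ (dist (x i) (x j)) :=
        fun i j _ hb => h.bad _ dist_nonneg hb.1 hb.2
      have a1 := En_ge_Dbad h.nonneg h.Knn x _ hb Finset.univ
      have a2 := En_ge_Dbad h.nonneg h.Knn x _ hb I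
      have a3 := turan (badP δ x) (badP_symm δ x) (α := mm * π) (mul_pos mm_pos hπ0) Finset.univ
        fun S _ hS => by rw [hπ]; exact_mod_cast indep_card hδ hδ1 hℓ.le x hx' S hS
      have a4 := turan (badP δ x) (badP_symm δ x) hπ0 I fun S hSI hS => by
        rw [hπ]
        exact_mod_cast sep_finset_card hℓ.le x hx' S fun i hi j hj hij => by
          have b1 := hS i hi j hj hij
          have b2 := hI i (hSI hi) j (hSI hj) hij
          unfold badP at b1
          by_contra b3
          exact b1 ⟨not_le.mp b3, fun b4 => b2 b4.2.le⟩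
      rw [Finset.card_univ, Fintype.card_fin] at a3
      have a5 := turan_pos hπ0 (Dbad_nonneg _ _) a4
      have a6 : max ((n : ℝ) * (n - mm * π) / (mm * π)) 0 ≤ Dbad (badP δ x) Finset.univ :=
        max_le a3 (Dbad_nonneg _ _)
      have a7 : (I.card : ℝ) ≤ n := by
        have := Finset.card_le_univ I
        rw [Fintype.card_fin] at this
        exact_mod_cast this
      have a8 : max ((n : ℝ) - π) 0 ≤ (n - I.card) + max ((I.card : ℝ) - π) 0 :=
        max_le (by linarith [le_max_left ((I.card : ℝ) - π) 0])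
          (by linarith [le_max_right ((I.card : ℝ) - π) 0])
      have a9 := mul_le_mul_of_nonneg_left a8 hs0
      have a10 : s * max ((I.card : ℝ) - π) 0 ≤ K / 4 * Dbad (badP δ x) I :=
        mul_le_mul (by linarith) a5 (le_max_right _ _) (by linarith [h.Knn])
      have a11 := mul_le_mul_of_nonneg_left a6 (show 0 ≤ K / 4 by linarith [h.Knn])
      linarith
    · intro i
      simp only [hA]
      split_ifs with hi
      · exact hx' i
      · simpa [dist_eq_norm] using hf3 i
  have h2 : ∀ f, ∫⁻ x, F f x ≤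
      ENNReal.ofReal (Real.exp (-E₀) * ∏ i, if f i = i then ℓ ^ 3 else 1) := by
    intro f
    simp only [hF]
    split_ifs with hff
    · rw [lintegral_indicator_const (measurableSet_forest f _ (hAm f)), volume_forest f hff _ (hAm f)]
      simp only [hwt]
      rw [ENNReal.ofReal_mul (Real.exp_pos _).le, ENNReal.ofReal_mul (Real.exp_pos _).le, mul_assoc,
        ENNReal.ofReal_prod_of_nonneg (fun i _ => by split_ifs <;> positivity),
        ENNReal.ofReal_prod_of_nonneg (fun i _ => by split_ifs <;> positivity),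
        ← Finset.prod_mul_distrib]
      refine le_of_eq (congrArg _ (Finset.prod_congr rfl fun i _ => ?_))
      simp only [hA]
      split_ifs
      · rw [volume_cube hℓ.le]; simp
      · rw [volume_closedBall' 0 hδ.le, ← hs, ← ENNReal.ofReal_mul (Real.exp_pos _).le,
          ← Real.exp_add]
        simp
    · simp
  have h3 : ∑ f : Fin n → Fin n, ∏ i, (if f i = i then ℓ ^ 3 else 1) ≤ (ℓ ^ 3 + n) ^ n := by
    rw [← Fintype.prod_sum (fun (i j : Fin n) => if j = i then ℓ ^ 3 else (1 : ℝ))]
    calc _ ≤ ∏ _i : Fin n, (ℓ ^ 3 + n) := by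
          refine Finset.prod_le_prod (fun i _ => Finset.sum_nonneg fun j _ => by
            split_ifs <;> positivity) fun i _ => ?_
          calc _ ≤ ∑ j : Fin n, ((if j = i then ℓ ^ 3 else 0) + 1) :=
                Finset.sum_le_sum fun j _ => by split_ifs <;> simp
            _ = _ := by rw [Finset.sum_add_distrib]; simp
      _ = _ := by simp
  have h4 : Zc φ ℓ n ≤ ENNReal.ofReal (Real.exp (-E₀) * (ℓ ^ 3 + n) ^ n) := by
    refine h1.trans ((Finset.sum_le_sum fun f _ => h2 f).trans ?_)
    rw [← ENNReal.ofReal_sum_of_nonneg (fun f _ => mul_nonneg (Real.exp_pos _).le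
      (Finset.prod_nonneg fun i _ => by split_ifs <;> positivity)), ← Finset.mul_sum]
    exact ENNReal.ofReal_le_ofReal (mul_le_mul_of_nonneg_left h3 (Real.exp_pos _).le)
  refine le_W h.meas hℓ n ?_
  unfold Zn
  rw [ENNReal.div_le_iff (by exact_mod_cast Nat.factorial_ne_zero _) (ENNReal.natCast_ne_top _)]
  refine h4.trans ?_
  rw [← ENNReal.ofReal_natCast, ← ENNReal.ofReal_mul (by positivity)]
  refine ENNReal.ofReal_le_ofReal ?_
  have h5 := Real.pow_div_factorial_le_exp (ℓ ^ 3 + n) (by positivity) n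
  rw [div_le_iff₀ (by positivity)] at h5
  have e : -(E₀ - n - ℓ ^ 3) = -E₀ + (ℓ ^ 3 + n) := by ring
  rw [e, Real.exp_add, mul_assoc]
  exact mul_le_mul_of_nonneg_left h5 (Real.exp_pos _).le

/-- Upper bound on the free energy of one cluster in a small cube. -/
theorem Core.W_cluster {φ : ℝ → ℝ} {K δ η θ : ℝ} (h : Core φ K δ η θ) (hη : 0 < η) {j : ℕ}
    (z : Fin (j + 1) → Pt)
    (hz : ∀ i i', i ≠ i' → 1 / 2 + 3 * η ≤ dist (z i) (z i') ∧ dist (z i) (z i') ≤ 1 - 3 * η)
    (hη1 : η ≤ 1 / 12) {s : ℝ} (hs : Real.exp (-s) = Real.pi * 4 / 3 * δ ^ 3) :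
    W φ θ (j + 1) ≤ j * s + (-Real.log (Real.pi * 4 / 3 * (θ / 4) ^ 3) - j * Real.log (η ^ 3)
      + Real.log ((j + 1).factorial)) := by
  have hδ := h.δpos
  have hθ : 0 < θ := by linarith [h.δle]
  set ctr : Pt := WithLp.toLp 2 fun _ => θ / 2 with hctr
  set f : Fin (j + 1) → Fin (j + 1) := fun _ => 0 with hf
  set A : Fin (j + 1) → Set Pt := fun i =>
    if i = 0 then Metric.ball ctr (θ / 4) else Metric.ball (δ • (z i - z 0)) (δ * η) with hA
  have hAm : ∀ i, MeasurableSet (A i) := fun i => by
    simp only [hA]; split_ifs <;> exact measurableSet_ball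
  have hvol : volume (forest f A) = ENNReal.ofReal (Real.pi * 4 / 3 * (θ / 4) ^ 3 *
      (Real.exp (-s) * η ^ 3) ^ j) := by
    rw [volume_forest f (fun _ => rfl) A hAm, Fin.prod_univ_succ]
    simp only [hA, if_true, Fin.succ_ne_zero, if_false]
    rw [volume_ball' _ (by positivity)]
    simp_rw [volume_ball' _ (by positivity : 0 ≤ δ * η)]
    rw [Finset.prod_const, Finset.card_univ, Fintype.card_fin,
      ← ENNReal.ofReal_pow (by positivity), ← ENNReal.ofReal_mul (by positivity), hs]
    congr 3; ring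
  have hgood : ∀ x ∈ forest f A, (∀ i, x i ∈ cube θ) ∧ En φ x ≤ 0 := by
    intro x hx
    have h0 : dist (x 0) ctr < θ / 4 := by simpa [hA, hf] using hx 0
    have he : ∀ i, ‖x i - x 0 - δ • (z i - z 0)‖ ≤ δ * η := by
      intro i
      by_cases hi : i = 0
      · subst hi; simp; positivity
      · have := hx i
        simp only [hA, hf, if_neg hi, if_neg (Ne.symm hi), Metric.mem_ball, dist_eq_norm] at this
        exact this.le
    have hd : ∀ i i', |dist (x i) (x i') - δ * dist (z i) (z i')| ≤ 2 * (δ * η) := by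
      intro i i'
      have e1 : δ * dist (z i) (z i') = ‖δ • (z i - z i')‖ := by
        rw [norm_smul, Real.norm_eq_abs, abs_of_pos hδ, dist_eq_norm]
      rw [e1, dist_eq_norm]
      refine (abs_norm_sub_norm_le _ _).trans ?_
      have e2 : x i - x i' - δ • (z i - z i')
          = (x i - x 0 - δ • (z i - z 0)) - (x i' - x 0 - δ • (z i' - z 0)) := by
        simp only [smul_sub]; abel
      rw [e2]
      linarith [norm_sub_le (x i - x 0 - δ • (z i - z 0)) (x i' - x 0 - δ • (z i' - z 0)), he i, he i']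
    have hd' : ∀ i i', i ≠ i' →
        δ * (1 / 2 + η) ≤ dist (x i) (x i') ∧ dist (x i) (x i') ≤ δ * (1 - η) := by
      intro i i' hii
      have a1 := abs_le.mp (hd i i')
      have a2 := mul_le_mul_of_nonneg_left (hz i i' hii).1 hδ.le
      have a3 := mul_le_mul_of_nonneg_left (hz i i' hii).2 hδ.le
      constructor <;> linarith [a1.1, a1.2]
    constructor
    · intro i k
      have a1 : dist (x i) (x 0) ≤ θ / 4 := by
        by_cases hi : i = 0
        · subst hi; simp; positivity
        · have := (hd' i 0 hi).2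
          nlinarith [h.δle]
      have a2 := dist_triangle (x i) (x 0) ctr
      have a3 := abs_le.mp (coord_le_dist (x i) ctr k)
      have a4 : ctr k = θ / 2 := rfl
      rw [a4] at a3
      constructor <;> linarith [a3.1, a3.2]
    · unfold En
      refine mul_nonpos_of_nonneg_of_nonpos (by norm_num) ?_
      refine Finset.sum_nonpos fun i _ => Finset.sum_nonpos fun i' _ => ?_
      split_ifs with hii
      · exact le_rfl
      · exact h.well _ (hd' i i' hii).1 (hd' i i' hii).2
  have h1 : volume (forest f A) ≤ Zc φ θ (j + 1) := by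
    unfold Zc Zp
    refine le_trans ?_ (lintegral_mono_set (s := forest f A) fun x hx i _ => (hgood x hx).1 i)
    rw [← setLIntegral_one]
    refine setLIntegral_mono' (measurableSet_forest f A hAm) fun x hx => ?_
    unfold bf
    rw [ENNReal.one_le_ofReal]
    exact Real.one_le_exp (by linarith [(hgood x hx).2])
  refine h.good.W_le hθ _ ?_
  unfold Zn
  rw [ENNReal.le_div_iff_mul_le (Or.inl (by exact_mod_cast Nat.factorial_ne_zero _))
    (Or.inl (ENNReal.natCast_ne_top _))]
  refine le_trans (le_of_eq ?_) h1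
  rw [hvol, ← ENNReal.ofReal_natCast, ← ENNReal.ofReal_mul (by positivity)]
  congr 1
  have e : -(j * s + (-Real.log (Real.pi * 4 / 3 * (θ / 4) ^ 3) - j * Real.log (η ^ 3)
      + Real.log ((j + 1).factorial))) = Real.log (Real.pi * 4 / 3 * (θ / 4) ^ 3)
        + j * (-s + Real.log (η ^ 3)) - Real.log ((j + 1).factorial) := by ring
  rw [e, Real.exp_sub, Real.exp_add, Real.exp_nat_mul, Real.exp_add, Real.exp_log (by positivity),
    Real.exp_log (by positivity), Real.exp_log (by positivity)]
  field_simp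

/-- Placing one cluster at each site of an optimal packing. -/
theorem Core.W_packing {φ : ℝ → ℝ} {K δ η θ : ℝ} (h : Core φ K δ η θ) {ℓ' : ℝ} (hℓ' : 1 ≤ ℓ')
    (j : ℕ) : W φ ((1 + 4 * θ) * ℓ') (packingNumber ℓ' * j) ≤ packingNumber ℓ' * W φ θ j := by
  have hθ : 0 < θ := by linarith [h.δle, h.δpos]
  obtain ⟨x, hx, hsep⟩ := exists_packing (L := ℓ') (by linarith)
  have hfar : ∀ c c', c ≠ c' → ∀ y ∈ tcube ((1 + 3 * θ) • x c) θ, ∀ y' ∈ tcube ((1 + 3 * θ) • x c') θ,
      1 + θ ≤ dist y y' := by
    intro c c' hcc y hy y' hy'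
    have a1 := dist_cells_ge hy hy'
    rw [dist_smul₀, Real.norm_eq_abs, abs_of_pos (by positivity)] at a1
    have a2 := mul_le_mul_of_nonneg_left (hsep c c' hcc) (show 0 ≤ 1 + 3 * θ by positivity)
    linarith
  have := SAreal h.good h.good (fun _ : Fin (packingNumber ℓ') => j) (fun c => (1 + 3 * θ) • x c)
    (ℓ := θ) (L := (1 + 4 * θ) * ℓ') 0 hθ (by positivity) ?_ ?_ ?_
  · simpa using this
  · intro c y hy k
    have a1 := mem_tcube.mp hy k
    have a2 := hx c k
    simp only [PiLp.smul_apply, smul_eq_mul] at a1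
    constructor <;> nlinarith [a1.1, a1.2, a2.1, a2.2]
  · intro c c' hcc
    rw [Set.disjoint_left]
    intro y hy hy'
    have := hfar c c' hcc y hy y hy'
    rw [dist_self] at this
    linarith
  · intro y hy
    rw [En_split φ Sigma.fst y]
    gcongr
    exact Cr_nonpos _ _ fun i i' hii => h.far _ (hfar _ _ hii _ (hy i) _ (hy i'))

end Crest.Agent.R149
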