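import Crest.Agent.R149.LPU

set_option autoImplicit false

namespace Crest.Agent.R149

open MeasureTheory Crest.ProbabilityR.Continuum Classical Filter Topology
open scoped ENNReal BigOperators

/-- A long-range (Kac type) radial profile of total mass `A`, slowly varying on scale `R`. -/
structure Tail (τ : ℝ → ℝ) (A R : ℝ) : Prop where
  dec : Dec τ
  Anonneg : 0 ≤ A
  up : ∀ d, 0 ≤ d → d ≤ R → Iup τ d ≤ ENNReal.ofReal (A * (1 + 128 * d / R))
  low : ∀ d, 0 ≤ d → d ≤ R → ENNReal.ofReal (A * (1 - 128 * d / R)) ≤ Ilo τ d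
  zero : τ 0 ≤ A * (16 / R ^ 3)

theorem Dec.meas_up {τ : ℝ → ℝ} (h : Dec τ) (d : ℝ) :
    Measurable fun y : Pt => ENNReal.ofReal (τ (max (‖y‖ - d) 0)) :=
  ENNReal.measurable_ofReal.comp (h.meas.comp (by fun_prop))

theorem Dec.meas_lo {τ : ℝ → ℝ} (h : Dec τ) (d : ℝ) :
    Measurable fun y : Pt => ENNReal.ofReal (τ (‖y‖ + d)) :=
  ENNReal.measurable_ofReal.comp (h.meas.comp (by fun_prop))

theorem Dec.add {τ τ' : ℝ → ℝ} (h : Dec τ) (h' : Dec τ') : Dec (τ + τ') :=
  ⟨h.meas.add h'.meas, fun r => add_nonneg (h.nonneg r) (h'.nonneg r),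
    fun r s hr hrs => add_le_add (h.anti r s hr hrs) (h'.anti r s hr hrs)⟩

theorem Dec.smul {τ : ℝ → ℝ} (h : Dec τ) {c : ℝ} (hc : 0 ≤ c) : Dec (c • τ) :=
  ⟨h.meas.const_smul c, fun r => mul_nonneg hc (h.nonneg r),
    fun r s hr hrs => mul_le_mul_of_nonneg_left (h.anti r s hr hrs) hc⟩

theorem Tail.add {τ τ' : ℝ → ℝ} {A A' R : ℝ} (hR : 0 < R) (h : Tail τ A R) (h' : Tail τ' A' R) :
    Tail (τ + τ') (A + A') R := by
  have hA := h.Anonneg
  have hA' := h'.Anonneg
  refine ⟨h.dec.add h'.dec, by positivity, fun d hd hdR => ?_, fun d hd hdR => ?_, ?_⟩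
  · have e : Iup (τ + τ') d = Iup τ d + Iup τ' d := by
      unfold Iup
      rw [← lintegral_add_left (h.dec.meas_up d)]
      exact lintegral_congr fun y => ENNReal.ofReal_add (h.dec.nonneg _) (h'.dec.nonneg _)
    rw [e, add_mul, ENNReal.ofReal_add (by positivity) (by positivity)]
    exact add_le_add (h.up d hd hdR) (h'.up d hd hdR)
  · have e : Ilo (τ + τ') d = Ilo τ d + Ilo τ' d := by
      unfold Ilo
      rw [← lintegral_add_left (h.dec.meas_lo d)]
      exact lintegral_congr fun y => ENNReal.ofReal_add (h.dec.nonneg _) (h'.dec.nonneg _)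
    rw [e, add_mul]
    exact ENNReal.ofReal_add_le.trans (add_le_add (h.low d hd hdR) (h'.low d hd hdR))
  · have := h.zero
    have := h'.zero
    simp only [Pi.add_apply]
    linarith

theorem Tail.smul {τ : ℝ → ℝ} {A R : ℝ} (h : Tail τ A R) {c : ℝ} (hc : 0 ≤ c) :
    Tail (c • τ) (c * A) R := by
  have hA := h.Anonneg
  refine ⟨h.dec.smul hc, by positivity, fun d hd hdR => ?_, fun d hd hdR => ?_, ?_⟩
  · have e : Iup (c • τ) d = ENNReal.ofReal c * Iup τ d := by
      unfold Iup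
      rw [← lintegral_const_mul _ (h.dec.meas_up d)]
      exact lintegral_congr fun y => ENNReal.ofReal_mul hc
    rw [e, mul_assoc, ENNReal.ofReal_mul hc]
    gcongr
    exact h.up d hd hdR
  · have e : Ilo (c • τ) d = ENNReal.ofReal c * Ilo τ d := by
      unfold Ilo
      rw [← lintegral_const_mul _ (h.dec.meas_lo d)]
      exact lintegral_congr fun y => ENNReal.ofReal_mul hc
    rw [e, mul_assoc, ENNReal.ofReal_mul hc]
    gcongr
    exact h.low d hd hdR
  · have := mul_le_mul_of_nonneg_left h.zero hc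
    simp only [Pi.smul_apply, smul_eq_mul]
    linarith

theorem Tail.mono {τ : ℝ → ℝ} {A R R' : ℝ} (h : Tail τ A R) (hR' : 0 < R') (hle : R' ≤ R) :
    Tail τ A R' := by
  have hA := h.Anonneg
  refine ⟨h.dec, hA, fun d hd hdR => ?_, fun d hd hdR => ?_, ?_⟩
  · refine (h.up d hd (hdR.trans hle)).trans (ENNReal.ofReal_le_ofReal ?_)
    gcongr
  · refine le_trans (ENNReal.ofReal_le_ofReal ?_) (h.low d hd (hdR.trans hle))
    gcongr
  · refine h.zero.trans ?_
    gcongr

theorem Tail.tsum {τ : ℕ → ℝ → ℝ} {A : ℕ → ℝ} {R : ℝ} (hR : 0 < R) (h : ∀ j, Tail (τ j) (A j) R)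
    (hA : Summable A) (hs : ∀ r, Summable fun j => τ j r) :
    Tail (fun r => ∑' j, τ j r) (∑' j, A j) R := by
  have hA0 : 0 ≤ ∑' j, A j := tsum_nonneg fun j => (h j).Anonneg
  have hof : ∀ r, ENNReal.ofReal (∑' j, τ j r) = ∑' j, ENNReal.ofReal (τ j r) :=
    fun r => ENNReal.ofReal_tsum_of_nonneg (fun j => (h j).dec.nonneg r) (hs r)
  refine ⟨⟨?_, fun r => tsum_nonneg fun j => (h j).dec.nonneg r, fun r s hr hrs => ?_⟩, hA0,
    fun d hd hdR => ?_, fun d hd hdR => ?_, ?_⟩
  · have e : (fun r => ∑' j, τ j r) = fun r => (∑' j, ENNReal.ofReal (τ j r)).toReal := by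
      funext r
      rw [← hof, ENNReal.toReal_ofReal (tsum_nonneg fun j => (h j).dec.nonneg r)]
    rw [e]
    exact (Measurable.tsum fun j =>
      ENNReal.measurable_ofReal.comp (h j).dec.meas).ennreal_toReal
  · exact (hs s).tsum_le_tsum (fun j => (h j).dec.anti r s hr hrs) (hs r)
  · unfold Iup
    simp_rw [hof]
    rw [lintegral_tsum fun j => ((h j).dec.meas_up d).aemeasurable, ← hA.tsum_mul_right,
      ENNReal.ofReal_tsum_of_nonneg
        (fun j => mul_nonneg (h j).Anonneg (by positivity)) (hA.mul_right _)]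
    exact ENNReal.tsum_le_tsum fun j => (h j).up d hd hdR
  · unfold Ilo
    simp_rw [hof]
    rw [lintegral_tsum fun j => ((h j).dec.meas_lo d).aemeasurable]
    by_cases hpos : 0 ≤ 1 - 128 * d / R
    · rw [← hA.tsum_mul_right, ENNReal.ofReal_tsum_of_nonneg
        (fun j => mul_nonneg (h j).Anonneg hpos) (hA.mul_right _)]
      exact ENNReal.tsum_le_tsum fun j => (h j).low d hd hdR
    · rw [ENNReal.ofReal_of_nonpos (mul_nonpos_of_nonneg_of_nonpos hA0 (not_le.mp hpos).le)]
      exact zero_le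
  · rw [← hA.tsum_mul_right]
    exact (hs 0).tsum_le_tsum (fun j => (h j).zero) (hA.mul_right _)

/-- The tent profile of range `R`. -/
noncomputable def tent (R r : ℝ) : ℝ := max (1 - |r| / R) 0

/-- Its mass. -/
noncomputable def tentMass (R : ℝ) : ℝ := (∫⁻ y : Pt, ENNReal.ofReal (tent R ‖y‖)).toReal

/-- The normalised tent. -/
noncomputable def uu (R r : ℝ) : ℝ := tent R r / tentMass R

theorem tent_nonneg (R r : ℝ) : 0 ≤ tent R r := le_max_right _ _

theorem tent_le_one {R : ℝ} (hR : 0 < R) (r : ℝ) : tent R r ≤ 1 :=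
  max_le (by have : 0 ≤ |r| / R := by positivity
             linarith) zero_le_one

theorem tent_zero {R : ℝ} (hR : 0 < R) {r : ℝ} (hr : R ≤ r) : tent R r = 0 := by
  unfold tent
  refine max_eq_right ?_
  rw [sub_nonpos, le_div_iff₀ hR, one_mul]
  exact hr.trans (le_abs_self r)

theorem continuous_tent (R : ℝ) : Continuous (tent R) := by
  unfold tent; fun_prop

theorem tent_lip {R : ℝ} (hR : 0 < R) {r s d : ℝ} (hr : 0 ≤ r) (hs : 0 ≤ s) (hd : 0 ≤ d)
    (h : s ≤ r + d) : tent R r ≤ tent R s + d / R := by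
  unfold tent
  rw [abs_of_nonneg hr, abs_of_nonneg hs]
  refine max_le ?_ (by positivity)
  have h1 : s / R ≤ r / R + d / R := by rw [← add_div]; gcongr
  linarith [le_max_left (1 - s / R) 0]

theorem volume_ball' (x : Pt) {r : ℝ} (hr : 0 ≤ r) :
    volume (Metric.ball x r) = ENNReal.ofReal (Real.pi * 4 / 3 * r ^ 3) := by
  rw [EuclideanSpace.volume_ball_fin_three, ← ENNReal.ofReal_pow hr,
    ← ENNReal.ofReal_mul (by positivity), mul_comm]

theorem tentI_le {R : ℝ} (hR : 0 < R) :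
    ∫⁻ y : Pt, ENNReal.ofReal (tent R ‖y‖) ≤ ENNReal.ofReal (Real.pi * 4 / 3 * R ^ 3) := by
  rw [← volume_ball' 0 hR.le, ← lintegral_indicator_one measurableSet_ball]
  refine lintegral_mono fun y => ?_
  by_cases hy : y ∈ Metric.ball (0 : Pt) R
  · rw [Set.indicator_of_mem hy]
    simpa using tent_le_one hR _
  · rw [tent_zero hR (by simpa using hy)]
    simp

theorem le_tentI {R : ℝ} (hR : 0 < R) :
    ENNReal.ofReal (Real.pi * 4 / 3 * R ^ 3 / 16) ≤ ∫⁻ y : Pt, ENNReal.ofReal (tent R ‖y‖) := by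
  have e : Real.pi * 4 / 3 * R ^ 3 / 16 = 1 / 2 * (Real.pi * 4 / 3 * (R / 2) ^ 3) := by ring
  rw [e, ENNReal.ofReal_mul (by norm_num), ← volume_ball' 0 (by positivity), ← setLIntegral_const]
  refine le_trans ?_ (setLIntegral_le_lintegral (Metric.ball (0 : Pt) (R / 2)) _)
  refine setLIntegral_mono' measurableSet_ball fun y hy => ENNReal.ofReal_le_ofReal ?_
  have hy' : ‖y‖ < R / 2 := by simpa using hy
  refine le_trans ?_ (le_max_left _ _)
  rw [abs_of_nonneg (norm_nonneg _)]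
  have : ‖y‖ / R ≤ 1 / 2 := by rw [div_le_iff₀ hR]; linarith
  linarith

theorem tentI_eq {R : ℝ} (hR : 0 < R) :
    ∫⁻ y : Pt, ENNReal.ofReal (tent R ‖y‖) = ENNReal.ofReal (tentMass R) :=
  (ENNReal.ofReal_toReal (ne_top_of_le_ne_top ENNReal.ofReal_ne_top (tentI_le hR))).symm

theorem tentMass_ge {R : ℝ} (hR : 0 < R) : Real.pi * 4 / 3 * R ^ 3 / 16 ≤ tentMass R := by
  have := le_tentI hR
  rwa [tentI_eq hR, ENNReal.ofReal_le_ofReal_iff (show 0 ≤ tentMass R from ENNReal.toReal_nonneg)]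
    at this

theorem tentMass_le {R : ℝ} (hR : 0 < R) : tentMass R ≤ Real.pi * 4 / 3 * R ^ 3 := by
  have := tentI_le hR
  rwa [tentI_eq hR, ENNReal.ofReal_le_ofReal_iff (by positivity)] at this

theorem tentMass_pos {R : ℝ} (hR : 0 < R) : 0 < tentMass R :=
  lt_of_lt_of_le (by positivity) (tentMass_ge hR)

theorem uu_nonneg {R : ℝ} (hR : 0 < R) (r : ℝ) : 0 ≤ uu R r :=
  div_nonneg (tent_nonneg _ _) (tentMass_pos hR).le

theorem uu_le {R : ℝ} (hR : 0 < R) (r : ℝ) : uu R r ≤ 16 / R ^ 3 := by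
  unfold uu
  rw [div_le_div_iff₀ (tentMass_pos hR) (by positivity)]
  have h1 := tent_le_one hR r
  have h2 := tentMass_ge hR
  have h3 := Real.pi_gt_three
  have h4 : 0 < R ^ 3 := by positivity
  nlinarith

theorem uu_zero {R : ℝ} (hR : 0 < R) {r : ℝ} (hr : R ≤ r) : uu R r = 0 := by
  unfold uu; rw [tent_zero hR hr, zero_div]

theorem continuous_uu (R : ℝ) : Continuous (uu R) := (continuous_tent R).div_const _

theorem uu_pos {R : ℝ} (hR : 0 < R) {r : ℝ} (hr0 : 0 ≤ r) (hr : r < R) : 0 < uu R r := by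
  refine div_pos (lt_of_lt_of_le ?_ (le_max_left _ _)) (tentMass_pos hR)
  rw [abs_of_nonneg hr0, sub_pos, div_lt_one hR]
  exact hr

theorem dec_tent {R : ℝ} (hR : 0 < R) : Dec (tent R) :=
  ⟨(continuous_tent R).measurable, tent_nonneg R, fun r s hr hrs => by
    unfold tent
    rw [abs_of_nonneg hr, abs_of_nonneg (hr.trans hrs)]
    gcongr⟩

theorem tail_tent {R : ℝ} (hR : 0 < R) : Tail (tent R) (tentMass R) R := by
  have hm := tentMass_ge hR
  have hm0 := tentMass_pos hR
  have hmt : Measurable fun y : Pt => ENNReal.ofReal (tent R ‖y‖) :=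
    ENNReal.measurable_ofReal.comp ((continuous_tent R).measurable.comp measurable_norm)
  refine ⟨dec_tent hR, hm0.le, fun d hd hdR => ?_, fun d hd hdR => ?_, ?_⟩
  · have h1 : Iup (tent R) d ≤ ∫⁻ y : Pt, (ENNReal.ofReal (tent R ‖y‖) +
        (Metric.ball (0 : Pt) (2 * R)).indicator (fun _ => ENNReal.ofReal (d / R)) y) := by
      refine lintegral_mono fun y => ?_
      by_cases hy : y ∈ Metric.ball (0 : Pt) (2 * R)
      · rw [Set.indicator_of_mem hy, ← ENNReal.ofReal_add (tent_nonneg _ _) (by positivity)]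
        refine ENNReal.ofReal_le_ofReal (tent_lip hR (le_max_right _ _) (norm_nonneg _) hd ?_)
        linarith [le_max_left (‖y‖ - d) 0]
      · have hy' : 2 * R ≤ ‖y‖ := by simpa using hy
        rw [tent_zero hR (le_trans (by linarith) (le_max_left _ _))]
        simp
    rw [lintegral_add_left hmt, lintegral_indicator_const measurableSet_ball, tentI_eq hR,
      volume_ball' 0 (by positivity), ← ENNReal.ofReal_mul (by positivity),
      ← ENNReal.ofReal_add hm0.le (by positivity)] at h1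
    refine h1.trans (ENNReal.ofReal_le_ofReal ?_)
    have h2 : 0 ≤ d / R := by positivity
    have h3 := mul_le_mul_of_nonneg_left hm h2
    have e : 128 * d / R = 128 * (d / R) := by ring
    rw [e]
    nlinarith
  · have h1 : ∫⁻ y : Pt, ENNReal.ofReal (tent R ‖y‖) ≤ ∫⁻ y : Pt, (ENNReal.ofReal (tent R (‖y‖ + d)) +
        (Metric.ball (0 : Pt) R).indicator (fun _ => ENNReal.ofReal (d / R)) y) := by
      refine lintegral_mono fun y => ?_
      by_cases hy : y ∈ Metric.ball (0 : Pt) R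
      · rw [Set.indicator_of_mem hy, ← ENNReal.ofReal_add (tent_nonneg _ _) (by positivity)]
        exact ENNReal.ofReal_le_ofReal (tent_lip hR (norm_nonneg _) (by positivity) hd le_rfl)
      · have hy' : R ≤ ‖y‖ := by simpa using hy
        rw [tent_zero hR hy']
        simp
    rw [lintegral_add_left ((dec_tent hR).meas_lo d), lintegral_indicator_const measurableSet_ball,
      tentI_eq hR, volume_ball' 0 hR.le, ← ENNReal.ofReal_mul (by positivity)] at h1
    have h4 : ENNReal.ofReal (tentMass R - d / R * (Real.pi * 4 / 3 * R ^ 3)) ≤ Ilo (tent R) d := by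
      rw [ENNReal.ofReal_sub _ (by positivity)]
      exact tsub_le_iff_right.mpr h1
    refine le_trans (ENNReal.ofReal_le_ofReal ?_) h4
    have h2 : 0 ≤ d / R := by positivity
    have h3 := mul_le_mul_of_nonneg_left hm h2
    have e : 128 * d / R = 128 * (d / R) := by ring
    rw [e]
    nlinarith [mul_nonneg h2 hm0.le]
  · have h1 := uu_le hR 0
    unfold uu at h1
    rw [div_le_iff₀ hm0] at h1
    linarith

theorem tail_uu {R : ℝ} (hR : 0 < R) : Tail (uu R) 1 R := by
  have h := (tail_tent hR).smul (c := (tentMass R)⁻¹) (inv_nonneg.mpr (tentMass_pos hR).le)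
  rw [inv_mul_cancel₀ (tentMass_pos hR).ne'] at h
  convert h using 1
  funext r
  simp [uu, div_eq_inv_mul]

theorem Tail.hup {τ : ℝ → ℝ} {A R ℓ A' z : ℝ} (h : Tail τ A R) (hℓ : 0 < ℓ) (hR : 0 < R)
    (hz : ℓ / R ≤ z) (hz1 : z ≤ 1 / 4) (hA : A ≤ A') :
    Iup τ (4 * ℓ) ≤ ENNReal.ofReal (A' * (1 + 512 * z) / ℓ ^ 3 * ℓ ^ 3) := by
  have h1 : 4 * ℓ ≤ R := by
    have : ℓ / R ≤ 1 / 4 := hz.trans hz1
    rw [div_le_iff₀ hR] at this
    linarith
  refine (h.up _ (by positivity) h1).trans (ENNReal.ofReal_le_ofReal ?_)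
  rw [div_mul_cancel₀ _ (by positivity)]
  have e : 128 * (4 * ℓ) / R = 512 * (ℓ / R) := by ring
  rw [e]
  have := h.Anonneg
  have : 0 ≤ A' := by linarith
  gcongr

theorem Tail.hlow {τ : ℝ → ℝ} {A R b z : ℝ} (h : Tail τ A R) (hb : 0 < b) (hR : 0 < R)
    (hz : b / R ≤ z) (hz1 : z ≤ 1 / 2) :
    ENNReal.ofReal ((A * (1 - 272 * z) / b ^ 3 + τ 0) * b ^ 3) ≤ Ilo τ (2 * b) := by
  have h1 : 2 * b ≤ R := by
    have : b / R ≤ 1 / 2 := hz.trans hz1
    rw [div_le_iff₀ hR] at this
    linarith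
  refine le_trans (ENNReal.ofReal_le_ofReal ?_) (h.low _ (by positivity) h1)
  rw [add_mul, div_mul_cancel₀ _ (by positivity)]
  have e : 128 * (2 * b) / R = 256 * (b / R) := by ring
  rw [e]
  have hA := h.Anonneg
  have h2 : τ 0 * b ^ 3 ≤ A * (16 * (b / R) ^ 3) := by
    have := mul_le_mul_of_nonneg_right h.zero (by positivity : 0 ≤ b ^ 3)
    refine this.trans (le_of_eq ?_)
    field_simp
  have h3 : (b / R) ^ 3 ≤ b / R := by
    have h0 : 0 ≤ b / R := by positivity
    have : b / R ≤ 1 := by linarith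
    exact pow_le_of_le_one h0 this (by norm_num)
  have h4 : A * (16 * (b / R) ^ 3) ≤ A * (16 * z) := by gcongr; linarith
  have h5 : A * (256 * (b / R)) ≤ A * (256 * z) := by gcongr
  linarith

end Crest.Agent.R149
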