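import Crest.Agent.R149.Packing
import Crest.Agent.R149.Tail

set_option autoImplicit false

namespace Crest.Agent.R149

open MeasureTheory Crest.ProbabilityR.Continuum Classical Filter Topology
open scoped ENNReal BigOperators

/-- The short-range part: repulsive of height at least `K` below distance one, apart from a
small well. -/
structure Core (φ : ℝ → ℝ) (K δ η θ : ℝ) : Prop where
  meas : Measurable φ
  nonneg : ∀ r, 0 ≤ r → 0 ≤ φ r
  bad : ∀ r, 0 ≤ r → r < 1 → ¬ (δ / 2 < r ∧ r < δ) → K ≤ φ r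
  well : ∀ r, δ * (1 / 2 + η) ≤ r → r ≤ δ * (1 - η) → φ r ≤ 0
  far : ∀ r, 1 + θ ≤ r → φ r ≤ 0
  Knn : 0 ≤ K
  δpos : 0 < δ
  δle : δ ≤ θ / 4
  θle : θ ≤ 1

theorem Core.smul {φ : ℝ → ℝ} {K δ η θ : ℝ} (h : Core φ K δ η θ) {β : ℝ} (hβ : 0 ≤ β) :
    Core (β • φ) (β * K) δ η θ :=
  ⟨h.meas.const_smul β, fun r hr => mul_nonneg hβ (h.nonneg r hr),
    fun r h0 h1 h2 => mul_le_mul_of_nonneg_left (h.bad r h0 h1 h2) hβ,
    fun r h0 h1 => mul_nonpos_of_nonneg_of_nonpos hβ (h.well r h0 h1),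
    fun r h0 => mul_nonpos_of_nonneg_of_nonpos hβ (h.far r h0),
    mul_nonneg hβ h.Knn, h.δpos, h.δle, h.θle⟩

theorem Core.good {φ : ℝ → ℝ} {K δ η θ : ℝ} (h : Core φ K δ η θ) : Good φ :=
  ⟨h.meas, fun r hr => h.far r (by linarith [h.θle]),
    ⟨0, le_rfl, fun N x => by simpa using En_nonneg h.nonneg x⟩⟩

/-- Bad pairs of a configuration. -/
def badP (δ : ℝ) {ι : Type} (x : ι → Pt) (i j : ι) : Prop :=
  dist (x i) (x j) < 1 ∧ ¬ (δ / 2 < dist (x i) (x j) ∧ dist (x i) (x j) < δ)

theorem badP_symm (δ : ℝ) {ι : Type} (x : ι → Pt) (i j : ι) (h : badP δ x i j) : badP δ x j i := by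
  unfold badP at *
  rwa [dist_comm]

theorem indep_small {δ : ℝ} (hδ : 0 < δ) {ι : Type} (x : ι → Pt) (S : Finset ι)
    (hS : ∀ i ∈ S, ∀ j ∈ S, i ≠ j → ¬ badP δ x i j)
    (hd : ∀ i ∈ S, ∀ j ∈ S, dist (x i) (x j) < 1) : S.card ≤ mm := by
  have := clique_le_mm hδ (fun i : S => x i) fun i j hij => by
    have h1 := hS i i.2 j j.2 (fun e => hij (Subtype.ext e))
    unfold badP at h1
    by_contra h2
    exact h1 ⟨hd i i.2 j j.2, h2⟩
  simpa using this

theorem sep_finset_card {L : ℝ} (hL : 0 ≤ L) {ι : Type} (x : ι → Pt) (hx : ∀ i, x i ∈ cube L)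
    (S : Finset ι) (hS : ∀ i ∈ S, ∀ j ∈ S, i ≠ j → 1 ≤ dist (x i) (x j)) :
    S.card ≤ packingNumber L := by
  have := le_packingNumber hL (fun i : S => x i) (fun i => hx i)
    fun i j hij => hS i i.2 j j.2 (fun e => hij (Subtype.ext e))
  simpa using this

theorem indep_card {δ L : ℝ} (hδ : 0 < δ) (hδ1 : δ ≤ 1 / 2) (hL : 0 ≤ L) {ι : Type} (x : ι → Pt)
    (hx : ∀ i, x i ∈ cube L) (S : Finset ι) (hS : ∀ i ∈ S, ∀ j ∈ S, i ≠ j → ¬ badP δ x i j) :
    S.card ≤ mm * packingNumber L := by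
  obtain ⟨I, hIS, hI, hmax⟩ := exists_max_indep (fun i j => dist (x i) (x j) < 1)
    (fun i j h => by rwa [dist_comm]) S
  have hIc : I.card ≤ packingNumber L :=
    sep_finset_card hL x hx I fun i hi j hj hij => not_lt.mp (hI i hi j hj hij)
  have hex : ∀ v, ∃ u, v ∈ S → u ∈ I ∧ dist (x v) (x u) < δ := by
    intro v
    by_cases hv : v ∈ S
    · by_cases hvI : v ∈ I
      · exact ⟨v, fun _ => ⟨hvI, by simpa using hδ⟩⟩
      · obtain ⟨u, hu, hd⟩ := hmax v hv hvI
        refine ⟨u, fun _ => ⟨hu, ?_⟩⟩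
        have h1 := hS v hv u (hIS hu) (fun e => hvI (e ▸ hu))
        unfold badP at h1
        by_contra h2
        exact h1 ⟨hd, fun h3 => h2 h3.2⟩
    · exact ⟨v, fun h => absurd h hv⟩
  choose f hf using hex
  refine le_trans (Finset.card_le_mul_card_image_of_maps_to (t := I) (f := f)
    (fun v hv => (hf v hv).1) mm fun u hu => ?_) (Nat.mul_le_mul_left _ hIc)
  refine indep_small hδ x _ (fun i hi j hj => hS i (Finset.mem_filter.mp hi).1 j
    (Finset.mem_filter.mp hj).1) fun i hi j hj => ?_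
  obtain ⟨hi1, hi2⟩ := Finset.mem_filter.mp hi
  obtain ⟨hj1, hj2⟩ := Finset.mem_filter.mp hj
  have h1 := (hf i hi1).2
  have h2 := (hf j hj1).2
  rw [hi2] at h1
  rw [hj2] at h2
  have := dist_triangle_right (x i) (x j) (x u)
  linarith

theorem mm_pos : (0 : ℝ) < mm := by
  have := two_le_mm
  exact_mod_cast (by omega : 0 < mm)

theorem two_le_mm' : (2 : ℝ) ≤ mm := by exact_mod_cast two_le_mm

theorem exists_in_cube {ι : Type} [Fintype ι] (x : ι → Pt) :
    ∃ (v : Pt) (L : ℝ), ∀ i, v + x i ∈ cube L := by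
  refine ⟨WithLp.toLp 2 fun _ => ∑ i, ‖x i‖, 2 * ∑ i, ‖x i‖, fun i k => ?_⟩
  have h1 : ‖x i‖ ≤ ∑ i, ‖x i‖ :=
    Finset.single_le_sum (f := fun i => ‖x i‖) (fun _ _ => norm_nonneg _) (Finset.mem_univ i)
  have h2 := coord_le_dist (x i) 0 k
  rw [dist_zero_right] at h2
  simp only [PiLp.zero_apply, sub_zero] at h2
  have h3 := abs_le.mp h2
  simp only [PiLp.add_apply]
  constructor <;> linarith [h3.1, h3.2]

theorem Core.EnR_ge {φ : ℝ → ℝ} {K δ η θ : ℝ} (h : Core φ K δ η θ) {ι C : Type} [Fintype ι]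
    (a : ι → C) (c : C) (x : ι → Pt) (hx : ∀ i j, a i = c → a j = c → dist (x i) (x j) < 1) :
    K / 2 * ((fib a c : ℝ) * (fib a c - mm) / mm) ≤ EnR φ a c x := by
  unfold EnR
  refine le_trans ?_ (En_ge_Dbad h.nonneg h.Knn (res a c x) (badP δ (res a c x))
    (fun i j _ hb => h.bad _ dist_nonneg hb.1 hb.2) Finset.univ)
  refine mul_le_mul_of_nonneg_left ?_ (by linarith [h.Knn])
  have := turan (badP δ (res a c x)) (badP_symm δ _) mm_pos Finset.univ fun S _ hS => by
    exact_mod_cast indep_small h.δpos _ S hS fun i _ j _ => hx i j i.2 j.2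
  rwa [Finset.card_univ] at this

theorem Core.stab {φ τ : ℝ → ℝ} {K δ η θ A R : ℝ} (h : Core φ K δ η θ) (hτ : Tail τ A R)
    (hR : 2 ≤ R) (hK : 1032 * mm * A ≤ K) : Stab (φ - τ) (K / 2) := by
  intro N x
  obtain ⟨v, L, hv⟩ := exists_in_cube x
  rw [← En_translate _ v x]
  set y := fun i => v + x i with hy
  have h0 : (0 : ℝ) < 1 / 2 := by norm_num
  set a := fun i => cidx h0 (t := 0) (by norm_num) (hv i) with ha
  have hya : ∀ i, y i ∈ tcube (gv (1 / 2) 0 (a i)) (1 / 2) :=
    fun i => mem_cidx h0 le_rfl _ (hv i)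
  have hA := hτ.Anonneg
  have hI := hτ.hup h0 (by linarith) (z := 1 / 4) (A' := A)
    (by rw [div_le_iff₀ (by linarith)]; linarith) le_rfl le_rfl
  have e1 := En_le_cells hτ.dec h0 (by positivity) hI a y hya
  have e2 := En_split φ a y
  have e4 := Cr_nonneg h.nonneg a y
  have e5 : ∀ c, K / 2 * ((fib a c : ℝ) * (fib a c - mm) / mm) ≤ EnR φ a c y := by
    intro c
    refine h.EnR_ge a c y fun i j hi hj => ?_
    have h1 := hya i
    have h2 := hya j
    rw [hi] at h1
    rw [hj] at h2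
    have := dist_le_of_mem_tcube h1 h2
    linarith
  have e6 : ∑ c, (A * (1 + 512 * (1 / 4)) / (1 / 2) ^ 3 / 2 * (fib a c : ℝ) ^ 2 - K / 2 * fib a c)
      ≤ ∑ c, EnR φ a c y := by
    refine Finset.sum_le_sum fun c _ => le_trans ?_ (e5 c)
    have hm := mm_pos
    have e : K / 2 * ((fib a c : ℝ) * (fib a c - mm) / mm)
        = K / mm / 2 * (fib a c : ℝ) ^ 2 - K / 2 * fib a c := by field_simp
    have : 1032 * A ≤ K / mm := by rw [le_div_iff₀ hm]; linarith
    have e' : A * (1 + 512 * (1 / 4)) / (1 / 2) ^ 3 = 1032 * A := by ring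
    rw [e, e']
    have := mul_le_mul_of_nonneg_right this (sq_nonneg (fib a c : ℝ))
    linarith
  rw [Finset.sum_sub_distrib, ← Finset.mul_sum (a := K / 2)] at e6
  have e7 : (∑ c, (fib a c : ℝ)) = N := by
    have := sum_fib a
    rw [Fintype.card_fin] at this
    exact_mod_cast this
  rw [En_sub]
  rw [e7] at e6
  linarith

theorem Core.good_sub {φ τ : ℝ → ℝ} {K δ η θ A R : ℝ} (h : Core φ K δ η θ) (hτ : Tail τ A R)
    (hR : 2 ≤ R) (hK : 1032 * mm * A ≤ K) : Good (φ - τ) :=
  ⟨h.meas.sub hτ.dec.meas, fun r hr => by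
    have := h.good.temp r hr
    have := hτ.dec.nonneg r
    simp only [Pi.sub_apply]
    linarith, ⟨K / 2, by linarith [h.Knn], h.stab hτ hR hK⟩⟩

/-- Configurations with a depth-one forest structure. -/
def forest {ι : Type} (f : ι → ι) (A : ι → Set Pt) : Set (ι → Pt) :=
  {x | ∀ i, (if f i = i then x i else x i - x (f i)) ∈ A i}

theorem measurableSet_forest {ι : Type} [Fintype ι] (f : ι → ι) (A : ι → Set Pt)
    (hA : ∀ i, MeasurableSet (A i)) : MeasurableSet (forest f A) := by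
  have : forest f A = ⋂ i, (fun x : ι → Pt => if f i = i then x i else x i - x (f i)) ⁻¹' A i := by
    ext x; simp [forest]
  rw [this]
  refine MeasurableSet.iInter fun i => ?_
  refine (?_ : Measurable _) (hA i)
  split_ifs
  · exact measurable_pi_apply i
  · exact (measurable_pi_apply i).sub (measurable_pi_apply _)

theorem volume_forest {ι : Type} [Fintype ι] (f : ι → ι) (hf : ∀ i, f (f i) = f i)
    (A : ι → Set Pt) (hA : ∀ i, MeasurableSet (A i)) :
    volume (forest f A) = ∏ i, volume (A i) := by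
  set p : ι → Prop := fun i => f i = i with hp
  set e := MeasurableEquiv.piEquivPiSubtypeProd (fun _ : ι => Pt) p with he
  have hmp := (volume_preserving_piEquivPiSubtypeProd (fun _ : ι => Pt) p).symm e
  rw [← hmp.measure_preimage (measurableSet_forest f A hA).nullMeasurableSet, Measure.volume_eq_prod,
    Measure.prod_apply (e.symm.measurable (measurableSet_forest f A hA))]
  have h1 : ∀ y : Subtype p → Pt, volume (Prod.mk y ⁻¹' (e.symm ⁻¹' forest f A))
      = (Set.pi Set.univ fun i : Subtype p => A i).indicator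
        (fun _ => ∏ j : {i // ¬ p i}, volume (A j)) y := by
    intro y
    have hval1 : ∀ (w : {i // ¬ p i} → Pt) (i : ι) (hi : p i), e.symm (y, w) i = y ⟨i, hi⟩ := by
      intro w i hi
      simp [he, MeasurableEquiv.piEquivPiSubtypeProd, Equiv.piEquivPiSubtypeProd, hi]
    have hval2 : ∀ (w : {i // ¬ p i} → Pt) (i : ι) (hi : ¬ p i), e.symm (y, w) i = w ⟨i, hi⟩ := by
      intro w i hi
      simp [he, MeasurableEquiv.piEquivPiSubtypeProd, Equiv.piEquivPiSubtypeProd, hi]
    by_cases hy : y ∈ Set.pi Set.univ fun i : Subtype p => A i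
    · rw [Set.indicator_of_mem hy]
      have : Prod.mk y ⁻¹' (e.symm ⁻¹' forest f A) = Set.pi Set.univ fun j : {i // ¬ p i} =>
          (fun z => z - y ⟨f j, hf j⟩) ⁻¹' A j := by
        ext w
        simp only [Set.mem_preimage, forest, Set.mem_ofPred_eq, Set.mem_pi, Set.mem_univ,
          forall_true_left]
        constructor
        · rintro h ⟨j, hj⟩
          have := h j
          rwa [if_neg hj, hval2 w j hj, hval1 w (f j) (hf j)] at this
        · intro h i
          by_cases hi : p i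
          · rw [if_pos hi, hval1 w i hi]
            exact hy ⟨i, hi⟩ (Set.mem_univ _)
          · rw [if_neg hi, hval2 w i hi, hval1 w (f i) (hf i)]
            exact h ⟨i, hi⟩
      rw [this, volume_pi_pi]
      refine Finset.prod_congr rfl fun j _ => ?_
      simp_rw [sub_eq_add_neg]
      exact measure_preimage_add_right volume _ _
    · rw [Set.indicator_of_notMem hy]
      have : Prod.mk y ⁻¹' (e.symm ⁻¹' forest f A) = ∅ := by
        ext w
        simp only [Set.mem_preimage, forest, Set.mem_ofPred_eq, Set.mem_empty_iff_false, iff_false]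
        intro h
        apply hy
        rintro ⟨i, hi⟩ _
        have := h i
        rwa [if_pos hi, hval1 w i hi] at this
      rw [this, measure_empty]
  simp_rw [h1]
  rw [lintegral_indicator_const (MeasurableSet.univ_pi fun i => hA _), volume_pi_pi, mul_comm]
  exact Fintype.prod_subtype_mul_prod_subtype p fun i => volume (A i)

end Crest.Agent.R149
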