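import Crest.Agent.R149.CMP

set_option autoImplicit false

namespace Crest.Agent.R149

open Filter Topology

/-- The mean-field lower profile. -/
noncomputable def Ph (m lam y : ℝ) : ℝ :=
  m * max (y - 1) 0 + 3 * max (y * (y - m)) 0 - lam * y ^ 2

theorem Ph_cases (m lam y : ℝ) (hm : 2 ≤ m) (hy : 0 ≤ y) :
    (y ≤ 1 ∧ Ph m lam y = -lam * y ^ 2) ∨
    (1 ≤ y ∧ y ≤ m ∧ Ph m lam y = m * (y - 1) - lam * y ^ 2) ∨
    (m ≤ y ∧ Ph m lam y = m * (y - 1) + 3 * (y * (y - m)) - lam * y ^ 2) := by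
  unfold Ph
  rcases le_total y 1 with h1 | h1
  · left
    rw [max_eq_right (by linarith), max_eq_right (by nlinarith)]
    exact ⟨h1, by ring⟩
  rcases le_total y m with h2 | h2
  · right; left
    rw [max_eq_left (by linarith), max_eq_right (by nlinarith)]
    exact ⟨h1, h2, by ring⟩
  · right; right
    rw [max_eq_left (by linarith), max_eq_left (by nlinarith)]
    exact ⟨h2, by ring⟩

theorem Ph_min0 {m lam : ℝ} (hm : 2 ≤ m) (h0 : 0 ≤ lam) (h1 : lam ≤ 1) (y : ℝ) (hy : 0 ≤ y) :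
    0 + (-lam) * y ≤ Ph m lam y := by
  rcases Ph_cases m lam y hm hy with ⟨a, e⟩ | ⟨a, b, e⟩ | ⟨a, e⟩ <;> rw [e]
  · nlinarith [mul_nonneg h0 (mul_nonneg hy (sub_nonneg.mpr a))]
  · have : lam * y ≤ m := by nlinarith
    nlinarith [mul_nonneg (sub_nonneg.mpr a) (sub_nonneg.mpr this)]
  · have c1 : lam * y ≤ y := by nlinarith
    have c2 : 0 ≤ (y - 1) * (y - lam * y) := mul_nonneg (by linarith) (by linarith)
    nlinarith [mul_nonneg (sub_nonneg.mpr a) hy]

theorem Ph_min1 {m lam : ℝ} (hm : 2 ≤ m) (h0 : 0 ≤ lam) (h1 : lam ≤ 1) (y : ℝ) (hy : 0 ≤ y) :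
    (-m + lam * m) + (m - lam * (m + 1)) * y ≤ Ph m lam y := by
  rcases Ph_cases m lam y hm hy with ⟨a, e⟩ | ⟨a, b, e⟩ | ⟨a, e⟩ <;> rw [e]
  · have : lam * (m - y) ≤ m := by nlinarith
    nlinarith [mul_nonneg (sub_nonneg.mpr a) (sub_nonneg.mpr this)]
  · nlinarith [mul_nonneg h0 (mul_nonneg (sub_nonneg.mpr a) (sub_nonneg.mpr b))]
  · have : lam * (y - 1) ≤ 3 * y := by nlinarith
    nlinarith [mul_nonneg (sub_nonneg.mpr a) (sub_nonneg.mpr this)]

theorem Ph_minB {m lam : ℝ} (hm : 2 ≤ m) (h0 : 1 ≤ lam) (h1 : lam ≤ 9 / 8) (y : ℝ) (hy : 0 ≤ y) :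
    0 + (m - 1 - lam * m) * y ≤ Ph m lam y := by
  rcases Ph_cases m lam y hm hy with ⟨a, e⟩ | ⟨a, b, e⟩ | ⟨a, e⟩ <;> rw [e]
  · have c1 : m - 1 ≤ lam * (m - y) := by nlinarith
    nlinarith [mul_nonneg hy (sub_nonneg.mpr c1)]
  · have c1 : 1 ≤ lam * y := by nlinarith
    nlinarith [mul_nonneg (sub_nonneg.mpr b) (sub_nonneg.mpr c1)]
  · have : lam * y ≤ 3 * y + 1 := by nlinarith
    nlinarith [mul_nonneg (sub_nonneg.mpr a) (sub_nonneg.mpr this)]

theorem Ph_minS {m lam c : ℝ} (hm : 2 ≤ m) (h0 : 3 / 4 ≤ lam) (h1 : lam ≤ 9 / 8) (hc0 : m / 4 ≤ c)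
    (hc1 : c ≤ m) (y : ℝ) (hy : 0 ≤ y) :
    (m * (m - 1) - lam * m ^ 2 - c * m) + c * y ≤ Ph m lam y := by
  rcases le_total y m with hym | hym
  · rcases le_total lam 1 with hl | hl
    · refine le_trans ?_ (Ph_min1 hm (by linarith) hl y hy)
      have : m - lam * (m + 1) ≤ c := by nlinarith
      nlinarith [mul_nonneg (sub_nonneg.mpr hym) (sub_nonneg.mpr this)]
    · refine le_trans ?_ (Ph_minB hm hl h1 y hy)
      have : m - 1 - lam * m ≤ c := by nlinarith
      nlinarith [mul_nonneg (sub_nonneg.mpr hym) (sub_nonneg.mpr this)]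
  · have e : Ph m lam y = m * (y - 1) + 3 * (y * (y - m)) - lam * y ^ 2 := by
      unfold Ph
      rw [max_eq_left (by linarith), max_eq_left (by nlinarith)]
    rw [e]
    have : lam * (y + m) + c ≤ 3 * y + m := by nlinarith
    nlinarith [mul_nonneg (sub_nonneg.mpr hym) (sub_nonneg.mpr this)]

theorem step_up {P : ℝ → Prop} {a c ρ : ℝ} (hac : a ≤ c) (hρ : 0 < ρ) (h0 : P a)
    (hs : ∀ b b', a ≤ b → b ≤ b' → b' ≤ c → b' - b ≤ ρ → P b → P b') : P c := by
  have key : ∀ k : ℕ, P (min (a + k * ρ) c) := by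
    intro k
    induction k with
    | zero => simpa [min_eq_left hac] using h0
    | succ k ih =>
      have hk : (0 : ℝ) ≤ k * ρ := by positivity
      refine hs _ _ (le_min (by linarith) hac) (min_le_min_right _ (by push_cast; linarith))
        (min_le_right _ _) ?_ ih
      push_cast
      rcases le_total (a + k * ρ) c with h | h
      · rw [min_eq_left h]
        linarith [min_le_left (a + (k + 1) * ρ) c]
      · rw [min_eq_right h]
        linarith [min_le_right (a + (k + 1) * ρ) c]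
  obtain ⟨k, hk⟩ := exists_nat_ge ((c - a) / ρ)
  rw [div_le_iff₀ hρ] at hk
  have := key k
  rwa [min_eq_right (by linarith)] at this

theorem step_down {P : ℝ → Prop} {a c ρ : ℝ} (hac : c ≤ a) (hρ : 0 < ρ) (h0 : P a)
    (hs : ∀ b b', b ≤ a → b' ≤ b → c ≤ b' → b - b' ≤ ρ → P b → P b') : P c := by
  have := step_up (P := fun t => P (-t)) (a := -a) (c := -c) (by linarith) hρ (by simpa using h0)
    fun b b' h1 h2 h3 h4 h5 => hs (-b) (-b') (by linarith) (by linarith) (by linarith)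
      (by linarith) h5
  simpa using this

theorem convex_between {g : ℝ → ℝ} (hg : ConvexOn ℝ (Set.Ici 0) g) {a b y : ℝ} (ha : 0 ≤ a)
    (hay : a ≤ y) (hyb : y ≤ b) (hab : a < b) :
    g y ≤ (b - y) / (b - a) * g a + (y - a) / (b - a) * g b := by
  have hd : 0 < b - a := by linarith
  have := hg.2 (show a ∈ Set.Ici 0 from ha) (show b ∈ Set.Ici 0 from ha.trans hab.le)
    (show 0 ≤ (b - y) / (b - a) from div_nonneg (by linarith) hd.le)
    (show 0 ≤ (y - a) / (b - a) from div_nonneg (by linarith) hd.le) (by field_simp; ring)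
  simp only [smul_eq_mul] at this
  have e : (b - y) / (b - a) * a + (y - a) / (b - a) * b = y := by field_simp; ring
  rwa [e] at this

theorem affine_of_mid {g : ℝ → ℝ} (hg : ConvexOn ℝ (Set.Ici 0) g) {a b c x : ℝ} (ha : 0 ≤ a)
    (hac : a < c) (hcx : c ≤ x) (hxb : x ≤ b)
    (h : g c = (b - c) / (b - a) * g a + (c - a) / (b - a) * g b) :
    (b - x) / (b - a) * g a + (x - a) / (b - a) * g b ≤ g x := by
  have a1 := convex_between hg (a := a) (b := x) (y := c) ha hac.le hcx (by linarith)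
  rw [h] at a1
  have hd : 0 < b - a := by linarith
  have hd2 : 0 < x - a := by linarith
  have hd3 : 0 < c - a := by linarith
  have e : (b - x) / (b - a) * g a + (x - a) / (b - a) * g b
      = ((b - c) / (b - a) * g a + (c - a) / (b - a) * g b
        - (x - c) / (x - a) * g a) * ((x - a) / (c - a)) := by
    field_simp; ring
  have e2 : g x = (c - a) / (x - a) * g x * ((x - a) / (c - a)) := by
    field_simp
  rw [e, e2]
  exact mul_le_mul_of_nonneg_right (by linarith) (by positivity)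

theorem excess_mono {g : ℝ → ℝ} (hg : ConvexOn ℝ (Set.Ici 0) g) {u ν : ℝ}
    (hsup : ∀ y, 0 ≤ y → u + ν * y ≤ g y) {a b y : ℝ} (ha : 0 ≤ a) (hay : a ≤ y) (hyb : y ≤ b) :
    (g b = u + ν * b → g y - (u + ν * y) ≤ g a - (u + ν * a)) ∧
    (g a = u + ν * a → g y - (u + ν * y) ≤ g b - (u + ν * b)) := by
  rcases (hay.trans hyb).eq_or_lt with hab | hab
  · subst hab
    obtain rfl : y = a := le_antisymm hyb hay
    exact ⟨fun _ => le_rfl, fun _ => le_rfl⟩
  have h := convex_between hg ha hay hyb hab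
  have hd : 0 < b - a := by linarith
  set t := (y - a) / (b - a) with ht
  have ht0 : 0 ≤ t := div_nonneg (by linarith) hd.le
  have ht1 : t ≤ 1 := by rw [ht, div_le_one hd]; linarith
  have e1 : (b - y) / (b - a) = 1 - t := by rw [ht]; field_simp; ring
  have e2 : y = (1 - t) * a + t * b := by rw [ht]; field_simp; ring
  rw [e1] at h
  have ha' := hsup a ha
  have hb' := hsup b (ha.trans hab.le)
  have e3 : u + ν * y = (1 - t) * (u + ν * a) + t * (u + ν * b) := by rw [e2]; ring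
  constructor
  · intro hb
    nlinarith [mul_nonneg ht0 (sub_nonneg.mpr ha')]
  · intro ha2
    nlinarith [mul_nonneg (sub_nonneg.mpr ht1) (sub_nonneg.mpr hb')]

theorem env {g : ℝ → ℝ} (hg : ConvexOn ℝ (Set.Ici 0) g) {C u ν : ℝ} (hC : 0 ≤ C)
    (hgrow : ∀ y, 0 ≤ y → y ^ 2 - C * y - 1 ≤ g y) (hsup : ∀ y, 0 ≤ y → u + ν * y ≤ g y)
    {x₀ a' b' : ℝ} (hx₀ : 0 ≤ x₀) (h0 : g x₀ = u + ν * x₀) (hax : a' ≤ x₀) (hxb : x₀ ≤ b')
    (ha : a' < 0 ∨ u + ν * a' < g a') (hb : u + ν * b' < g b') :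
    ∃ s, 0 < s ∧ s ≤ 1 / 2 ∧ ∀ y, 0 ≤ y →
      (u + s * a' * b') + (ν - s * (a' + b')) * y + s * y ^ 2 ≤ g y := by
  obtain ⟨ha₀, hha0, hha⟩ : ∃ h₀, 0 < h₀ ∧ ∀ y, 0 ≤ y → y ≤ a' → h₀ ≤ g y - (u + ν * y) := by
    by_cases hneg : a' < 0
    · exact ⟨1, one_pos, fun y hy hya => by linarith⟩
    · have h1 := ha.resolve_left hneg
      exact ⟨g a' - (u + ν * a'), by linarith,
        fun y hy hya => (excess_mono hg hsup hy hya hax).1 h0⟩
  have hb0 : 0 ≤ b' := hx₀.trans hxb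
  set hb₀ := g b' - (u + ν * b') with hhb
  have hhb0 : 0 < hb₀ := by linarith
  have hhb' : ∀ y, b' ≤ y → hb₀ ≤ g y - (u + ν * y) :=
    fun y hy => (excess_mono hg hsup hx₀ hxb hy).2 h0
  set D := C + |ν| + |a'| + |u| + 1 with hD
  have hD1 : 1 ≤ D := by
    have := abs_nonneg ν; have := abs_nonneg a'; have := abs_nonneg u
    linarith
  set P := (4 * D + |a'|) * (4 * D) + 1 with hP
  have hP0 : 0 < P := by positivity
  set Q := |a'| * b' + 1 with hQ
  have hQ0 : 0 < Q := by positivity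
  refine ⟨min (1 / 2) (min (hb₀ / P) (ha₀ / Q)), by positivity, min_le_left _ _, fun y hy => ?_⟩
  set s := min (1 / 2) (min (hb₀ / P) (ha₀ / Q)) with hs
  have hs0 : 0 < s := by positivity
  have hs1 : s ≤ 1 / 2 := min_le_left _ _
  have hs2 : s * P ≤ hb₀ := by
    rw [← le_div_iff₀ hP0]; exact (min_le_right _ _).trans (min_le_left _ _)
  have hs3 : s * Q ≤ ha₀ := by
    rw [← le_div_iff₀ hQ0]; exact (min_le_right _ _).trans (min_le_right _ _)
  suffices h : s * ((y - a') * (y - b')) ≤ g y - (u + ν * y) by linarith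
  have haa := le_abs_self a'
  have haa' := neg_abs_le a'
  by_cases h1 : y ≤ a'
  · have a1 : (y - a') * (y - b') ≤ Q := by
      have : (a' - y) * (b' - y) ≤ |a'| * b' :=
        mul_le_mul (by linarith) (by linarith) (by linarith) (abs_nonneg _)
      linarith
    exact (mul_le_mul_of_nonneg_left a1 hs0.le).trans (hs3.trans (hha y hy h1))
  by_cases h2 : y ≤ b'
  · have a1 : (y - a') * (y - b') ≤ 0 :=
      mul_nonpos_of_nonneg_of_nonpos (by linarith) (by linarith)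
    have a2 := mul_nonpos_of_nonneg_of_nonpos hs0.le a1
    linarith [hsup y hy]
  push Not at h1 h2
  have a0 : (y - a') * (y - b') ≤ (y + |a'|) * y :=
    mul_le_mul (by linarith) (by linarith) (by linarith) (by positivity)
  by_cases h3 : y ≤ 4 * D
  · have a1 : (y + |a'|) * y ≤ (4 * D + |a'|) * (4 * D) :=
      mul_le_mul (by linarith) h3 hy (by positivity)
    have a2 : (y - a') * (y - b') ≤ P := by linarith
    exact (mul_le_mul_of_nonneg_left a2 hs0.le).trans (hs2.trans (hhb' y h2.le))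
  · push Not at h3
    have a1 : s * ((y - a') * (y - b')) ≤ 1 / 2 * ((y + |a'|) * y) :=
      mul_le_mul hs1 a0 (mul_nonneg (by linarith) (by linarith)) (by norm_num)
    have a2 := hgrow y hy
    have a3 : ν * y ≤ |ν| * y := mul_le_mul_of_nonneg_right (le_abs_self ν) hy
    have a4 := le_abs_self u
    have a5 : 4 * D * y ≤ y * y := mul_le_mul_of_nonneg_right h3.le hy
    have a6 : (|u| + 1) * 1 ≤ D * y := mul_le_mul (by
      have := abs_nonneg ν; have := abs_nonneg a'; linarith) (by linarith) zero_le_one (by linarith)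
    have a7 : (C + |ν| + |a'|) * y ≤ D * y := mul_le_mul_of_nonneg_right (by
      have := abs_nonneg u; linarith) hy
    have a8 : 0 ≤ |a'| * y := by positivity
    nlinarith only [a1, a2, a3, a4, a5, a6, a7, a8]

/-- The hypotheses of the abstract end game. -/
structure EG (m δ E : ℝ) (g g' : ℝ → ℝ → ℝ) : Prop where
  hm : 2 ≤ m
  hδ : δ * m = 1 / 100
  hE0 : 0 ≤ E
  hE : E ≤ δ / 100
  conv : ∀ β, 0 < β → ConvexOn ℝ (Set.Ici 0) (g β)
  conc : ∀ x, 0 ≤ x → ConcaveOn ℝ (Set.Ioi 0) (fun β => g β x)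
  U0 : ∀ β, 3 / 4 ≤ β → β ≤ 9 / 8 → ∀ x, 0 ≤ x → x ≤ 1 - δ → g β x ≤ -β * x + E
  U1 : ∀ β, 3 / 4 ≤ β → β ≤ 9 / 8 → ∀ x, 1 ≤ x → x ≤ m - δ →
    g β x ≤ m * (x - 1) - β * ((m + 1) * x - m) + E
  UB : ∀ β, 3 / 4 ≤ β → β ≤ 9 / 8 → ∀ x, 0 ≤ x → x ≤ m - δ → g β x ≤ x * (m - 1 - β * m) + E
  L : ∀ β, 3 / 4 ≤ β → β ≤ 9 / 8 → ∀ γ ν, (∀ y, 0 ≤ y → γ + ν * y ≤ Ph m β y) →
    ∀ x, 0 ≤ x → x ≤ m + 1 → γ + ν * x - E ≤ g β x
  grow : ∀ β, 3 / 4 ≤ β → β ≤ 9 / 8 → ∀ x, 0 ≤ x → x ^ 2 - (3 * m + 1) * x - 1 ≤ g β x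
  L' : ∀ β, 7 / 8 ≤ β → β ≤ 9 / 8 → ∀ γ ν, (∀ y, 0 ≤ y → γ + ν * y ≤ Ph m (β - 1 / 4) y) →
    ∀ x, 0 ≤ x → x ≤ m + 1 → γ + ν * x - E ≤ g' β x
  F : ∀ β, 7 / 8 ≤ β → β ≤ 9 / 8 → ∀ ξ, 0 < ξ → ξ ≤ m → ∀ s γ ν, 0 < s → s ≤ 1 / 2 →
    (∀ y, 0 ≤ y → γ + ν * y + s * y ^ 2 ≤ g β y) →
    g' β ξ ≤ g β ξ + (E + (g β ξ - γ - ν * ξ) / s) / 4 ∧
    ∀ β'', 0 < β'' → β'' < β →
      -(β - β'') * (E + (g β ξ - γ - ν * ξ) / s) ≤ g β ξ - g β'' ξ

namespace EG

variable {m δ E : ℝ} {g g' : ℝ → ℝ → ℝ}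

theorem δpos (h : EG m δ E g g') : 0 < δ := by
  have := h.hm
  have := h.hδ
  by_contra hc
  nlinarith [not_lt.mp hc]

theorem δle (h : EG m δ E g g') : δ ≤ 1 / 200 := by
  have := h.hm
  have := h.hδ
  have := h.δpos
  nlinarith

/-- The second-moment bound at a contact point of a supporting line. -/
theorem contact (h : EG m δ E g g') {β : ℝ} (hβ0 : 7 / 8 ≤ β) (hβ1 : β ≤ 9 / 8) {u ν : ℝ}
    (hsup : ∀ y, 0 ≤ y → u + ν * y ≤ g β y) {ξ a' b' : ℝ} (hξ : 0 < ξ) (hξm : ξ ≤ m)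
    (h0 : g β ξ = u + ν * ξ) (hax : a' ≤ ξ) (hxb : ξ ≤ b')
    (ha : a' < 0 ∨ u + ν * a' < g β a') (hb : u + ν * b' < g β b') :
    g' β ξ ≤ g β ξ + (E + ((a' + b') * ξ - a' * b')) / 4 ∧
    ∀ β'', 0 < β'' → β'' < β →
      -(β - β'') * (E + ((a' + b') * ξ - a' * b')) ≤ g β ξ - g β'' ξ := by
  have hm := h.hm
  obtain ⟨s, hs0, hs1, hs⟩ := env (h.conv β (by linarith)) (C := 3 * m + 1) (by linarith)
    (h.grow β (by linarith) hβ1) hsup hξ.le h0 hax hxb ha hb
  have := h.F β hβ0 hβ1 ξ hξ hξm s _ _ hs0 hs1 hs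
  have e : (g β ξ - (u + s * a' * b') - (ν - s * (a' + b')) * ξ) / s = (a' + b') * ξ - a' * b' := by
    rw [h0]; field_simp; ring
  rwa [e] at this

theorem claimA (h : EG m δ E g g') {β : ℝ} (hβ0 : 7 / 8 ≤ β) (hβ1 : β ≤ 9 / 8) {u ν : ℝ}
    (hsup : ∀ y, 0 ≤ y → u + ν * y ≤ g β y) (h0 : g β (3 / 2) = u + ν * (3 / 2)) :
    g β (m - δ) = u + ν * (m - δ) := by
  have hm := h.hm
  have hδ0 := h.δpos
  have hδ1 := h.δle
  have hE := h.hE
  refine step_up (P := fun y => g β y = u + ν * y) (ρ := δ / (4 * (m + 1))) (by linarith)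
    (by positivity) h0 fun b b' h1 h2 h3 h4 hb => ?_
  by_contra hne
  have hlt : u + ν * b' < g β b' := lt_of_le_of_ne (hsup b' (by linarith)) (Ne.symm hne)
  have a1 := (h.contact hβ0 hβ1 hsup (ξ := b) (a' := -1) (b' := b') (by linarith) (by linarith) hb
    (by linarith) h2 (Or.inl (by norm_num)) hlt).1
  have a2 := h.L' β hβ0 hβ1 _ _ (Ph_min1 hm (by linarith) (by linarith)) b (by linarith) (by linarith)
  have a3 := h.U1 β (by linarith) hβ1 b (by linarith) (by linarith)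
  rw [le_div_iff₀ (by positivity)] at h4
  have a4 : (b' - b) * (b + 1) ≤ (b' - b) * (m + 1) :=
    mul_le_mul_of_nonneg_left (by linarith) (by linarith)
  have a5 : 1 / 2 * δ ≤ (b - 1) * (m - b) := mul_le_mul (by linarith) (by linarith) hδ0.le (by linarith)
  nlinarith only [a1, a2, a3, a4, a5, h4, hE, hδ0]

theorem steep (h : EG m δ E g g') {β : ℝ} (hβ0 : 7 / 8 ≤ β) (hβ1 : β ≤ 9 / 8) {u ν : ℝ}
    (hsup : ∀ y, 0 ≤ y → u + ν * y ≤ g β y) (h0 : g β (3 / 2) = u + ν * (3 / 2)) :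
    u + ν * (m + 4 * δ) < g β (m + 4 * δ) := by
  have hm := h.hm
  have hδ := h.hδ
  have hδ0 := h.δpos
  have hδ1 := h.δle
  have hE := h.hE
  have hA := h.claimA hβ0 hβ1 hsup h0
  have a1 := h.L β (by linarith) hβ1 _ _ (Ph_minS hm (c := m) (by linarith) hβ1 (by linarith) le_rfl)
    (m + 4 * δ) (by linarith) (by linarith)
  have a2 := h.L β (by linarith) hβ1 _ _ (Ph_minS hm (c := m / 4) (by linarith) hβ1 le_rfl (by linarith))
    (3 / 2) (by linarith) (by linarith)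
  have a3 := h.U1 β (by linarith) hβ1 (m - δ) (by linarith) le_rfl
  have a4 : δ * (β * (m + 1) - m) ≤ δ * m := mul_le_mul_of_nonneg_left (by nlinarith) hδ0.le
  set V := m * (m - 1) - β * m ^ 2 with hV
  have a5 : g β (m - δ) ≤ V + 1 / 100 + E := by rw [hV]; linarith
  have a6 : ν * (m - δ - 3 / 2) ≤ m / 2 * (m - δ - 3 / 2) := by
    have : 1 / 4 ≤ m / 4 * (m - 3 / 2) := by nlinarith
    nlinarith only [a2, a5, hA, h0, this, hE, hδ, hδ1]
  have a7 : ν ≤ m / 2 := le_of_mul_le_mul_right a6 (by linarith)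
  have a8 : δ * ν ≤ δ * (m / 2) := mul_le_mul_of_nonneg_left a7 hδ0.le
  nlinarith only [a1, a5, a8, hA, hE, hδ, hδ1]

theorem claimB (h : EG m δ E g g') {β : ℝ} (hβ0 : 7 / 8 ≤ β) (hβ1 : β ≤ 9 / 8) {u ν : ℝ}
    (hsup : ∀ y, 0 ≤ y → u + ν * y ≤ g β y) (h0 : g β (3 / 2) = u + ν * (3 / 2))
    (h1 : g β (1 - δ) = u + ν * (1 - δ)) : g β δ = u + ν * δ := by
  have hm := h.hm
  have hδ0 := h.δpos
  have hδ1 := h.δle
  have hE := h.hE
  have hst := h.steep hβ0 hβ1 hsup h0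
  refine step_down (P := fun y => g β y = u + ν * y) (ρ := δ / (4 * (m + 1))) (by linarith)
    (by positivity) h1 fun b b' h1 h2 h3 h4 hb => ?_
  by_contra hne
  have hlt : u + ν * b' < g β b' := lt_of_le_of_ne (hsup b' (by linarith)) (Ne.symm hne)
  have a1 := (h.contact hβ0 hβ1 hsup (ξ := b) (a' := b') (b' := m + 4 * δ) (by linarith) (by linarith)
    hb h2 (by linarith) (Or.inr hlt) hst).1
  have a2 := h.L' β hβ0 hβ1 _ _ (Ph_min0 hm (by linarith) (by linarith)) b (by linarith) (by linarith)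
  have a3 := h.U0 β (by linarith) hβ1 b (by linarith) (by linarith)
  rw [le_div_iff₀ (by positivity)] at h4
  have a4 : (b - b') * (m + 4 * δ - b) ≤ (b - b') * (m + 1) :=
    mul_le_mul_of_nonneg_left (by linarith) (by linarith)
  have a5 : 1 / 2 * δ ≤ b * (1 - b) := by nlinarith only [h1, h2, h3, hδ0, hδ1]
  nlinarith only [a1, a2, a3, a4, a5, h4, hE, hδ0]

/-- The three-phase coexistence condition. -/
def Sc (m δ : ℝ) (g : ℝ → ℝ → ℝ) (β : ℝ) : Prop :=
  g β (3 / 2) = (m - δ - 3 / 2) / (m - δ - δ) * g β δ + (3 / 2 - δ) / (m - δ - δ) * g β (m - δ)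

theorem notS (h : EG m δ E g g') {β : ℝ} (hβ0 : 7 / 8 ≤ β) (hβ1 : β ≤ 9 / 8) (hS : ¬ Sc m δ g β)
    {x : ℝ} (hx0 : 3 / 2 ≤ x) (hx1 : x ≤ 7 / 4) {β'' : ℝ} (h1 : 0 < β'') (h2 : β'' < β) :
    -(β - β'') * ((m + 1) * x - m + 1 / 20) ≤ g β x - g β'' x := by
  have hm := h.hm
  have hδ := h.hδ
  have hδ0 := h.δpos
  have hδ1 := h.δle
  have hE := h.hE
  have hconv := h.conv β (by linarith)
  obtain ⟨ν, hν⟩ := exists_support hconv (x := 3 / 2) (by norm_num)
  set u := g β (3 / 2) - ν * (3 / 2) with hu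
  have hsup : ∀ y, 0 ≤ y → u + ν * y ≤ g β y := fun y hy => by have := hν y hy; linarith
  have h0 : g β (3 / 2) = u + ν * (3 / 2) := by linarith
  have hA := h.claimA hβ0 hβ1 hsup h0
  have hst := h.steep hβ0 hβ1 hsup h0
  have hB : u + ν * (1 - δ) < g β (1 - δ) := by
    refine lt_of_le_of_ne (hsup _ (by linarith)) fun e => hS ?_
    have hC := h.claimB hβ0 hβ1 hsup h0 e.symm
    unfold Sc
    have : m - δ - δ ≠ 0 := by linarith
    rw [h0, hA, hC]; field_simp; ring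
  have hx : g β x = u + ν * x := by
    have := (excess_mono hconv hsup (a := 3 / 2) (b := m - δ) (y := x) (by norm_num) hx0
      (by linarith)).2 h0
    linarith [hsup x (by linarith)]
  have a1 := (h.contact hβ0 hβ1 hsup (ξ := x) (a' := 1 - δ) (b' := m + 4 * δ) (by linarith)
    (by linarith) hx (by linarith) (by linarith) (Or.inr hB) hst).2 β'' h1 h2
  refine le_trans ?_ a1
  have a2 : E + ((1 - δ + (m + 4 * δ)) * x - (1 - δ) * (m + 4 * δ)) ≤ (m + 1) * x - m + 1 / 20 := by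
    nlinarith only [hE, hδ, hδ0, hδ1, hx1]
  nlinarith only [a2, h2]

theorem not_S_low (h : EG m δ E g g') : ¬ Sc m δ g (7 / 8) := by
  intro hS
  have hm := h.hm
  have hδ := h.hδ
  have hδ0 := h.δpos
  have hδ1 := h.δle
  have hE := h.hE
  have a1 := h.U1 (7 / 8) (by norm_num) (by norm_num) (3 / 2) (by norm_num) (by linarith)
  have a2 := h.L (7 / 8) (by norm_num) (by norm_num) _ _ (Ph_min0 hm (by norm_num) (by norm_num))
    δ hδ0.le (by linarith)
  have a3 := h.L (7 / 8) (by norm_num) (by norm_num) _ _ (Ph_min1 hm (by norm_num) (by norm_num))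
    (m - δ) (by linarith) (by linarith)
  unfold Sc at hS
  have hd : 0 < m - δ - δ := by linarith
  rw [div_mul_eq_mul_div, div_mul_eq_mul_div, ← add_div, eq_div_iff hd.ne'] at hS
  have a4 := mul_le_mul_of_nonneg_right a1 hd.le
  have a5 := mul_le_mul_of_nonneg_left a2 (show 0 ≤ m - δ - 3 / 2 by linarith)
  have a6 := mul_le_mul_of_nonneg_left a3 (show 0 ≤ 3 / 2 - δ by linarith)
  have a7 : 2 * E * (m - δ - δ) ≤ 2 * (δ / 100) * m :=
    mul_le_mul (by linarith) (by linarith) hd.le (by linarith)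
  have a8 : 2 / 8 * (1 / 2) * (1 / 4) ≤ m / 8 * (1 - δ) * (m - δ - 3 / 2) :=
    mul_le_mul (mul_le_mul (by linarith) (by linarith) (by norm_num) (by linarith)) (by linarith)
      (by norm_num) (mul_nonneg (by linarith) (by linarith))
  nlinarith only [hS, a4, a5, a6, a7, a8, hδ]

theorem S_high (h : EG m δ E g g') : Sc m δ g (9 / 8) := by
  by_contra hS
  have hm := h.hm
  have hδ1 := h.δle
  have hE := h.hE
  have a1 := h.notS (by norm_num) le_rfl hS (x := 3 / 2) le_rfl (by norm_num) (β'' := 1) one_pos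
    (by norm_num)
  have a2 := h.UB (9 / 8) (by norm_num) le_rfl (3 / 2) (by norm_num) (by linarith)
  have a3 := h.L 1 (by norm_num) (by norm_num) _ _ (Ph_minB hm le_rfl (by norm_num))
    (3 / 2) (by norm_num) (by linarith)
  linarith

theorem cont (h : EG m δ E g g') {x : ℝ} (hx : 0 ≤ x) : ContinuousOn (fun β => g β x) (Set.Ioi 0) :=
  (h.conc x hx).continuousOn isOpen_Ioi

theorem slope_right (h : EG m δ E g g') {x : ℝ} (hx : 0 ≤ x) {b β c : ℝ} (hb : 1 / 8 < b)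
    (hβ : b < β) (hc : g b x - g (b - 1 / 8) x ≤ c / 8) : g β x - g b x ≤ c * (β - b) := by
  have := (h.conc x hx).slope_anti_adjacent (x := b - 1 / 8) (y := b) (z := β)
    (show b - 1 / 8 ∈ Set.Ioi 0 by simp; linarith) (show β ∈ Set.Ioi 0 by simp; linarith)
    (by linarith) hβ
  rw [div_le_div_iff₀ (by linarith) (by linarith)] at this
  nlinarith only [this, hc, hβ]

theorem main (h : EG m δ E g g') : ∃ βc, 7 / 8 ≤ βc ∧ βc ≤ 9 / 8 ∧ ∀ x, 3 / 2 ≤ x → x ≤ 7 / 4 →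
    ∃ c₁ c₂, c₂ < c₁ ∧ (∀ β, 0 < β → β < βc → c₁ * (βc - β) ≤ g βc x - g β x) ∧
      (∀ β, βc < β → g β x - g βc x ≤ c₂ * (β - βc)) := by
  have hm := h.hm
  have hδ := h.hδ
  have hδ0 := h.δpos
  have hδ1 := h.δle
  have hE := h.hE
  have hE0 := h.hE0
  set S := {β ∈ Set.Icc (7 / 8 : ℝ) (9 / 8) | Sc m δ g β} with hS
  have hsub : Set.Icc (7 / 8 : ℝ) (9 / 8) ⊆ Set.Ioi 0 := fun β hβ => by
    have := hβ.1
    simp only [Set.mem_Ioi]; linarith
  have hcl : IsClosed S := by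
    have hc : ContinuousOn (fun β => g β (3 / 2) - ((m - δ - 3 / 2) / (m - δ - δ) * g β δ
        + (3 / 2 - δ) / (m - δ - δ) * g β (m - δ))) (Set.Icc (7 / 8) (9 / 8)) :=
      (((h.cont (by norm_num)).sub (((h.cont hδ0.le).const_mul _).add
        ((h.cont (by linarith)).const_mul _)))).mono hsub
    have := hc.preimage_isClosed_of_isClosed isClosed_Icc (isClosed_singleton (x := (0 : ℝ)))
    convert this using 1
    ext β
    simp only [hS, Sc, Set.mem_ofPred_eq, Set.mem_inter_iff, Set.mem_preimage, Set.mem_singleton_iff,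
      sub_eq_zero]
  have hne : S.Nonempty := ⟨9 / 8, ⟨by norm_num, le_rfl⟩, h.S_high⟩
  have hbd : BddBelow S := ⟨7 / 8, fun β hβ => hβ.1.1⟩
  have hmem := hcl.csInf_mem hne hbd
  set βc := sInf S with hβc
  obtain ⟨⟨hb0, hb1⟩, hSc⟩ := hmem
  have hb0' : 7 / 8 < βc := lt_of_le_of_ne hb0 fun e => h.not_S_low (e ▸ hSc)
  refine ⟨βc, hb0, hb1, fun x hx0 hx1 => ⟨-((m + 1) * x - m + 1 / 20), -m * x + 1 / 10, by linarith,
    fun β'' h1 h2 => ?_, fun β hβ => ?_⟩⟩
  · have hc : ContinuousAt (fun β => g β x) βc :=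
      (h.cont (by linarith)).continuousAt (Ioi_mem_nhds (by linarith))
    have hlim : Tendsto (fun β => g β x - g β'' x + (β - β'') * ((m + 1) * x - m + 1 / 20))
        (𝓝[<] βc) (𝓝 (g βc x - g β'' x + (βc - β'') * ((m + 1) * x - m + 1 / 20))) :=
      ((hc.tendsto.sub_const _).add ((tendsto_id.sub_const _).mul_const _)).mono_left
        nhdsWithin_le_nhds
    have : 0 ≤ g βc x - g β'' x + (βc - β'') * ((m + 1) * x - m + 1 / 20) := by
      refine ge_of_tendsto hlim ?_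
      filter_upwards [Ioo_mem_nhdsLT (show max β'' (7 / 8) < βc from max_lt h2 hb0')] with β hβ
      have b1 : β'' < β := lt_of_le_of_lt (le_max_left _ _) hβ.1
      have b2 : 7 / 8 ≤ β := (le_max_right _ _).trans hβ.1.le
      have b3 : β ≤ 9 / 8 := hβ.2.le.trans hb1
      have b4 : ¬ Sc m δ g β := fun hs => absurd (csInf_le hbd ⟨⟨b2, b3⟩, hs⟩) (not_le.mpr hβ.2)
      have := h.notS b2 b3 b4 hx0 hx1 h1 b1
      linarith
    linarith
  · have hd : 0 < m - δ - δ := by linarith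
    have hconv := h.conv βc (by linarith)
    -- affine at βc
    have haff : (m - δ - x) / (m - δ - δ) * g βc δ + (x - δ) / (m - δ - δ) * g βc (m - δ)
        ≤ g βc x := affine_of_mid hconv hδ0.le (by linarith) hx0 (by linarith) hSc
    have hcx : g β x ≤ (m - δ - x) / (m - δ - δ) * g β δ + (x - δ) / (m - δ - δ) * g β (m - δ) :=
      convex_between (h.conv β (by linarith)) hδ0.le (by linarith) (by linarith) (by linarith)
    have s1 : g β δ - g βc δ ≤ (16 * E) * (β - βc) := by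
      refine h.slope_right hδ0.le (by linarith) hβ ?_
      have a1 := h.U0 βc (by linarith) hb1 δ hδ0.le (by linarith)
      have a2 := h.L (βc - 1 / 8) (by linarith) (by linarith) _ _
        (Ph_min0 hm (by linarith) (by linarith)) δ hδ0.le (by linarith)
      linarith
    have s2 : g β (m - δ) - g βc (m - δ) ≤ (-((m + 1) * (m - δ) - m) + 16 * E) * (β - βc) := by
      refine h.slope_right (by linarith) (by linarith) hβ ?_
      have a1 := h.U1 βc (by linarith) hb1 (m - δ) (by linarith) le_rfl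
      have a2 := h.L (βc - 1 / 8) (by linarith) (by linarith) _ _
        (Ph_min1 hm (by linarith) (by linarith)) (m - δ) (by linarith) (by linarith)
      linarith
    set t := (x - δ) / (m - δ - δ) with ht
    have e1 : (m - δ - x) / (m - δ - δ) = 1 - t := by rw [ht]; field_simp; ring
    rw [e1] at haff hcx
    have ht0 : 0 ≤ t := div_nonneg (by linarith) hd.le
    have ht1 : t ≤ 1 := by rw [ht, div_le_one hd]; linarith
    have ht2 : x - δ ≤ t * m := by
      rw [ht, div_mul_eq_mul_div, le_div_iff₀ hd]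
      nlinarith only [hx0, hδ0, hδ1]
    have s3 := mul_le_mul_of_nonneg_left s1 (show 0 ≤ 1 - t by linarith)
    have s4 := mul_le_mul_of_nonneg_left s2 ht0
    have s5 : (1 - t) * (16 * E) + t * (-((m + 1) * (m - δ) - m) + 16 * E) ≤ -m * x + 1 / 10 := by
      have b1 : (x - δ) * m ≤ t * m * m := mul_le_mul_of_nonneg_right ht2 (by linarith)
      have b2 : t * (δ * (m + 1)) ≤ 1 * (δ * (m + 1)) :=
        mul_le_mul_of_nonneg_right ht1 (by positivity)
      nlinarith only [b1, b2, hδ, hδ1, hE]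
    have s6 := mul_le_mul_of_nonneg_right s5 (show 0 ≤ β - βc by linarith)
    linarith

end EG

end Crest.Agent.R149
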