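import Crest.Agent.R149.Main

set_option autoImplicit false

namespace Crest.Agent.R149

open MeasureTheory Crest.ProbabilityR.Continuum Classical Filter Topology
open scoped ENNReal BigOperators

/-- A concave function with a corner has distinct one-sided derivatives, also after division by
the variable. -/
theorem corner_deriv {g : ℝ → ℝ} (hg : ConcaveOn ℝ (Set.Ioi 0) g) {b c₁ c₂ : ℝ} (hb : 0 < b)
    (hc : c₂ < c₁) (h1 : ∀ β, 0 < β → β < b → c₁ * (b - β) ≤ g b - g β)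
    (h2 : ∀ β, b < β → g β - g b ≤ c₂ * (β - b)) :
    ∃ Dl Dr : ℝ, HasDerivWithinAt (fun β => g β / β) Dl (Set.Iio b) b ∧
      HasDerivWithinAt (fun β => g β / β) Dr (Set.Ioi b) b ∧ Dr < Dl := by
  have hi : b ∈ interior (Set.Ioi (0 : ℝ)) := by rwa [interior_Ioi]
  have hl := (hg.neg.hasDerivWithinAt_leftDeriv_of_mem_interior hi).neg
  have hr := (hg.neg.hasDerivWithinAt_rightDeriv_of_mem_interior hi).neg
  rw [neg_neg] at hl hr
  set dl := -derivWithin (-g) (Set.Iio b) b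
  set dr := -derivWithin (-g) (Set.Ioi b) b
  have a1 : c₁ ≤ dl := by
    have := (hasDerivWithinAt_iff_tendsto_slope' (by simp)).mp hl
    refine ge_of_tendsto this ?_
    filter_upwards [Ioo_mem_nhdsLT hb] with β hβ
    rw [slope_comm, slope_def_field, le_div_iff₀ (by linarith [hβ.2])]
    exact h1 β hβ.1 hβ.2
  have a2 : dr ≤ c₂ := by
    have := (hasDerivWithinAt_iff_tendsto_slope' (by simp)).mp hr
    refine le_of_tendsto this ?_
    filter_upwards [self_mem_nhdsWithin] with β hβ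
    have hβ' : b < β := hβ
    rw [slope_def_field, div_le_iff₀ (by linarith)]
    exact h2 β hβ'
  refine ⟨_, _, hl.div (hasDerivWithinAt_id b _) hb.ne', hr.div (hasDerivWithinAt_id b _) hb.ne', ?_⟩
  refine div_lt_div_of_pos_right ?_ (pow_pos hb 2)
  show dr * b - g b * 1 < dl * b - g b * 1
  have : dr * b < dl * b := mul_lt_mul_of_pos_right (by linarith) hb
  linarith

theorem exists_model (P : (ℝ → ℝ) → Prop)
    (hP : ∀ K δ η θ : ℝ, 0 ≤ K → 0 < δ → δ ≤ θ / 4 → θ ≤ 1 → 0 < η → ∃ φ, P φ ∧ Core φ K δ η θ) :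
    ∃ (φ : ℝ → ℝ) (A : ℝ) (y : ℕ), P φ ∧ 2 ≤ A ∧ 2 ≤ y ∧ (∀ r, 2 ≤ r → φ r = 0) ∧
      Good (φ - Tt A y 0) ∧ ∃ βc, 7 / 8 ≤ βc ∧ βc ≤ 9 / 8 ∧
      ∀ ρ, 5 * pk / 3 - pk / 20 < ρ → ρ < 5 * pk / 3 + pk / 20 → ∃ Dl Dr : ℝ,
        HasDerivWithinAt (fun β : ℝ => G (β • (φ - Tt A y 0)) ρ / β) Dl (Set.Iio βc) βc ∧
        HasDerivWithinAt (fun β : ℝ => G (β • (φ - Tt A y 0)) ρ / β) Dr (Set.Ioi βc) βc ∧
        Dr < Dl := by
  have hm := mm_pos
  have hm2 := two_le_mm'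
  have hpk := one_le_pk
  obtain ⟨zz, η, hη, hη1, hzz⟩ := exists_clique
  obtain ⟨E, hE⟩ : ∃ E : ℝ, E = 1 / (10000 * mm) := ⟨_, rfl⟩
  obtain ⟨e, he⟩ : ∃ e : ℝ, e = E / (10 * mm ^ 2) := ⟨_, rfl⟩
  obtain ⟨z, hz⟩ : ∃ z : ℝ, z = E / (4000 * mm ^ 2) := ⟨_, rfl⟩
  have hE0 : 0 < E := by rw [hE]; positivity
  have hE1 : E ≤ 1 := by rw [hE, div_le_one (by positivity)]; linarith
  have he0 : 0 < e := by rw [he]; positivity
  have he1 : e ≤ 1 / 10 := by
    rw [he, div_le_iff₀ (by positivity)]; nlinarith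
  have hz0 : 0 < z := by rw [hz]; positivity
  obtain ⟨θ, hθ⟩ : ∃ θ : ℝ, θ = e / 23 := ⟨_, rfl⟩
  have hθ0 : 0 < θ := by rw [hθ]; positivity
  have hθ1 : θ ≤ 1 / 100 := by rw [hθ]; linarith
  obtain ⟨ℓ', hℓ', hθℓ, hξ0⟩ := exists_ell hθ0 hθ1
  obtain ⟨p, hp⟩ : ∃ p : ℝ, p = pk * (1 + θ) ^ 3 := ⟨_, rfl⟩
  obtain ⟨ℓ, hℓ⟩ : ∃ ℓ : ℝ, ℓ = (1 + 4 * θ) * ℓ' := ⟨_, rfl⟩
  rw [← hp, ← hℓ, show 23 * θ = e by rw [hθ]; ring] at hξ0
  have hpp : pk ≤ p := by
    rw [hp]; exact le_mul_of_one_le_right (by linarith) (one_le_pow₀ (by linarith))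
  have hpp' : p ≤ pk * (21 / 20) := by
    rw [hp]
    refine mul_le_mul_of_nonneg_left ?_ (by linarith)
    refine (pow_le_pow_left₀ (by positivity) (show 1 + θ ≤ 101 / 100 by linarith) 3).trans ?_
    norm_num
  have hp1 : 1 ≤ p := by linarith
  have hℓℓ : ℓ' ≤ ℓ := by rw [hℓ]; nlinarith
  have hpack : (packingNumber ℓ : ℝ) ≤ p * ℓ ^ 3 := by
    refine (packing_le_pk (by linarith)).trans ?_
    rw [hp, mul_assoc, ← mul_pow]
    refine mul_le_mul_of_nonneg_left (pow_le_pow_left₀ (by linarith) ?_ 3) (by linarith)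
    nlinarith
  have hξ1 : packingNumber ℓ' / ((ℓ + 2) ^ 3 * p) ≤ 1 := by
    rw [div_le_one (by have : 0 < ℓ := by linarith
                       positivity)]
    refine (packing_le_pk (by linarith)).trans ?_
    rw [mul_comm]
    exact mul_le_mul (pow_le_pow_left₀ (by linarith) (by linarith) 3) hpp (by linarith)
      (by have : 0 < ℓ := by linarith
          positivity)
  have hC := Ccl_nonneg η θ
  obtain ⟨A, hA, hA1, hA2, hA3⟩ : ∃ A : ℝ, 2 ≤ A ∧ 8 * (mm + 2) ≤ A * E ∧ 8 * Ccl η θ ≤ A * E ∧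
      (4 / θ) ^ 3 ≤ A := by
    have a1 : 0 ≤ 8 * ((mm : ℝ) + 2) / E := by positivity
    have a2 : 0 ≤ 8 * Ccl η θ / E := by positivity
    have a3 : 0 ≤ (4 / θ) ^ 3 := by positivity
    refine ⟨2 + 8 * (mm + 2) / E + 8 * Ccl η θ / E + (4 / θ) ^ 3, by linarith, ?_, ?_, by linarith⟩
    · rw [← div_le_iff₀ hE0]; linarith
    · rw [← div_le_iff₀ hE0]; linarith
  obtain ⟨δ, hδ0, hδ1, hs⟩ := exists_delta (s := A * mm * p / 2) hθ0 (by
    have : 2 * 1 ≤ mm * p := mul_le_mul hm2 hp1 zero_le_one hm.le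
    nlinarith)
  obtain ⟨K, hK⟩ : ∃ K : ℝ, K = 2064 * mm * A * p := ⟨_, rfl⟩
  obtain ⟨φ, hPφ, h⟩ := hP K δ η θ (by rw [hK]; positivity) hδ0 hδ1 (by linarith) hη
  obtain ⟨C0, hC00, hC0⟩ := exists_C0 (h.good.smul (β := 9 / 8) (by norm_num))
    (X := 2 * (p * mm)) (by positivity)
  obtain ⟨Cs, hCs⟩ : ∃ Cs : ℝ, 2000 * C0 + 7 * (C0 + 2 + 2 * K * (p * mm))
    + 2000 * (1 + 2 * K) * (2 + p * mm) + (p * mm + 1) ≤ Cs := ⟨_, le_rfl⟩
  obtain ⟨y, hy⟩ := exists_nat_ge (max 4 (max (4 * Cs / E) ((ℓ + 2) / z)))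
  have hy4 : (4 : ℝ) ≤ y := (le_max_left _ _).trans hy
  have hy4' : 4 ≤ y := by exact_mod_cast hy4
  have hy1 : 4 * Cs / E ≤ y := ((le_max_left _ _).trans (le_max_right _ _)).trans hy
  have hy2 : (ℓ + 2) / z ≤ y := ((le_max_right _ _).trans (le_max_right _ _)).trans hy
  have hyC : 4 * Cs ≤ E * (y : ℝ) ^ 3 := by
    rw [div_le_iff₀ hE0, mul_comm (y : ℝ)] at hy1
    exact hy1.trans (mul_le_mul_of_nonneg_left (le_self_pow₀ (by linarith) (by norm_num)) hE0.le)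
  have hzR : (ℓ + 2) / Rk y 0 ≤ z := by
    rw [div_le_iff₀ (Rk_pos (by omega) 0)]
    rw [div_le_iff₀ hz0, mul_comm] at hy2
    refine hy2.trans (mul_le_mul_of_nonneg_left ?_ hz0.le)
    exact (Yk_ge_y (by omega) 0).trans (le_self_pow₀ (by linarith [Yk_ge_two (y := y) (by omega) 0])
      (by norm_num))
  have hEG := model_EG h hA hy4' hp1 hK hs hη zz hzz hη1 hℓ' hℓ hpack hzR hE he hz hξ0 hξ1 hA1 hA2
    hC00 hC0 hCs hyC
  have hG : Good (φ - Tt A y 0) := h.good_T hA (by omega) (by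
    rw [hK]
    exact le_mul_of_one_le_right (by positivity) hp1)
  obtain ⟨βc, hb0, hb1, hmain⟩ := hEG.main
  refine ⟨φ, A, y, hPφ, hA, by omega, fun r hr => le_antisymm (h.good.temp r hr)
    (h.nonneg r (by linarith)), hG, βc, hb0, hb1, fun ρ h1 h2 => ?_⟩
  have hp0 : 0 < p := by linarith
  obtain ⟨c₁, c₂, hc, k1, k2⟩ := hmain (ρ / p) (by rw [le_div_iff₀ hp0]; linarith)
    (by rw [div_le_iff₀ hp0]; linarith)
  simp only [mul_div_cancel₀ ρ hp0.ne'] at k1 k2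
  set c := 2 / (A * p ^ 2) with hcdef
  have hc0 : 0 < c := by rw [hcdef]; have : 0 < A := by linarith
                         positivity
  refine corner_deriv (G_concaveOn hG (by linarith)) (c₁ := c₁ / c) (c₂ := c₂ / c) (by linarith)
    (div_lt_div_of_pos_right hc hc0) (fun β a1 a2 => ?_) (fun β a1 => ?_)
  · rw [div_mul_eq_mul_div, div_le_iff₀ hc0]
    linarith [k1 β a1 a2]
  · rw [div_mul_eq_mul_div, le_div_iff₀ hc0]
    linarith [k2 β a1]

theorem tendsto_free {φ : ℝ → ℝ} (h : Good φ) {ρ β : ℝ} (hρ : 0 ≤ ρ) (hβ : 0 < β) :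
    Tendsto (fun L : ℝ => -(1 / (β * L ^ 3)) * Real.log (partitionFn φ L ⌊ρ * L ^ 3⌋₊ β))
      atTop (𝓝 (G (β • φ) ρ / β)) := by
  refine ((tendsto_G (h.smul hβ.le) hρ).div_const β).congr fun L => ?_
  rw [partitionFn_eq h.meas]
  unfold W
  ring

theorem Good.energy_stab {φ : ℝ → ℝ} (h : Good φ) :
    ∃ B : ℝ, ∀ (N : ℕ) (x : Fin N → Pt), -B * N ≤ energy φ x := by
  obtain ⟨B, -, hB⟩ := h.stab
  exact ⟨B, fun N x => by rw [energy_eq_En, neg_mul]; exact hB N x⟩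

/-- The bounded short-range potential. -/
noncomputable def core0 (K δ η θ : ℝ) (r : ℝ) : ℝ :=
  K * min 1 (max 0 (min (max (δ * (1 / 2 + η) - r) (r - δ * (1 - η)) / (δ * η)) ((1 + θ - r) / θ)))

theorem continuous_core0 (K δ η θ : ℝ) : Continuous (core0 K δ η θ) := by
  unfold core0; fun_prop

theorem core0_nonneg {K : ℝ} (hK : 0 ≤ K) (δ η θ r : ℝ) : 0 ≤ core0 K δ η θ r :=
  mul_nonneg hK (le_min zero_le_one (le_max_left _ _))

theorem core0_le {K : ℝ} (hK : 0 ≤ K) (δ η θ r : ℝ) : core0 K δ η θ r ≤ K :=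
  mul_le_of_le_one_right hK (min_le_left _ _)

theorem core_core0 {K δ η θ : ℝ} (hK : 0 ≤ K) (hδ : 0 < δ) (hδ1 : δ ≤ θ / 4) (hθ : θ ≤ 1)
    (hη : 0 < η) : Core (core0 K δ η θ) K δ η θ := by
  have hθ0 : 0 < θ := by linarith
  have hδη : 0 < δ * η := by positivity
  refine ⟨(continuous_core0 K δ η θ).measurable, fun r _ => core0_nonneg hK _ _ _ _,
    fun r h0 h1 h2 => ?_, fun r h0 h1 => ?_, fun r h0 => ?_, hK, hδ, hδ1, hθ⟩
  · unfold core0
    rw [min_eq_left, mul_one]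
    refine le_max_of_le_right (le_min ?_ ?_)
    · rw [le_div_iff₀ hδη]
      rcases le_or_gt r (δ / 2) with h | h
      · exact le_max_of_le_left (by linarith)
      · have : δ ≤ r := not_lt.mp fun h' => h2 ⟨h, h'⟩
        exact le_max_of_le_right (by linarith)
    · rw [le_div_iff₀ hθ0]; linarith
  · unfold core0
    rw [max_eq_left, min_eq_right zero_le_one, mul_zero]
    refine min_le_of_left_le (div_nonpos_of_nonpos_of_nonneg (max_le ?_ ?_) hδη.le) <;> linarith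
  · unfold core0
    rw [max_eq_left, min_eq_right zero_le_one, mul_zero]
    exact min_le_of_right_le (div_nonpos_of_nonpos_of_nonneg (by linarith) hθ0.le)

theorem core_core1 {K δ η θ : ℝ} (hK : 0 ≤ K) (hδ : 0 < δ) (hδ1 : δ ≤ θ / 4) (hθ : θ ≤ 1)
    (hη : 0 < η) : Core (fun r => core0 K δ η θ r + max 0 (1 / r - 2 / δ)) K δ η θ := by
  have h := core_core0 hK hδ hδ1 hθ hη
  have key : ∀ r, δ / 2 ≤ r → max 0 (1 / r - 2 / δ) = 0 := fun r hr => by
    refine max_eq_left ?_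
    have := one_div_le_one_div_of_le (by positivity) hr
    rw [one_div_div] at this
    linarith
  refine ⟨h.meas.add (by fun_prop), fun r hr => add_nonneg (h.nonneg r hr) (le_max_left _ _),
    fun r h0 h1 h2 => le_add_of_le_of_nonneg (h.bad r h0 h1 h2) (le_max_left _ _),
    fun r h0 h1 => ?_, fun r h0 => ?_, hK, hδ, hδ1, hθ⟩
  · rw [key r (by nlinarith [mul_pos hδ hη]), add_zero]
    exact h.well r h0 h1
  · rw [key r (by linarith), add_zero]
    exact h.far r h0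

end Crest.Agent.R149
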