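import Crest.Agent.R149.TL

set_option autoImplicit false

namespace Crest.Agent.R149

open MeasureTheory Crest.ProbabilityR.Continuum Classical Filter Topology
open scoped ENNReal BigOperators

/-- Upper smeared integral of a radial profile. -/
noncomputable def Iup (τ : ℝ → ℝ) (d : ℝ) : ℝ≥0∞ := ∫⁻ y : Pt, ENNReal.ofReal (τ (max (‖y‖ - d) 0))

/-- Lower smeared integral of a radial profile. -/
noncomputable def Ilo (τ : ℝ → ℝ) (d : ℝ) : ℝ≥0∞ := ∫⁻ y : Pt, ENNReal.ofReal (τ (‖y‖ + d))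

/-- Measurable, non-negative, radially non-increasing profile. -/
structure Dec (τ : ℝ → ℝ) : Prop where
  meas : Measurable τ
  nonneg : ∀ r, 0 ≤ τ r
  anti : ∀ r s, 0 ≤ r → r ≤ s → τ s ≤ τ r

/-- Half-open cube. -/
def hcube (v : Pt) (ℓ : ℝ) : Set Pt := {y | ∀ i, y i ∈ Set.Ico (v i) (v i + ℓ)}

theorem measurableSet_hcube (v : Pt) (ℓ : ℝ) : MeasurableSet (hcube v ℓ) := by
  have : hcube v ℓ = ⋂ k : Fin 3, {x : Pt | v k ≤ x k} ∩ {x : Pt | x k < v k + ℓ} := by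
    ext x; simp [hcube]
  rw [this]
  refine MeasurableSet.iInter fun k => MeasurableSet.inter ?_ ?_
  · exact measurableSet_le measurable_const (by fun_prop)
  · exact measurableSet_lt (by fun_prop) measurable_const

theorem volume_hcube (v : Pt) {ℓ : ℝ} (hℓ : 0 ≤ ℓ) : volume (hcube v ℓ) = ENNReal.ofReal (ℓ ^ 3) := by
  have := volume_box (fun i => Set.Ico (v i) (v i + ℓ)) (fun _ => measurableSet_Ico)
  simp only [Real.volume_Ico, add_sub_cancel_left, Finset.prod_const, Finset.card_univ,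
    Fintype.card_fin] at this
  rw [ENNReal.ofReal_pow hℓ, ← this]; rfl

theorem hcube_sub (v : Pt) (ℓ : ℝ) : hcube v ℓ ⊆ tcube v ℓ :=
  fun _ hy => mem_tcube.mpr fun i => ⟨(hy i).1, (hy i).2.le⟩

theorem self_mem_tcube (v : Pt) {ℓ : ℝ} (hℓ : 0 ≤ ℓ) : v ∈ tcube v ℓ :=
  mem_tcube.mpr fun i => ⟨le_rfl, by linarith⟩

theorem hcube_disj {ℓ t : ℝ} {k : ℕ} (hℓ : 0 ≤ ℓ) (c c' : Fin 3 → Fin k)
    (hcc : c ≠ c') : Disjoint (hcube (gv ℓ t c) ℓ) (hcube (gv ℓ t c') ℓ) := by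
  rw [Set.disjoint_left]
  intro x hx hx'
  obtain ⟨i, hi⟩ := Function.ne_iff.mp hcc
  have h1 := hx i
  have h2 := hx' i
  simp only [gv_apply, Set.mem_Ico] at h1 h2
  rcases lt_or_gt_of_ne hi with h | h
  · have h3 : ((c i : ℕ) : ℝ) + 1 ≤ (c' i : ℕ) := by exact_mod_cast h
    nlinarith [h1.2, h2.1]
  · have h3 : ((c' i : ℕ) : ℝ) + 1 ≤ (c i : ℕ) := by exact_mod_cast h
    nlinarith [h1.1, h2.2]

theorem sum_comp_fib {ι C : Type} [Fintype ι] [Fintype C] (a : ι → C) (f : C → ℝ) :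
    ∑ i, f (a i) = ∑ c, (fib a c : ℝ) * f c := by
  simp_rw [fib_eq_sum]
  push_cast
  simp_rw [Finset.sum_mul]
  rw [Finset.sum_comm]
  refine Finset.sum_congr rfl fun i _ => ?_
  simp

theorem dist_cells_ge {v v' x y : Pt} {ℓ : ℝ} (hx : x ∈ tcube v ℓ) (hy : y ∈ tcube v' ℓ) :
    dist v v' - 7 / 4 * ℓ ≤ dist x y := by
  have h1 : dist (x - v) (y - v') ≤ 7 / 4 * ℓ := by
    have hx' : x - v ∈ tcube 0 ℓ := by simpa [tcube] using hx
    have hy' : y - v' ∈ tcube 0 ℓ := by simpa [tcube] using hy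
    exact dist_le_of_mem_tcube hx' hy'
  have h2 : v - v' = (x - y) - ((x - v) - (y - v')) := by abel
  rw [dist_eq_norm] at h1 ⊢
  rw [dist_eq_norm, h2]
  have := norm_sub_le (x - y) ((x - v) - (y - v'))
  linarith

theorem row_sum_le {τ : ℝ → ℝ} (hτ : Dec τ) {ℓ t S : ℝ} (hℓ : 0 < ℓ) (hS : 0 ≤ S)
    (hI : Iup τ (4 * ℓ) ≤ ENNReal.ofReal (S * ℓ ^ 3)) {k : ℕ} (c : Fin 3 → Fin k) :
    ∑ c' : Fin 3 → Fin k, τ (max (dist (gv ℓ t c) (gv ℓ t c') - 2 * ℓ) 0) ≤ S := by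
  set f : Pt → ℝ≥0∞ := fun y => ENNReal.ofReal (τ (max (‖y - gv ℓ t c‖ - 4 * ℓ) 0)) with hf
  have h1 : ∀ c' : Fin 3 → Fin k,
      ENNReal.ofReal (τ (max (dist (gv ℓ t c) (gv ℓ t c') - 2 * ℓ) 0) * ℓ ^ 3)
        ≤ ∫⁻ y in hcube (gv ℓ t c') ℓ, f y := by
    intro c'
    rw [ENNReal.ofReal_mul (hτ.nonneg _), ← volume_hcube (gv ℓ t c') hℓ.le, ← setLIntegral_const]
    refine setLIntegral_mono' (measurableSet_hcube _ _) fun y hy => ?_
    refine ENNReal.ofReal_le_ofReal (hτ.anti _ _ (le_max_right _ _) (max_le_max_right _ ?_))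
    have h2 := dist_le_of_mem_tcube (hcube_sub _ _ hy) (self_mem_tcube (gv ℓ t c') hℓ.le)
    have h3 := dist_triangle y (gv ℓ t c') (gv ℓ t c)
    rw [← dist_eq_norm, dist_comm (gv ℓ t c)]
    linarith
  have h2 : ∑ c' : Fin 3 → Fin k, ∫⁻ y in hcube (gv ℓ t c') ℓ, f y ≤ Iup τ (4 * ℓ) := by
    rw [← lintegral_biUnion_finset (fun c₁ _ c₂ _ h => hcube_disj hℓ.le c₁ c₂ h)
      (fun c' _ => measurableSet_hcube _ _)]
    refine (setLIntegral_le_lintegral _ _).trans (le_of_eq ?_)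
    exact lintegral_sub_right_eq_self (μ := volume)
      (fun y : Pt => ENNReal.ofReal (τ (max (‖y‖ - 4 * ℓ) 0))) (gv ℓ t c)
  have h3 := ((Finset.sum_le_sum fun c' _ => h1 c').trans h2).trans hI
  rw [← ENNReal.ofReal_sum_of_nonneg (fun c' _ => mul_nonneg (hτ.nonneg _) (by positivity)),
    ENNReal.ofReal_le_ofReal_iff (by positivity), ← Finset.sum_mul] at h3
  exact le_of_mul_le_mul_right h3 (by positivity)

theorem En_le_cells {τ : ℝ → ℝ} (hτ : Dec τ) {ℓ t S : ℝ} (hℓ : 0 < ℓ) (hS : 0 ≤ S)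
    (hI : Iup τ (4 * ℓ) ≤ ENNReal.ofReal (S * ℓ ^ 3)) {k : ℕ} {ι : Type} [Fintype ι]
    (a : ι → Fin 3 → Fin k) (x : ι → Pt) (hx : ∀ i, x i ∈ tcube (gv ℓ t (a i)) ℓ) :
    En τ x ≤ ∑ c, S / 2 * (fib a c : ℝ) ^ 2 := by
  set T : (Fin 3 → Fin k) → (Fin 3 → Fin k) → ℝ :=
    fun c c' => τ (max (dist (gv ℓ t c) (gv ℓ t c') - 2 * ℓ) 0) with hT
  have hT0 : ∀ c c', 0 ≤ T c c' := fun c c' => hτ.nonneg _
  have hTs : ∀ c c', T c c' = T c' c := fun c c' => by simp only [hT, dist_comm]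
  have h1 : En τ x ≤ (1 / 2) * ∑ i, ∑ j, T (a i) (a j) := by
    unfold En
    refine mul_le_mul_of_nonneg_left ?_ (by norm_num)
    refine Finset.sum_le_sum fun i _ => Finset.sum_le_sum fun j _ => ?_
    split_ifs
    · exact hT0 _ _
    · refine hτ.anti _ _ (le_max_right _ _) (max_le ?_ dist_nonneg)
      have := dist_cells_ge (hx i) (hx j)
      linarith
  have h2 : ∑ i, ∑ j, T (a i) (a j) = ∑ c, ∑ c', (fib a c : ℝ) * (fib a c') * T c c' := by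
    rw [sum_comp_fib a (fun c => ∑ j, T c (a j))]
    refine Finset.sum_congr rfl fun c _ => ?_
    rw [sum_comp_fib a (fun c' => T c c'), Finset.mul_sum]
    refine Finset.sum_congr rfl fun c' _ => by ring
  have h3 : ∑ c, ∑ c', (fib a c : ℝ) * (fib a c') * T c c'
      ≤ ∑ c, ∑ c', ((fib a c : ℝ) ^ 2 / 2 * T c c' + (fib a c' : ℝ) ^ 2 / 2 * T c' c) := by
    refine Finset.sum_le_sum fun c _ => Finset.sum_le_sum fun c' _ => ?_
    rw [← hTs c c']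
    nlinarith [hT0 c c', mul_nonneg (hT0 c c') (sq_nonneg ((fib a c : ℝ) - fib a c'))]
  have h4 : ∑ c, ∑ c', ((fib a c : ℝ) ^ 2 / 2 * T c c' + (fib a c' : ℝ) ^ 2 / 2 * T c' c)
      = ∑ c, (fib a c : ℝ) ^ 2 * ∑ c', T c c' := by
    simp_rw [Finset.sum_add_distrib]
    rw [Finset.sum_comm (f := fun c c' => (fib a c' : ℝ) ^ 2 / 2 * T c' c), ← Finset.sum_add_distrib]
    refine Finset.sum_congr rfl fun c _ => ?_
    rw [← Finset.mul_sum]; ring
  have h5 : ∑ c, (fib a c : ℝ) ^ 2 * ∑ c', T c c' ≤ ∑ c, (fib a c : ℝ) ^ 2 * S :=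
    Finset.sum_le_sum fun c _ =>
      mul_le_mul_of_nonneg_left (row_sum_le hτ hℓ hS hI c) (by positivity)
  have h6 : ∑ c, S / 2 * (fib a c : ℝ) ^ 2 = (1 / 2) * ∑ c, (fib a c : ℝ) ^ 2 * S := by
    rw [Finset.mul_sum]
    exact Finset.sum_congr rfl fun c _ => by ring
  rw [h6]
  linarith

theorem idx_lt {ℓ t L u : ℝ} (hℓ : 0 < ℓ) (ht : t ≤ ℓ) (hL : 0 ≤ L) (hu : u ≤ L) :
    ⌊(u + t) / ℓ⌋₊ < ⌊L / ℓ⌋₊ + 2 := by
  have h1 : (u + t) / ℓ ≤ L / ℓ + (1 : ℕ) := by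
    rw [div_le_iff₀ hℓ, add_mul, div_mul_cancel₀ _ hℓ.ne']
    simp; linarith
  have h2 := Nat.floor_le_floor h1
  rw [Nat.floor_add_natCast (by positivity)] at h2
  omega

/-- Cell index of a point of the cube for the grid of side `ℓ` and offset `t`. -/
noncomputable def cidx {ℓ t L : ℝ} (hℓ : 0 < ℓ) (ht : t ≤ ℓ) {x : Pt} (hx : x ∈ cube L) :
    Fin 3 → Fin (⌊L / ℓ⌋₊ + 2) :=
  fun q => ⟨⌊(x q + t) / ℓ⌋₊, idx_lt hℓ ht ((hx q).1.trans (hx q).2) (hx q).2⟩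

theorem mem_cidx {ℓ t L : ℝ} (hℓ : 0 < ℓ) (ht0 : 0 ≤ t) (ht : t ≤ ℓ) {x : Pt} (hx : x ∈ cube L) :
    x ∈ tcube (gv ℓ t (cidx hℓ ht hx)) ℓ := by
  refine mem_tcube.mpr fun q => ?_
  simp only [gv_apply, cidx]
  have h0 : 0 ≤ (x q + t) / ℓ := div_nonneg (by linarith [(hx q).1]) hℓ.le
  have h1 := Nat.floor_le h0
  have h2 := Nat.lt_floor_add_one ((x q + t) / ℓ)
  rw [le_div_iff₀ hℓ] at h1
  rw [div_lt_iff₀ hℓ] at h2
  constructor <;> linarith

theorem sep_count_nat (m p : ℕ) :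
    (∑ j : Fin m, if (p + j) / m = (p + 1 + j) / m then 0 else (1 : ℝ)) ≤ 1 := by
  rw [Finset.sum_ite, Finset.sum_const_zero, zero_add, Finset.sum_const, nsmul_eq_mul, mul_one]
  have : (Finset.univ.filter fun j : Fin m => ¬ (p + j) / m = (p + 1 + j) / m).card ≤ 1 := by
    refine Finset.card_le_one.mpr fun j hj j' hj' => ?_
    simp only [Finset.mem_filter, Finset.mem_univ, true_and] at hj hj'
    have key : ∀ i : Fin m, ¬ (p + i) / m = (p + 1 + i) / m → m ∣ p + i + 1 := by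
      intro i hi
      by_contra h
      apply hi
      rw [show p + 1 + i = p + i + 1 by ring, Nat.succ_div_of_not_dvd h]
    have h1 := key j hj
    have h2 := key j' hj'
    have h3 : (j : ℕ) ≡ j' [MOD m] := by
      have a1 : p + j + 1 ≡ p + j' + 1 [MOD m] :=
        ((Nat.modEq_zero_iff_dvd.mpr h1).trans (Nat.modEq_zero_iff_dvd.mpr h2).symm)
      exact Nat.ModEq.add_left_cancel' p (Nat.ModEq.add_right_cancel' 1 a1)
    exact Fin.ext (Nat.ModEq.eq_of_lt_of_lt h3 j.isLt j'.isLt)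
  exact_mod_cast this

theorem sep_count {R u w : ℝ} (hR : 0 < R) (m : ℕ) (hu : 0 ≤ u) (hw : 0 ≤ w) (huw : |u - w| < R) :
    (∑ j : Fin m, if ⌊(u + (j : ℕ) * R) / (m * R)⌋₊ = ⌊(w + (j : ℕ) * R) / (m * R)⌋₊ then 0
      else (1 : ℝ)) ≤ 1 := by
  have key : ∀ z : ℝ, 0 ≤ z → ∀ j : ℕ, ⌊(z + j * R) / (m * R)⌋₊ = (⌊z / R⌋₊ + j) / m := by
    intro z hz j
    rw [← Nat.floor_add_natCast (by positivity), ← Nat.floor_div_natCast]
    congr 1
    rw [mul_comm (m : ℝ) R, ← div_div, add_div, mul_div_assoc, div_self hR.ne', mul_one]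
  simp_rw [key u hu, key w hw]
  have hle : ∀ z z' : ℝ, 0 ≤ z' → z - z' < R → ⌊z / R⌋₊ ≤ ⌊z' / R⌋₊ + 1 := by
    intro z z' hz' h
    have h1 : z / R ≤ z' / R + (1 : ℕ) := by
      rw [div_le_iff₀ hR, add_mul, div_mul_cancel₀ _ hR.ne']
      simp; linarith
    have h2 := Nat.floor_le_floor h1
    rwa [Nat.floor_add_natCast (by positivity)] at h2
  have h1 := hle u w hw (abs_lt.mp huw).2
  have h2 := hle w u hu (by linarith [(abs_lt.mp huw).1])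
  generalize ⌊u / R⌋₊ = p at *
  generalize ⌊w / R⌋₊ = q at *
  rcases lt_trichotomy p q with h | h | h
  · obtain rfl : q = p + 1 := by omega
    exact sep_count_nat m p
  · subst h; simp
  · obtain rfl : p = q + 1 := by omega
    simp_rw [eq_comm (a := (q + 1 + _) / m)]
    exact sep_count_nat m q

theorem off_le {R : ℝ} (hR : 0 < R) {m : ℕ} (j : Fin m) : (j : ℕ) * R ≤ m * R :=
  mul_le_mul_of_nonneg_right (by exact_mod_cast j.isLt.le) hR.le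

theorem exists_offset {σ : ℝ → ℝ} (hσ : ∀ r, 0 ≤ r → 0 ≤ σ r) {R L : ℝ} (hR : 0 < R)
    (hσR : ∀ r, R ≤ r → σ r = 0) {m : ℕ} (hm : 0 < m) {ι : Type} [Fintype ι] (x : ι → Pt)
    (hx : ∀ i, x i ∈ cube L) :
    ∃ j : Fin m, Cr σ (fun i => cidx (by positivity : 0 < m * R) (off_le hR j) (hx i)) x
      ≤ 3 / m * En σ x := by
  set a : Fin m → ι → Fin 3 → Fin (⌊L / (m * R)⌋₊ + 2) :=
    fun j i => cidx (by positivity : 0 < m * R) (off_le hR j) (hx i) with ha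
  have h1 : ∑ j, Cr σ (a j) x ≤ ∑ _j : Fin m, 3 / m * En σ x := by
    have hm' : (m : ℝ) ≠ 0 := by positivity
    rw [Finset.sum_const, Finset.card_univ, Fintype.card_fin, nsmul_eq_mul, ← mul_assoc,
      mul_div_cancel₀ _ hm']
    unfold Cr En
    rw [← Finset.mul_sum, mul_left_comm]
    refine mul_le_mul_of_nonneg_left ?_ (by norm_num)
    rw [Finset.sum_comm, Finset.mul_sum]
    refine Finset.sum_le_sum fun i _ => ?_
    rw [Finset.sum_comm, Finset.mul_sum]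
    refine Finset.sum_le_sum fun i' _ => ?_
    by_cases hii : i = i'
    · subst hii; simp
    rw [if_neg hii]
    have hs := hσ _ (dist_nonneg (x := x i) (y := x i'))
    by_cases hd : R ≤ dist (x i) (x i')
    · simp [hσR _ hd]
    have h2 : ∀ j, (@ite ℝ (a j i = a j i') (Classical.propDecidable _) 0 (σ (dist (x i) (x i'))))
        ≤ (∑ q : Fin 3, if ⌊(x i q + (j : ℕ) * R) / (m * R)⌋₊ = ⌊(x i' q + (j : ℕ) * R) / (m * R)⌋₊
          then 0 else (1 : ℝ)) * σ (dist (x i) (x i')) := by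
      intro j
      have h3 : ∀ q : Fin 3, (0 : ℝ) ≤ if ⌊(x i q + (j : ℕ) * R) / (m * R)⌋₊
          = ⌊(x i' q + (j : ℕ) * R) / (m * R)⌋₊ then 0 else (1 : ℝ) := fun q => by
        split_ifs <;> norm_num
      split_ifs with h
      · exact mul_nonneg (Finset.sum_nonneg fun q _ => h3 q) hs
      · obtain ⟨q, hq⟩ := Function.ne_iff.mp h
        have h4 := Finset.single_le_sum (fun q _ => h3 q) (Finset.mem_univ q)
        have hq' : ¬ ⌊(x i q + (j : ℕ) * R) / (m * R)⌋₊ = ⌊(x i' q + (j : ℕ) * R) / (m * R)⌋₊ :=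
          fun e => hq (Fin.ext e)
        rw [if_neg hq'] at h4
        nlinarith
    refine (Finset.sum_le_sum fun j _ => h2 j).trans ?_
    rw [← Finset.sum_mul, Finset.sum_comm]
    refine mul_le_mul_of_nonneg_right ?_ hs
    calc _ ≤ ∑ _q : Fin 3, (1 : ℝ) := Finset.sum_le_sum fun q _ =>
          sep_count hR m (hx i q).1 (hx i' q).1
            (lt_of_le_of_lt (coord_le_dist _ _ q) (not_le.mp hd))
      _ = 3 := by simp
  have : Nonempty (Fin m) := ⟨⟨0, hm⟩⟩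
  obtain ⟨j, -, hj⟩ := Finset.exists_le_of_sum_le Finset.univ_nonempty h1
  exact ⟨j, hj⟩

theorem tendsto_cover_cube {ℓ : ℝ} (hℓ : 0 < ℓ) :
    Tendsto (fun L : ℝ => ((⌊L / ℓ⌋₊ : ℝ) + 2) ^ 3 / L ^ 3) atTop (𝓝 (1 / ℓ ^ 3)) := by
  have h1 : Tendsto (fun L : ℝ => (⌊L / ℓ⌋₊ : ℝ) / L + 2 / L) atTop (𝓝 (1 / ℓ + 0)) :=
    (tendsto_floor_div hℓ).add (tendsto_const_nhds.div_atTop tendsto_id)
  have h2 := h1.pow 3
  simp_rw [add_zero, ← add_div, div_pow, one_pow] at h2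
  exact h2

/-- Lebowitz–Penrose lower bound. -/
theorem LPlower {φ σ τ : ℝ → ℝ} (hφ : ∀ r, 0 ≤ r → 0 ≤ φ r) (hσ : ∀ r, 0 ≤ r → 0 ≤ σ r)
    {R : ℝ} (hR : 0 < R) (hσR : ∀ r, R ≤ r → σ r = 0) {m : ℕ} (hm : 0 < m) {μ : ℝ} (hμ0 : 0 ≤ μ)
    (hμ : 1 ≤ μ * (1 - 3 / m)) (hτ : Dec τ) {S : ℝ} (hS : 0 ≤ S) {ℓ : ℝ} (hℓ : ℓ = m * R)
    (hℓ1 : 1 ≤ ℓ) (hI : Iup τ (4 * ℓ) ≤ ENNReal.ofReal (S * ℓ ^ 3)) (hG : Good (φ - σ - τ))
    (hG' : Good (φ - μ • σ)) (α ν : ℝ)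
    (hW : ∀ n : ℕ, α + ν * n + S / 2 * (n : ℝ) ^ 2 ≤ W (φ - μ • σ) ℓ n) {ρ : ℝ} (hρ : 0 ≤ ρ) :
    α / ℓ ^ 3 + ν * ρ - (ρ + 1) / ℓ ≤ G (φ - σ - τ) ρ := by
  have hℓ0 : 0 < ℓ := by linarith
  have hfin : ∀ L : ℝ, 0 < L → ∀ N : ℕ,
      -Real.log m - ((⌊L / ℓ⌋₊ : ℝ) + 2) ^ 3 * ℓ - N / ℓ + ((⌊L / ℓ⌋₊ : ℝ) + 2) ^ 3 * α + ν * N
        ≤ W (φ - σ - τ) L N := by
    intro L hL N
    refine le_W hG.meas hL N ?_
    have h := UBgen (ψ := φ - σ - τ) hG'.meas (J := Fin m) (C := Fin 3 → Fin (⌊L / ℓ⌋₊ + 2))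
      (fun j c => gv ℓ ((j : ℕ) * R) c) hℓ0 L N (fun n => S / 2 * (n : ℝ) ^ 2) α ν ?_ ?_
    · refine h.trans (le_of_eq ?_)
      congr 1
      simp only [Fintype.card_fin, Fintype.card_pi, Finset.prod_const, Finset.card_univ]
      have hm' : (0 : ℝ) < m := by positivity
      conv_lhs => rw [← Real.exp_log hm', ← Real.exp_add]
      congr 1
      push_cast
      ring
    · intro x hx
      subst hℓ
      obtain ⟨j, hj⟩ := exists_offset hσ hR hσR hm x hx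
      set a := fun i => cidx hℓ0 (off_le hR j) (hx i) with ha
      have hxa : ∀ i, x i ∈ tcube (gv (m * R) ((j : ℕ) * R) (a i)) (m * R) :=
        fun i => mem_cidx hℓ0 (by positivity) _ (hx i)
      refine ⟨j, a, hxa, ?_⟩
      have e1 := En_le_cells hτ hℓ0 hS hI a x hxa
      have e2 := En_split φ a x
      have e3 := En_split σ a x
      have e4 := Cr_nonneg hφ a x
      have e5 := En_nonneg hσ x
      simp_rw [EnR_sub, EnR_smul, En_sub]
      rw [Finset.sum_sub_distrib, ← Finset.mul_sum]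
      have e6 : (1 - 3 / m) * En σ x ≤ ∑ c, EnR σ a c x := by linarith
      have e7 := mul_le_mul_of_nonneg_left e6 hμ0
      have e8 := mul_le_mul_of_nonneg_right hμ e5
      linarith
    · intro n
      rw [hG'.Zn_eq hℓ0, ← ENNReal.ofReal_mul (Real.exp_pos _).le, ← Real.exp_add]
      refine ENNReal.ofReal_le_ofReal (Real.exp_le_exp.mpr ?_)
      have := hW n
      linarith
  have hlim : Tendsto (fun L : ℝ => -Real.log m * (1 / L ^ 3)
      + ((⌊L / ℓ⌋₊ : ℝ) + 2) ^ 3 / L ^ 3 * (α - ℓ) + (⌊ρ * L ^ 3⌋₊ : ℝ) / L ^ 3 * (ν - 1 / ℓ)) atTop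
      (𝓝 (-Real.log m * 0 + 1 / ℓ ^ 3 * (α - ℓ) + ρ * (ν - 1 / ℓ))) :=
    ((tendsto_inv_cube.const_mul _).add ((tendsto_cover_cube hℓ0).mul_const _)).add
      ((tendsto_floor_vol hρ).mul_const _)
  have h := le_of_tendsto_of_tendsto hlim (tendsto_G hG hρ) (by
    filter_upwards [eventually_gt_atTop 0] with L hL
    refine le_trans (le_of_eq ?_)
      (div_le_div_of_nonneg_right (hfin L hL ⌊ρ * L ^ 3⌋₊) (by positivity : 0 ≤ L ^ 3))
    ring)
  refine le_trans ?_ h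
  have h2 : 1 / ℓ ^ 3 * ℓ ≤ 1 / ℓ := by
    rw [div_mul_eq_mul_div, one_mul, div_le_div_iff₀ (by positivity) hℓ0]
    nlinarith [mul_pos hℓ0 hℓ0]
  have h3 : (ρ + 1) / ℓ = ρ * (1 / ℓ) + 1 / ℓ := by ring
  have h4 : α / ℓ ^ 3 = 1 / ℓ ^ 3 * α := by ring
  rw [h3, h4]
  linarith

theorem exists_radius {τ : ℝ → ℝ} {d s : ℝ} (hs : ENNReal.ofReal s < Ilo τ d) :
    ∃ r : ℕ, ENNReal.ofReal s ≤ ∫⁻ y in Metric.ball (0 : Pt) r, ENNReal.ofReal (τ (‖y‖ + d)) := by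
  have h1 : Ilo τ d = ⨆ r : ℕ, ∫⁻ y in Metric.ball (0 : Pt) r, ENNReal.ofReal (τ (‖y‖ + d)) := by
    rw [← setLIntegral_iUnion_of_directed, Metric.iUnion_ball_nat, Measure.restrict_univ]
    · rfl
    · exact Monotone.directed_le fun r r' h => Metric.ball_subset_ball (by exact_mod_cast h)
  rw [h1, lt_iSup_iff] at hs
  obtain ⟨r, hr⟩ := hs
  exact ⟨r, hr.le⟩

theorem cross_sum_ge {τ : ℝ → ℝ} (hτ : Dec τ) {b s r : ℝ} (hb : 0 < b) (hs : 0 ≤ s)
    (hI : ENNReal.ofReal ((s + τ 0) * b ^ 3)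
      ≤ ∫⁻ y in Metric.ball (0 : Pt) r, ENNReal.ofReal (τ (‖y‖ + 2 * b)))
    {k : ℕ} (c : Fin 3 → Fin k) (x : Pt) (hin : Metric.ball x r ⊆ ⋃ c' : Fin 3 → Fin k, tcube (gv b 0 c') b)
    (T : (Fin 3 → Fin k) → ℝ) (hT0 : ∀ c', 0 ≤ T c')
    (hT : ∀ c', c' ≠ c → ∀ y ∈ tcube (gv b 0 c') b, τ (‖y - x‖ + 2 * b) ≤ T c') :
    s ≤ ∑ c', if c' = c then 0 else T c' := by
  set f : Pt → ℝ≥0∞ := fun y => ENNReal.ofReal (τ (‖y - x‖ + 2 * b)) with hf
  have h1 : ∫⁻ y in Metric.ball (0 : Pt) r, ENNReal.ofReal (τ (‖y‖ + 2 * b))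
      = ∫⁻ y in Metric.ball x r, f y := by
    rw [← lintegral_indicator measurableSet_ball, ← lintegral_indicator measurableSet_ball,
      ← lintegral_sub_right_eq_self (μ := volume) _ x]
    refine lintegral_congr fun y => ?_
    by_cases hy : y ∈ Metric.ball x r
    · rw [Set.indicator_of_mem hy, Set.indicator_of_mem (by simpa [dist_eq_norm] using hy)]
    · rw [Set.indicator_of_notMem hy, Set.indicator_of_notMem (by simpa [dist_eq_norm] using hy)]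
  have h2 : ∀ c', ∫⁻ y in tcube (gv b 0 c') b, f y
      ≤ ENNReal.ofReal ((if c' = c then τ 0 else T c') * b ^ 3) := by
    intro c'
    have h0 : 0 ≤ if c' = c then τ 0 else T c' := by
      split_ifs
      · exact hτ.nonneg _
      · exact hT0 _
    rw [ENNReal.ofReal_mul h0, ← volume_tcube (gv b 0 c') hb.le, ← setLIntegral_const]
    refine setLIntegral_mono' (measurableSet_tcube _ _) fun y hy => ENNReal.ofReal_le_ofReal ?_
    split_ifs with h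
    · exact hτ.anti _ _ le_rfl (by positivity)
    · exact hT c' h y hy
  have h3 : ENNReal.ofReal ((s + τ 0) * b ^ 3)
      ≤ ∑ c', ENNReal.ofReal ((if c' = c then τ 0 else T c') * b ^ 3) := by
    refine hI.trans (h1.le.trans ((lintegral_mono_set hin).trans ((lintegral_iUnion_le _ _).trans ?_)))
    rw [tsum_fintype]
    exact Finset.sum_le_sum fun c' _ => h2 c'
  have h0 : ∀ c', 0 ≤ (if c' = c then τ 0 else T c') * b ^ 3 := fun c' => by
    refine mul_nonneg ?_ (by positivity)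
    split_ifs
    · exact hτ.nonneg _
    · exact hT0 _
  rw [← ENNReal.ofReal_sum_of_nonneg (fun c' _ => h0 c'),
    ENNReal.ofReal_le_ofReal_iff (Finset.sum_nonneg fun c' _ => h0 c'), ← Finset.sum_mul] at h3
  have h4 := le_of_mul_le_mul_right h3 (by positivity)
  have h5 : ∑ c', (if c' = c then τ 0 else T c') = τ 0 + ∑ c', if c' = c then 0 else T c' := by
    have : τ 0 = ∑ c' : Fin 3 → Fin k, if c' = c then τ 0 else 0 := by simp
    rw [this, ← Finset.sum_add_distrib]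
    refine Finset.sum_congr rfl fun c' _ => ?_
    split_ifs <;> simp
  linarith

end Crest.Agent.R149
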