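import Crest.Agent.R149.LP

set_option autoImplicit false

namespace Crest.Agent.R149

open MeasureTheory Crest.ProbabilityR.Continuum Classical Filter Topology
open scoped ENNReal BigOperators

theorem tcube_mono (v : Pt) {ℓ b : ℝ} (h : ℓ ≤ b) : tcube v ℓ ⊆ tcube v b :=
  fun _ hx => cube_mono h hx

theorem card_bulk (j k' : ℕ) :
    (k' : ℝ) ^ 3 ≤ ∑ c : Fin 3 → Fin (k' + 2 * j),
      if ∀ q, j ≤ (c q : ℕ) ∧ (c q : ℕ) < j + k' then (1 : ℝ) else 0 := by
  rw [Finset.sum_boole]
  have h := Finset.card_le_card_of_injOn (s := (Finset.univ : Finset (Fin 3 → Fin k')))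
    (t := Finset.univ.filter fun c : Fin 3 → Fin (k' + 2 * j) =>
      ∀ q, j ≤ (c q : ℕ) ∧ (c q : ℕ) < j + k')
    (fun c q => ⟨j + c q, by have := (c q).isLt; omega⟩) ?_ ?_
  · simp only [Finset.card_univ, Fintype.card_pi, Fintype.card_fin, Finset.prod_const] at h
    exact_mod_cast h
  · intro c _
    simp only [Finset.coe_filter, Finset.mem_univ, true_and, Set.mem_ofPred_eq]
    intro q
    have := (c q).isLt
    omega
  · intro c _ c' _ h
    funext q
    have := congrArg Fin.val (congrFun h q)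
    simp only at this
    exact Fin.ext (by omega)

theorem LPupper_aux {ψ τ : ℝ → ℝ} (hψ : Good ψ) (hτ : Dec τ) (hG : Good (ψ - τ)) {ℓ s r : ℝ}
    (hℓ : 0 < ℓ) (hs : 0 ≤ s) (hr : 0 ≤ r)
    (hI : ENNReal.ofReal ((s + τ 0) * (ℓ + 2) ^ 3)
      ≤ ∫⁻ y in Metric.ball (0 : Pt) r, ENNReal.ofReal (τ (‖y‖ + 2 * (ℓ + 2)))) (n : ℕ) :
    G (ψ - τ) (n / (ℓ + 2) ^ 3) ≤ (W ψ ℓ n - s / 2 * (n : ℝ) ^ 2) / (ℓ + 2) ^ 3 := by
  set b := ℓ + 2 with hb
  have hb0 : 0 < b := by positivity
  set j := ⌈r / b⌉₊ with hj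
  have hjr : r ≤ b * j := by
    have := Nat.le_ceil (r / b)
    rwa [div_le_iff₀ hb0, mul_comm] at this
  have hfin : ∀ k' : ℕ, 1 ≤ k' → G (ψ - τ) (n / b ^ 3) ≤
      (W ψ ℓ n - s / 2 * (n : ℝ) ^ 2 * ((k' : ℝ) / (k' + 2 * j)) ^ 3) / b ^ 3 := by
    intro k' hk'
    set k := k' + 2 * j with hk
    have hk1 : (1 : ℝ) ≤ k := by exact_mod_cast (by omega : 1 ≤ k)
    have hkr : (k : ℝ) = k' + 2 * j := by rw [hk]; push_cast; ring
    have hL : 0 < k * b - 2 := by nlinarith
    have hSA := SAreal hG hψ (fun _ : Fin 3 → Fin k => n) (gv b 0)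
      (-(s / 2 * (n : ℝ) ^ 2 * (k' : ℝ) ^ 3)) hℓ hL
      (grid_sub hb0.le (by linarith)) (grid_disj hb0.le (by linarith)) ?_
    · have hc := G_le_cell hG hL (∑ _c : Fin 3 → Fin k, n)
      simp only [Finset.sum_const, Finset.card_univ, Fintype.card_pi, Fintype.card_fin,
        Finset.prod_const, smul_eq_mul, nsmul_eq_mul] at hSA hc
      have e1 : ((k ^ 3 * n : ℕ) : ℝ) / (k * b - 2 + 2) ^ 3 = n / b ^ 3 := by
        push_cast; field_simp; ring
      rw [e1] at hc
      refine hc.trans ?_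
      rw [← hkr, div_le_div_iff₀ (by positivity) (by positivity)]
      have e2 : (W ψ ℓ n - s / 2 * (n : ℝ) ^ 2 * ((k' : ℝ) / k) ^ 3) * (k * b - 2 + 2) ^ 3
          = (((k ^ 3 : ℕ) : ℝ) * W ψ ℓ n + -(s / 2 * (n : ℝ) ^ 2 * (k' : ℝ) ^ 3)) * b ^ 3 := by
        push_cast; field_simp; ring
      rw [e2]
      exact mul_le_mul_of_nonneg_right hSA (by positivity)
    · intro x hx
      rw [En_split (ψ - τ) Sigma.fst x, Cr_sub]
      have e1 : ∑ c, EnR (ψ - τ) Sigma.fst c x ≤ ∑ c, EnR ψ Sigma.fst c x := by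
        refine Finset.sum_le_sum fun c _ => ?_
        rw [EnR_sub]
        have := EnR_nonneg (fun r _ => hτ.nonneg r) Sigma.fst c x
        linarith
      have e2 : Cr ψ Sigma.fst x ≤ 0 := by
        refine Cr_nonpos _ _ fun i i' hij => hψ.temp _ ?_
        have := grid_far hb0.le hij (hx i) (hx i')
        linarith
      have e3 : s / 2 * (n : ℝ) ^ 2 * (k' : ℝ) ^ 3 ≤ Cr τ Sigma.fst x := by
        set g : (Fin 3 → Fin k) → ℝ :=
          fun c => if ∀ q, j ≤ (c q : ℕ) ∧ (c q : ℕ) < j + k' then (1 : ℝ) else 0 with hg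
        have f1 : ∀ i : (_c : Fin 3 → Fin k) × Fin n,
            g i.1 * (n * s)
            ≤ ∑ i' : (_c : Fin 3 → Fin k) × Fin n,
              @ite ℝ (i.1 = i'.1) (Classical.propDecidable _) 0 (τ (dist (x i) (x i'))) := by
          intro i
          simp only [hg]
          split_ifs with hbulk
          swap
          · rw [zero_mul]
            refine Finset.sum_nonneg fun i' _ => ?_
            split_ifs
            · exact le_rfl
            · exact hτ.nonneg _
          rw [one_mul, Fintype.sum_sigma, Finset.sum_comm]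
          have f2 : ∀ q' : Fin n, s ≤ ∑ c' : Fin 3 → Fin k,
              @ite ℝ (i.1 = c') (Classical.propDecidable _) 0 (τ (dist (x i) (x ⟨c', q'⟩))) := by
            intro q'
            have f3 := cross_sum_ge hτ hb0 hs hI i.1 (x i) ?_
              (fun c' => τ (dist (x i) (x ⟨c', q'⟩))) (fun c' => hτ.nonneg _) ?_
            · refine f3.trans (le_of_eq (Finset.sum_congr rfl fun c' _ => ?_))
              by_cases h : c' = i.1
              · rw [if_pos h, if_pos h.symm]
              · rw [if_neg h, if_neg (Ne.symm h)]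
            · intro y hy
              have hcoord : ∀ q, 0 ≤ y q ∧ y q < k * b := by
                intro q
                have g1 := mem_tcube.mp (hx i) q
                have g2 := abs_lt.mp (lt_of_le_of_lt (coord_le_dist y (x i) q) (Metric.mem_ball.mp hy))
                simp only [gv_apply, sub_zero] at g1
                have g3 : (j : ℝ) ≤ (i.1 q : ℕ) := by exact_mod_cast (hbulk q).1
                have g4 : ((i.1 q : ℕ) : ℝ) + 1 ≤ j + k' := by exact_mod_cast (hbulk q).2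
                have g5 := mul_le_mul_of_nonneg_left g3 hb0.le
                have g6 := mul_le_mul_of_nonneg_left g4 hb0.le
                rw [hkr]
                constructor
                · linarith [g1.1, g2.1]
                · linarith [g1.2, g2.2]
              refine Set.mem_iUnion.mpr ⟨fun q => ⟨⌊y q / b⌋₊, ?_⟩, ?_⟩
              · rw [Nat.floor_lt (div_nonneg (hcoord q).1 hb0.le), div_lt_iff₀ hb0]
                exact (hcoord q).2
              · refine mem_tcube.mpr fun q => ?_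
                simp only [gv_apply, sub_zero]
                have h1 := Nat.floor_le (div_nonneg (hcoord q).1 hb0.le)
                have h2 := Nat.lt_floor_add_one (y q / b)
                rw [le_div_iff₀ hb0] at h1
                rw [div_lt_iff₀ hb0] at h2
                constructor <;> linarith
            · intro c' _ y hy
              refine hτ.anti _ _ dist_nonneg ?_
              have g1 := dist_le_of_mem_tcube hy (tcube_mono _ (by linarith) (hx ⟨c', q'⟩))
              have g2 := dist_triangle (x i) y (x ⟨c', q'⟩)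
              rw [← dist_eq_norm, dist_comm y]
              linarith
          calc (n : ℝ) * s = ∑ _q' : Fin n, s := by simp
            _ ≤ _ := Finset.sum_le_sum fun q' _ => f2 q'
        have f4 := Finset.sum_le_sum fun i (_ : i ∈ Finset.univ) => f1 i
        rw [sum_comp_fib Sigma.fst (fun c => g c * (n * s))] at f4
        simp only [fib_sigma (fun _ : Fin 3 → Fin k => n)] at f4
        rw [← Finset.mul_sum, ← Finset.sum_mul] at f4
        have f5 : (k' : ℝ) ^ 3 ≤ ∑ c, g c := card_bulk j k'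
        unfold Cr
        have f6 : (n : ℝ) * ((k' : ℝ) ^ 3 * (n * s)) ≤ n * ((∑ c, g c) * (n * s)) := by
          gcongr
        linarith
      linarith
  have hlim : Tendsto (fun k' : ℕ => (W ψ ℓ n - s / 2 * (n : ℝ) ^ 2 * ((k' : ℝ) / (k' + 2 * j)) ^ 3) / b ^ 3)
      atTop (𝓝 ((W ψ ℓ n - s / 2 * (n : ℝ) ^ 2 * 1 ^ 3) / b ^ 3)) := by
    refine Tendsto.div_const (tendsto_const_nhds.sub (Tendsto.const_mul _ (Tendsto.pow ?_ 3))) _
    have := tendsto_natCast_div_add_atTop (𝕜 := ℝ) ((2 * j : ℕ) : ℝ)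
    simpa using this
  simp only [one_pow, mul_one] at hlim
  exact ge_of_tendsto hlim (eventually_atTop.mpr ⟨1, hfin⟩)

/-- Lebowitz–Penrose upper bound. -/
theorem LPupper {ψ τ : ℝ → ℝ} (hψ : Good ψ) (hτ : Dec τ) (hG : Good (ψ - τ)) {ℓ S : ℝ}
    (hℓ : 0 < ℓ) (hI : ENNReal.ofReal ((S + τ 0) * (ℓ + 2) ^ 3) ≤ Ilo τ (2 * (ℓ + 2))) (n : ℕ) :
    G (ψ - τ) (n / (ℓ + 2) ^ 3) ≤ (W ψ ℓ n - S / 2 * (n : ℝ) ^ 2) / (ℓ + 2) ^ 3 := by
  have key : ∀ s, s < S → G (ψ - τ) (n / (ℓ + 2) ^ 3)
      ≤ (W ψ ℓ n - s / 2 * (n : ℝ) ^ 2) / (ℓ + 2) ^ 3 := by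
    intro s hs
    by_cases hs0 : 0 ≤ s
    · have h1 : ENNReal.ofReal ((s + τ 0) * (ℓ + 2) ^ 3) < Ilo τ (2 * (ℓ + 2)) := by
        refine lt_of_lt_of_le ?_ hI
        have := hτ.nonneg 0
        rw [ENNReal.ofReal_lt_ofReal_iff (mul_pos (by linarith) (by positivity))]
        gcongr
      obtain ⟨r, hr⟩ := exists_radius h1
      exact LPupper_aux hψ hτ hG hℓ hs0 (Nat.cast_nonneg r) hr n
    · have h1 := G_mono hG hψ (fun r _ => by simpa using hτ.nonneg r)
        (ρ := n / (ℓ + 2) ^ 3) (by positivity)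
      refine h1.trans ((G_le_cell hψ hℓ n).trans ?_)
      gcongr
      nlinarith [sq_nonneg (n : ℝ), not_le.mp hs0]
  have hc : Tendsto (fun s : ℝ => (W ψ ℓ n - s / 2 * (n : ℝ) ^ 2) / (ℓ + 2) ^ 3) (𝓝[<] S)
      (𝓝 ((W ψ ℓ n - S / 2 * (n : ℝ) ^ 2) / (ℓ + 2) ^ 3)) :=
    (Continuous.tendsto (by fun_prop) S).mono_left nhdsWithin_le_nhds
  exact ge_of_tendsto hc (eventually_nhdsWithin_of_forall key)

end Crest.Agent.R149
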