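import Crest.Agent.R149.Multi
import Crest.Agent.R149.Endgame

set_option autoImplicit false

namespace Crest.Agent.R149

open MeasureTheory Crest.ProbabilityR.Continuum Classical Filter Topology
open scoped ENNReal BigOperators

variable {φ T : ℝ → ℝ} {K δ η θ A R β lam p ℓ z : ℝ}

/-- Mean-field lower bound. -/
theorem mf_lower (h : Core φ K δ η θ) (hT : Tail T A R) (hR : 2 ≤ R) (hA : 0 < A) (hp : 1 ≤ p)
    (hK : K = 2064 * mm * A * p) (hs : Real.exp (-(A * mm * p / 2)) = Real.pi * 4 / 3 * δ ^ 3)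
    (hβ : 3 / 4 ≤ β) (hl0 : 0 ≤ lam) (hl1 : lam ≤ 9 / 8) (hℓ : 1 ≤ ℓ)
    (hpk : (packingNumber ℓ : ℝ) ≤ p * ℓ ^ 3) (hz : ℓ / R ≤ z) (hz1 : z ≤ 1 / 576)
    {γ ν : ℝ} (hmin : ∀ w, 0 ≤ w → γ + ν * w ≤ Ph mm lam w) {ξ : ℝ} (hξ : 0 ≤ ξ) :
    γ + ν * ξ - (576 * z * mm + 4 / A) * (1 + ξ)
      ≤ 2 / (A * p ^ 2) * G (β • φ - lam • T) (p * ξ) := by
  have hβ0 : 0 ≤ β := by linarith
  have hm := mm_pos
  have hm2 := two_le_mm'
  have hℓ0 : 0 < ℓ := by linarith
  have hR0 : 0 < R := by linarith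
  have hp0 : 0 < p := by linarith
  have hz0 : 0 ≤ z := le_trans (by positivity) hz
  have hc := h.smul hβ0
  have hmAp : 0 < mm * A * p := by positivity
  have hβK : 1548 * (mm * A * p) ≤ β * K := by
    rw [hK]; nlinarith only [hβ, hmAp]
  have hG : Good (β • φ - lam • T) := hc.good_sub (hT.smul hl0) hR (by
    have a1 : mm * A * 1 ≤ mm * A * p := by gcongr
    have a2 : mm * A * lam ≤ mm * A * (9 / 8) := by gcongr
    nlinarith only [a1, a2, hβK, hmAp])
  have hup := (hT.smul hl0).hup hℓ0 hR0 hz (by linarith) le_rfl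
  set P := p * ℓ ^ 3 with hP
  have hP0 : 0 < P := by positivity
  set M := A * p ^ 2 * ℓ ^ 3 / 2 with hM
  have hM0 : 0 < M := by positivity
  have hW : ∀ n : ℕ, (M * γ - ℓ ^ 3) + (A * p / 2 * (ν - 576 * z * mm) - 1) * n
      + lam * A * (1 + 512 * z) / ℓ ^ 3 / 2 * (n : ℝ) ^ 2 ≤ W (β • φ - (4 : ℝ) • (0 : ℝ → ℝ)) ℓ n := by
    intro n
    rw [smul_zero, sub_zero]
    refine le_trans ?_ (hc.W_ge (s := A * mm * p / 2) (by positivity) hs (by nlinarith only [hβK, hmAp])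
      hℓ0 n)
    set π : ℝ := (packingNumber ℓ : ℝ) with hπ
    have hπ1 : 1 ≤ π := by rw [hπ]; exact_mod_cast one_le_packingNumber hℓ0.le
    set w := (n : ℝ) / P with hw
    have hw0 : 0 ≤ w := by positivity
    have hn : (n : ℝ) = w * P := by rw [hw]; field_simp
    have a1 : P * max (w - 1) 0 ≤ max ((n : ℝ) - π) 0 := by
      rw [mul_max_of_nonneg _ _ hP0.le, mul_zero]
      refine max_le_max ?_ le_rfl
      rw [hn]; linarith
    have a2 : P / mm * max (w * (w - mm)) 0 ≤ max ((n : ℝ) * (n - mm * π) / (mm * π)) 0 := by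
      rw [mul_max_of_nonneg _ _ (by positivity), mul_zero]
      refine max_le_max ?_ le_rfl
      have e1 : (n : ℝ) * (n - mm * π) / (mm * π) = (n : ℝ) ^ 2 / (mm * π) - n := by
        field_simp
      have e2 : P / mm * (w * (w - mm)) = (n : ℝ) ^ 2 / (mm * P) - n := by
        rw [hn]; field_simp
      rw [e1, e2]
      gcongr
    have a3 := hmin w hw0
    unfold Ph at a3
    set u := max (w - 1) 0 with hu
    set v := max (w * (w - mm)) 0 with hv
    have hu0 : 0 ≤ u := le_max_right _ _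
    have hv0 : 0 ≤ v := le_max_right _ _
    have hv1 : w * (w - mm) ≤ v := le_max_left _ _
    have b1 : M * (mm * u) ≤ A * mm * p / 2 * max ((n : ℝ) - π) 0 := by
      refine le_trans (le_of_eq ?_) (mul_le_mul_of_nonneg_left a1 (by positivity))
      rw [hM, hP]; ring
    have b2 : M * (4 * v) ≤ β * K / 4 * max ((n : ℝ) * (n - mm * π) / (mm * π)) 0 := by
      refine le_trans ?_ (mul_le_mul_of_nonneg_left a2 (by linarith))
      have c1 : 8 * (mm * A * p) / 4 * (P / mm * v) ≤ β * K / 4 * (P / mm * v) :=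
        mul_le_mul_of_nonneg_right (by linarith) (by positivity)
      refine le_trans (le_of_eq ?_) c1
      rw [hM, hP]; field_simp; ring
    have b3 : lam * (512 * z) * w ^ 2 ≤ v + 576 * z * mm * w := by
      have c1 : lam * (512 * z) ≤ 576 * z := by nlinarith only [hl1, hz0]
      have c2 := mul_le_mul_of_nonneg_right c1 (sq_nonneg w)
      have c3 := mul_le_mul_of_nonneg_left hv1 (show 0 ≤ 576 * z by positivity)
      have c4 : 576 * z * v ≤ 1 * v := mul_le_mul_of_nonneg_right (by linarith) hv0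
      nlinarith only [c2, c3, c4]
    have b4 : γ + (ν - 576 * z * mm) * w + lam * (1 + 512 * z) * w ^ 2 ≤ mm * u + 4 * v := by
      linarith
    have b5 := mul_le_mul_of_nonneg_left b4 hM0.le
    have e3 : (M * γ - ℓ ^ 3) + (A * p / 2 * (ν - 576 * z * mm) - 1) * n
        + lam * A * (1 + 512 * z) / ℓ ^ 3 / 2 * (n : ℝ) ^ 2
        = M * (γ + (ν - 576 * z * mm) * w + lam * (1 + 512 * z) * w ^ 2) - n - ℓ ^ 3 := by
      rw [hn, hM, hP]; field_simp; ring
    rw [e3]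
    linarith
  have hfin := LPlower (σ := 0) (R := ℓ / 4) (m := 4) (μ := 4) hc.nonneg (fun _ _ => le_rfl)
    (by positivity) (fun _ _ => rfl) (by norm_num) (by norm_num) (by norm_num) (hT.dec.smul hl0)
    (by positivity) (by push_cast; ring) hℓ hup (by rwa [sub_zero]) (by simpa using hc.good) _ _ hW
    (ρ := p * ξ) (by positivity)
  rw [sub_zero] at hfin
  refine le_trans ?_ (mul_le_mul_of_nonneg_left hfin (by positivity))
  have d1 : (p * ξ + 1) / ℓ ≤ p * ξ + 1 := div_le_self (by positivity) hℓ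
  have d2 : 2 / (A * p ^ 2) * (2 * (p * ξ + 1)) ≤ 4 / A * (1 + ξ) := by
    have e : 2 / (A * p ^ 2) * (2 * (p * ξ + 1)) = 4 / A * (1 / p ^ 2 + ξ / p) := by
      field_simp; ring
    rw [e]
    have f1 : 1 / p ^ 2 ≤ 1 := div_le_self zero_le_one (one_le_pow₀ hp)
    have f2 : ξ / p ≤ ξ := div_le_self hξ hp
    gcongr
  have d3 := mul_le_mul_of_nonneg_left d1 (show 0 ≤ 2 / (A * p ^ 2) by positivity)
  have e4 : 2 / (A * p ^ 2) * ((M * γ - ℓ ^ 3) / ℓ ^ 3
      + (A * p / 2 * (ν - 576 * z * mm) - 1) * (p * ξ) - (p * ξ + 1) / ℓ)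
      = γ + (ν - 576 * z * mm) * ξ - 2 / (A * p ^ 2) * (p * ξ + 1)
        - 2 / (A * p ^ 2) * ((p * ξ + 1) / ℓ) := by
    rw [hM]; field_simp; ring
  rw [e4]
  have d4 : 0 ≤ 576 * z * mm := by positivity
  linarith

/-- The entropy cost of a cluster. -/
noncomputable def Ccl (η θ : ℝ) : ℝ :=
  |Real.log (Real.pi * 4 / 3 * (θ / 4) ^ 3)| + mm * |Real.log (η ^ 3)| + Real.log (mm.factorial)

theorem Ccl_nonneg (η θ : ℝ) : 0 ≤ Ccl η θ := by
  have := Real.log_natCast_nonneg mm.factorial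
  unfold Ccl
  positivity

theorem Core.W_cl (h : Core φ K δ η θ) (hη : 0 < η) (zz : Fin mm → Pt)
    (hz : ∀ i i', i ≠ i' → 1 / 2 + 3 * η ≤ dist (zz i) (zz i') ∧ dist (zz i) (zz i') ≤ 1 - 3 * η)
    (hη1 : η ≤ 1 / 12) {s : ℝ} (hs : Real.exp (-s) = Real.pi * 4 / 3 * δ ^ 3) {j : ℕ}
    (hj : j + 1 ≤ mm) : W φ θ (j + 1) ≤ j * s + Ccl η θ := by
  refine (h.W_cluster hη (fun i => zz (Fin.castLE hj i))
    (fun i i' hne => hz _ _ fun e => hne (Fin.castLE_injective hj e)) hη1 hs).trans ?_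
  have a1 := neg_abs_le (Real.log (Real.pi * 4 / 3 * (θ / 4) ^ 3))
  have a2 := neg_abs_le (Real.log (η ^ 3))
  have a3 : (j : ℝ) ≤ mm := by exact_mod_cast (by omega : j ≤ mm)
  have a4 : Real.log ((j + 1).factorial) ≤ Real.log (mm.factorial) :=
    Real.log_le_log (by exact_mod_cast Nat.factorial_pos _) (by exact_mod_cast Nat.factorial_le hj)
  have a5 := mul_le_mul_of_nonneg_left a2 (Nat.cast_nonneg (α := ℝ) j)
  have a6 := mul_le_mul_of_nonneg_right a3 (abs_nonneg (Real.log (η ^ 3)))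
  unfold Ccl
  linarith

/-- Mean-field upper bound at the clustered packings. -/
theorem mf_upper (h : Core φ K δ η θ) (hT : Tail T A R) (hR : 2 ≤ R) (hA : 0 < A) (hp : 1 ≤ p)
    (hK : K = 2064 * mm * A * p) (hs : Real.exp (-(A * mm * p / 2)) = Real.pi * 4 / 3 * δ ^ 3)
    (hη : 0 < η) (zz : Fin mm → Pt)
    (hzz : ∀ i i', i ≠ i' → 1 / 2 + 3 * η ≤ dist (zz i) (zz i') ∧ dist (zz i) (zz i') ≤ 1 - 3 * η)
    (hη1 : η ≤ 1 / 12) (hβ : 0 ≤ β) (hβ1 : β ≤ 9 / 8) {ℓ' ξ e : ℝ} (hℓ' : 1 ≤ ℓ')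
    (hℓ : ℓ = (1 + 4 * θ) * ℓ') (hz : (ℓ + 2) / R ≤ z) (hz1 : z ≤ 1 / 576)
    (hξ : ξ = packingNumber ℓ' / ((ℓ + 2) ^ 3 * p)) (he : 0 ≤ e) (he1 : e ≤ 1 / 2) (hξ0 : 1 - e ≤ ξ)
    (hξ1 : ξ ≤ 1) {j : ℕ} (hj : j + 1 ≤ mm) :
    2 / (A * p ^ 2) * G (β • φ - β • T) (p * ((j + 1) * ξ))
      ≤ j * mm - β * (j + 1) ^ 2 + (2 * Ccl η θ / A + 9 / 8 * mm ^ 2 * (272 * z + 2 * e)) := by
  have hm := mm_pos
  have hθ : 0 < θ := by linarith [h.δle, h.δpos]
  have hℓ0 : 0 < ℓ := by rw [hℓ]; positivity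
  have hR0 : 0 < R := by linarith
  have hp0 : 0 < p := by linarith
  have hz0 : 0 ≤ z := le_trans (by positivity) hz
  have hc := h.smul hβ
  have hG : Good (β • φ - β • T) := hc.good_sub (hT.smul hβ) hR (by
    have a1 : mm * A * 1 ≤ mm * A * p := by gcongr
    have a2 : 0 < mm * A := by positivity
    have a3 : 1032 * mm * A ≤ K := by rw [hK]; linarith
    have := mul_le_mul_of_nonneg_left a3 hβ
    linarith)
  set b := ℓ + 2 with hb
  have hb0 : 0 < b := by positivity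
  have hlow := (hT.smul hβ).hlow hb0 hR0 hz (by linarith)
  have a1 := LPupper hc.good (hT.dec.smul hβ) hG hℓ0 hlow (packingNumber ℓ' * (j + 1))
  rw [← hb] at a1
  have a2 := hc.W_packing hℓ' (j + 1)
  rw [← hℓ] at a2
  have a3 := hc.W_cl hη zz hzz hη1 hs hj
  set π : ℝ := (packingNumber ℓ' : ℝ) with hπ
  have hπ0 : 0 ≤ π := Nat.cast_nonneg _
  have hπξ : π = ξ * (b ^ 3 * p) := by rw [hξ]; field_simp
  have a4 := a2.trans (mul_le_mul_of_nonneg_left a3 hπ0)
  push_cast at a1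
  rw [← hπ] at a1
  have e1 : π * (j + 1) / b ^ 3 = p * ((j + 1) * ξ) := by rw [hπξ]; field_simp
  rw [e1] at a1
  have a5 : G (β • φ - β • T) (p * ((j + 1) * ξ)) ≤ (π * (j * (A * mm * p / 2) + Ccl η θ)
      - β * A * (1 - 272 * z) / b ^ 3 / 2 * (π * (j + 1)) ^ 2) / b ^ 3 := by
    refine a1.trans ?_
    gcongr
  refine (mul_le_mul_of_nonneg_left a5 (by positivity)).trans ?_
  have e2 : 2 / (A * p ^ 2) * ((π * (j * (A * mm * p / 2) + Ccl η θ)
      - β * A * (1 - 272 * z) / b ^ 3 / 2 * (π * (j + 1)) ^ 2) / b ^ 3)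
      = ξ * (j * mm) + ξ / p * (2 * Ccl η θ / A) - β * (j + 1) ^ 2 * ((1 - 272 * z) * ξ ^ 2) := by
    rw [hπξ]; field_simp
  rw [e2]
  have hξ' : 0 ≤ ξ := by linarith
  have hC := Ccl_nonneg η θ
  have b1 : ξ * (j * mm) ≤ 1 * (j * mm) := by gcongr
  have b2 : ξ / p * (2 * Ccl η θ / A) ≤ 1 * (2 * Ccl η θ / A) := by
    gcongr
    exact (div_le_self hξ' hp).trans hξ1
  have b3 : 1 - (272 * z + 2 * e) ≤ (1 - 272 * z) * ξ ^ 2 := by
    have c1 : 1 - 2 * e ≤ ξ ^ 2 := by nlinarith only [hξ0, he, he1]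
    have c2 := mul_le_mul_of_nonneg_left c1 (show 0 ≤ 1 - 272 * z by linarith)
    nlinarith only [c2, mul_nonneg hz0 he]
  have b4 := mul_le_mul_of_nonneg_left b3 (show 0 ≤ β * ((j : ℝ) + 1) ^ 2 by positivity)
  have b5 : β * ((j : ℝ) + 1) ^ 2 ≤ 9 / 8 * mm ^ 2 := by
    have : (j : ℝ) + 1 ≤ mm := by exact_mod_cast hj
    gcongr
  have b6 := mul_le_mul_of_nonneg_right b5 (show 0 ≤ 272 * z + 2 * e by positivity)
  linarith

/-- Chords of a convex function through nearly integer points. -/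
theorem chords {g : ℝ → ℝ} (hg : ConvexOn ℝ (Set.Ici 0) g) (hg0 : g 0 = 0) {m ξ e e' d E : ℝ}
    (hm : 2 ≤ m) (he : 0 ≤ e) (he' : 0 ≤ e') (hξ0 : 1 - e ≤ ξ) (hξ1 : ξ ≤ 1) (hd : m * e ≤ d)
    (hd1 : d ≤ 1 / 2) (hE : e' + m ^ 2 * e ≤ E) (hβ : 3 / 4 ≤ β)
    (h1 : g ξ ≤ -β + e') (h2 : g (m * ξ) ≤ m * (m - 1) - β * m ^ 2 + e') :
    (∀ x, 0 ≤ x → x ≤ 1 - d → g x ≤ -β * x + E) ∧
    (∀ x, 1 ≤ x → x ≤ m - d → g x ≤ m * (x - 1) - β * ((m + 1) * x - m) + E) ∧
    (∀ x, 0 ≤ x → x ≤ m - d → g x ≤ x * (m - 1 - β * m) + E) := by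
  have hed : e ≤ d := by nlinarith
  have hξ : 0 < ξ := by linarith
  have hme : 0 ≤ m ^ 2 * e := by positivity
  have key : ∀ x, 0 ≤ x → ∃ t, 0 ≤ t ∧ x = t * ξ := fun x hx =>
    ⟨x / ξ, by positivity, by field_simp⟩
  have hmξ : m - d ≤ m * ξ := by nlinarith
  refine ⟨fun x hx hx1 => ?_, fun x hx hx1 => ?_, fun x hx hx1 => ?_⟩
  · obtain ⟨t, ht, rfl⟩ := key x hx
    have ht1 : t ≤ 1 := by
      by_contra hc
      nlinarith [not_le.mp hc]
    have a := hg.2 Set.self_mem_Ici (show ξ ∈ Set.Ici 0 from hξ.le)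
      (show 0 ≤ 1 - t by linarith) ht (by ring)
    simp only [smul_eq_mul, mul_zero, zero_add, hg0] at a
    have b1 := mul_le_mul_of_nonneg_left h1 ht
    have b2 : t * e' ≤ e' := by nlinarith
    have b3 : β * (t * ξ) ≤ β * (t * 1) := by gcongr
    linarith
  · obtain ⟨t, ht, rfl⟩ := key x (by linarith)
    have ht1 : 1 ≤ t := by
      by_contra hc
      nlinarith [not_le.mp hc]
    have htm : t ≤ m := by
      by_contra hc
      nlinarith [not_le.mp hc]
    have hm1 : 0 < m - 1 := by linarith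
    have a := hg.2 (show ξ ∈ Set.Ici 0 from hξ.le) (show m * ξ ∈ Set.Ici 0 from by
      show 0 ≤ m * ξ; positivity)
      (div_nonneg (show 0 ≤ m - t by linarith) hm1.le)
      (div_nonneg (show 0 ≤ t - 1 by linarith) hm1.le) (by field_simp; ring)
    simp only [smul_eq_mul] at a
    have e1 : (m - t) / (m - 1) * ξ + (t - 1) / (m - 1) * (m * ξ) = t * ξ := by field_simp; ring
    rw [e1] at a
    have b1 := mul_le_mul_of_nonneg_left h1 (div_nonneg (show 0 ≤ m - t by linarith) hm1.le)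
    have b2 := mul_le_mul_of_nonneg_left h2 (div_nonneg (show 0 ≤ t - 1 by linarith) hm1.le)
    have e2 : (m - t) / (m - 1) * (-β + e') + (t - 1) / (m - 1) * (m * (m - 1) - β * m ^ 2 + e')
        = m * (t - 1) - β * ((m + 1) * t - m) + e' := by field_simp; ring
    have b3 : t - t * ξ ≤ m * e := by nlinarith
    have b4 : 0 ≤ t - t * ξ := by nlinarith
    have b5 : m - β * (m + 1) ≤ m := by nlinarith
    have b6 := mul_le_mul_of_nonneg_left b5 b4
    have b7 := mul_le_mul_of_nonneg_right b3 (show 0 ≤ m by linarith)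
    nlinarith only [a, b1, b2, e2, b6, b7, hE]
  · obtain ⟨t, ht, rfl⟩ := key x hx
    have htm : t ≤ m := by
      by_contra hc
      nlinarith [not_le.mp hc]
    have hm0 : 0 < m := by linarith
    have a := hg.2 Set.self_mem_Ici (show m * ξ ∈ Set.Ici 0 from by
      show 0 ≤ m * ξ; positivity)
      (show 0 ≤ 1 - t / m by rw [sub_nonneg, div_le_one hm0]; exact htm)
      (show 0 ≤ t / m by positivity) (by ring)
    simp only [smul_eq_mul, mul_zero, zero_add, hg0] at a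
    have e1 : t / m * (m * ξ) = t * ξ := by field_simp
    rw [e1] at a
    have b1 := mul_le_mul_of_nonneg_left h2 (show 0 ≤ t / m by positivity)
    have e2 : t / m * (m * (m - 1) - β * m ^ 2 + e') = t * (m - 1 - β * m) + t / m * e' := by
      field_simp
    have b2 : t / m * e' ≤ 1 * e' := by
      gcongr
      rwa [div_le_one hm0]
    have b3 : t - t * ξ ≤ m * e := by nlinarith
    have b4 : 0 ≤ t - t * ξ := by nlinarith
    have b5 : m - 1 - β * m ≤ m := by nlinarith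
    have b6 := mul_le_mul_of_nonneg_left b5 b4
    have b7 := mul_le_mul_of_nonneg_right b3 hm0.le
    nlinarith only [a, b1, b2, e2, b6, b7, hE]

end Crest.Agent.R149
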