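import Crest.Agent.R149.MF

set_option autoImplicit false

namespace Crest.Agent.R149

open MeasureTheory Crest.ProbabilityR.Continuum Classical Filter Topology
open scoped ENNReal BigOperators

theorem Ph_grow {m lam : ℝ} (hm : 2 ≤ m) (h1 : lam ≤ 9 / 8) (x w : ℝ) (hw : 0 ≤ w) :
    -x ^ 2 + (2 * x - 3 * m) * w ≤ Ph m lam w := by
  unfold Ph
  have a1 : 0 ≤ m * max (w - 1) 0 := mul_nonneg (by linarith) (le_max_right _ _)
  have a2 := le_max_left (w * (w - m)) 0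
  have a3 := mul_le_mul_of_nonneg_right h1 (sq_nonneg w)
  nlinarith [sq_nonneg (w - x), sq_nonneg w]

theorem convexOn_scaled {ψ : ℝ → ℝ} (hψ : Good ψ) {c p : ℝ} (hc : 0 ≤ c) (hp : 0 ≤ p) :
    ConvexOn ℝ (Set.Ici 0) (fun ξ => c * G ψ (p * ξ)) := by
  refine ⟨convex_Ici 0, fun x hx w hw a b ha hb hab => ?_⟩
  have := (G_convexOn hψ).2 (show p * x ∈ Set.Ici 0 from mul_nonneg hp hx)
    (show p * w ∈ Set.Ici 0 from mul_nonneg hp hw) ha hb hab
  simp only [smul_eq_mul] at this ⊢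
  have e : p * (a * x + b * w) = a * (p * x) + b * (p * w) := by ring
  rw [e]
  have := mul_le_mul_of_nonneg_left this hc
  linarith

theorem exists_ell {θ : ℝ} (hθ : 0 < θ) (hθ1 : θ ≤ 1 / 100) : ∃ ℓ' : ℝ, 1 ≤ ℓ' ∧ 1 ≤ θ * ℓ' ∧
    1 - 23 * θ ≤ packingNumber ℓ' / (((1 + 4 * θ) * ℓ' + 2) ^ 3 * (pk * (1 + θ) ^ 3)) := by
  have hp := one_le_pk
  have h1 := tendsto_pk.eventually (lt_mem_nhds (show (1 - θ) * pk < pk by nlinarith))
  obtain ⟨ℓ', h2, h3⟩ := (h1.and (eventually_ge_atTop (2 / θ))).exists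
  rw [div_le_iff₀ hθ] at h3
  have h4 : 1 ≤ ℓ' := by nlinarith
  have h5 : 0 < ℓ' := by linarith
  refine ⟨ℓ', h4, by linarith, ?_⟩
  rw [lt_div_iff₀ (by positivity)] at h2
  rw [le_div_iff₀ (by positivity)]
  have a1 : ((1 + 4 * θ) * ℓ' + 2) ^ 3 ≤ ((1 + 5 * θ) * ℓ') ^ 3 :=
    pow_le_pow_left₀ (by positivity) (by linarith) 3
  have a2 : ((1 + 5 * θ) * (1 + θ)) ^ 3 ≤ (1 + 7 * θ) ^ 3 :=
    pow_le_pow_left₀ (by positivity) (by nlinarith) 3
  have a3 : (1 + 7 * θ) ^ 3 ≤ 1 + 23 * θ := by nlinarith [mul_pos hθ hθ]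
  have a4 : (1 - 23 * θ) * (1 + 7 * θ) ^ 3 ≤ 1 - θ := by
    have b1 : θ * θ ≤ θ * (1 / 100) := by gcongr
    have b2 : θ * θ * θ ≤ θ * θ * (1 / 100) := by gcongr
    nlinarith [mul_pos hθ hθ, mul_pos (mul_pos hθ hθ) hθ, mul_pos (mul_pos (mul_pos hθ hθ) hθ) hθ]
  have a5 : ((1 + 4 * θ) * ℓ' + 2) ^ 3 * (pk * (1 + θ) ^ 3) ≤ (1 + 7 * θ) ^ 3 * (pk * ℓ' ^ 3) := by
    calc _ ≤ ((1 + 5 * θ) * ℓ') ^ 3 * (pk * (1 + θ) ^ 3) := by gcongr
      _ = ((1 + 5 * θ) * (1 + θ)) ^ 3 * (pk * ℓ' ^ 3) := by ring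
      _ ≤ _ := by gcongr
  have a6 := mul_le_mul_of_nonneg_left a5 (show 0 ≤ 1 - 23 * θ by linarith)
  have a7 := mul_le_mul_of_nonneg_right a4 (show 0 ≤ pk * ℓ' ^ 3 by positivity)
  linarith

theorem exists_delta {s θ : ℝ} (hθ : 0 < θ) (hs : (4 / θ) ^ 3 ≤ s) :
    ∃ δ : ℝ, 0 < δ ∧ δ ≤ θ / 4 ∧ Real.exp (-s) = Real.pi * 4 / 3 * δ ^ 3 := by
  have hv : 1 ≤ Real.pi * 4 / 3 := by linarith [Real.pi_gt_three]
  have e : Real.exp (-s) = Real.pi * 4 / 3 * Real.exp ((-s - Real.log (Real.pi * 4 / 3)) / 3) ^ 3 := by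
    rw [← Real.exp_nat_mul]
    have : ((3 : ℕ) : ℝ) * ((-s - Real.log (Real.pi * 4 / 3)) / 3) = -s - Real.log (Real.pi * 4 / 3) := by
      push_cast; ring
    rw [this, Real.exp_sub, Real.exp_log (by linarith)]
    field_simp
  refine ⟨_, Real.exp_pos _, ?_, e⟩
  refine le_of_pow_le_pow_left₀ (n := 3) (by norm_num) (by positivity) ?_
  have hs0 : 0 < s := lt_of_lt_of_le (by positivity) hs
  have a1 : Real.exp (-s) ≤ 1 / s := by
    rw [Real.exp_neg, one_div]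
    exact inv_anti₀ hs0 (by linarith [Real.add_one_le_exp s])
  have a2 : 1 / s ≤ (θ / 4) ^ 3 := by
    refine (one_div_le_one_div_of_le (by positivity) hs).trans (le_of_eq ?_)
    field_simp
  have a3 : 0 ≤ Real.exp ((-s - Real.log (Real.pi * 4 / 3)) / 3) ^ 3 := by positivity
  nlinarith

/-- The model satisfies the hypotheses of the endgame. -/
theorem model_EG {φ : ℝ → ℝ} {K δ η θ A p ℓ ℓ' z E e C0 Cs : ℝ} {y : ℕ}
    (h : Core φ K δ η θ) (hA : 2 ≤ A) (hy : 4 ≤ y) (hp : 1 ≤ p)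
    (hK : K = 2064 * mm * A * p) (hs : Real.exp (-(A * mm * p / 2)) = Real.pi * 4 / 3 * δ ^ 3)
    (hη : 0 < η) (zz : Fin mm → Pt)
    (hzz : ∀ i i', i ≠ i' → 1 / 2 + 3 * η ≤ dist (zz i) (zz i') ∧ dist (zz i) (zz i') ≤ 1 - 3 * η)
    (hη1 : η ≤ 1 / 12) (hℓ' : 1 ≤ ℓ') (hℓ : ℓ = (1 + 4 * θ) * ℓ')
    (hpk : (packingNumber ℓ : ℝ) ≤ p * ℓ ^ 3) (hzR : (ℓ + 2) / Rk y 0 ≤ z)
    (hE : E = 1 / (10000 * mm)) (he : e = E / (10 * mm ^ 2)) (hz : z = E / (4000 * mm ^ 2))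
    (hξ0 : 1 - e ≤ packingNumber ℓ' / ((ℓ + 2) ^ 3 * p))
    (hξ1 : packingNumber ℓ' / ((ℓ + 2) ^ 3 * p) ≤ 1)
    (hA1 : 8 * (mm + 2) ≤ A * E) (hA2 : 8 * Ccl η θ ≤ A * E) (hC00 : 0 ≤ C0)
    (hC0 : ∀ w, 0 ≤ w → w ≤ 2 * (p * mm) → G ((9 / 8 : ℝ) • φ) w ≤ C0)
    (hCs : 2000 * C0 + 7 * (C0 + 2 + 2 * K * (p * mm)) + 2000 * (1 + 2 * K) * (2 + p * mm)
      + (p * mm + 1) ≤ Cs) (hyC : 4 * Cs ≤ E * (y : ℝ) ^ 3) :
    EG mm (1 / (100 * mm)) E (fun β ξ => 2 / (A * p ^ 2) * G (β • (φ - Tt A y 0)) (p * ξ))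
      (fun β ξ => 2 / (A * p ^ 2) * G (β • φ - (β - 1 / 4) • Tt A y 0) (p * ξ)) := by
  have hm := mm_pos
  have hm2 := two_le_mm'
  have hy2 : 2 ≤ y := by omega
  have hA0 : 0 < A := by linarith
  have hp0 : 0 < p := by linarith
  have hθ : 0 < θ := by linarith [h.δle, h.δpos]
  have hℓ1 : 1 ≤ ℓ := by rw [hℓ]; nlinarith
  have hK' : 2064 * mm * A ≤ K := by
    rw [hK]
    exact le_mul_of_one_le_right (by positivity) hp
  have hG := h.good_T hA hy2 hK'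
  have hT : Tail (Tt A y 0) A (Rk y 0) := by
    have := tail_Tt hA hy2 0
    rwa [At_zero hy2] at this
  have hR := Rk_ge_two hy2 0
  have hE0 : 0 < E := by rw [hE]; positivity
  have hEm : E * mm = 1 / 10000 := by rw [hE]; field_simp
  have hE1 : E ≤ 1 / 10000 := by nlinarith
  have hzm : z * mm ^ 2 = E / 4000 := by rw [hz]; field_simp
  have hem : e * mm ^ 2 = E / 10 := by rw [he]; field_simp
  have hz0 : 0 < z := by rw [hz]; positivity
  have he0 : 0 < e := by rw [he]; positivity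
  have hm4 : (4 : ℝ) ≤ mm ^ 2 := by nlinarith
  have hz1 : z ≤ 1 / 576 := by nlinarith
  have he1 : e ≤ 1 / 2 := by nlinarith
  have hzR' : ℓ / Rk y 0 ≤ z := le_trans (by gcongr; linarith) hzR
  have hc0 : 0 < 2 / (A * p ^ 2) := by positivity
  have hε : (576 * z * mm + 4 / A) * (mm + 2) ≤ E := by
    have a1 : 4 / A * (mm + 2) ≤ E / 2 := by
      rw [div_mul_eq_mul_div, div_le_iff₀ hA0]; linarith
    have a2 : z * mm * (mm + 2) ≤ z * mm * (2 * mm) := by gcongr; linarith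
    nlinarith only [a1, a2, hzm, hE0]
  have hε0 : 0 ≤ 576 * z * mm + 4 / A := by positivity
  have hε1 : 576 * z * mm + 4 / A ≤ 1 := by nlinarith only [hε, hε0, hm2, hE1]
  have hlow : ∀ β lam : ℝ, 3 / 4 ≤ β → 0 ≤ lam → lam ≤ 9 / 8 → ∀ γ ν : ℝ,
      (∀ w, 0 ≤ w → γ + ν * w ≤ Ph mm lam w) → ∀ x : ℝ, 0 ≤ x → x ≤ mm + 1 →
      γ + ν * x - E ≤ 2 / (A * p ^ 2) * G (β • φ - lam • Tt A y 0) (p * x) := by
    intro β lam hβ hl0 hl1 γ ν hmin x hx hx1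
    refine le_trans ?_ (mf_lower h hT hR hA0 hp hK hs hβ hl0 hl1 hℓ1 hpk hzR' hz1 hmin hx)
    have : (576 * z * mm + 4 / A) * (1 + x) ≤ (576 * z * mm + 4 / A) * (mm + 2) :=
      mul_le_mul_of_nonneg_left (by linarith) hε0
    linarith
  have hch : ∀ β : ℝ, 3 / 4 ≤ β → β ≤ 9 / 8 →
      (∀ x : ℝ, 0 ≤ x → x ≤ 1 - 1 / (100 * mm) →
        2 / (A * p ^ 2) * G (β • (φ - Tt A y 0)) (p * x) ≤ -β * x + E) ∧
      (∀ x : ℝ, 1 ≤ x → x ≤ mm - 1 / (100 * mm) → 2 / (A * p ^ 2) * G (β • (φ - Tt A y 0)) (p * x)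
        ≤ mm * (x - 1) - β * ((mm + 1) * x - mm) + E) ∧
      (∀ x : ℝ, 0 ≤ x → x ≤ mm - 1 / (100 * mm) → 2 / (A * p ^ 2) * G (β • (φ - Tt A y 0)) (p * x)
        ≤ x * (mm - 1 - β * mm) + E) := by
    intro β hβ hβ1
    have hβ0 : 0 ≤ β := by linarith
    have hC := Ccl_nonneg η θ
    obtain ⟨j, hj⟩ : ∃ j, mm = j + 1 := ⟨mm - 1, by have := two_le_mm; omega⟩
    have hjr : (mm : ℝ) = j + 1 := by exact_mod_cast hj
    have u1 := mf_upper h hT hR hA0 hp hK hs hη zz hzz hη1 hβ0 hβ1 hℓ' hℓ hzR hz1 rfl he0.le he1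
      hξ0 hξ1 (j := 0) (by omega)
    have u2 := mf_upper h hT hR hA0 hp hK hs hη zz hzz hη1 hβ0 hβ1 hℓ' hℓ hzR hz1 rfl he0.le he1
      hξ0 hξ1 (j := j) hj.ge
    rw [← smul_sub] at u1 u2
    rw [← hjr] at u2
    refine chords (g := fun ξ => 2 / (A * p ^ 2) * G (β • (φ - Tt A y 0)) (p * ξ))
      (e' := 2 * Ccl η θ / A + 9 / 8 * mm ^ 2 * (272 * z + 2 * e))
      (convexOn_scaled (hG.smul hβ0) hc0.le hp0.le) (by simp [G_zero (hG.smul hβ0)]) hm2 he0.le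
      (by positivity) hξ0 hξ1 ?_ ?_ ?_ hβ ?_ ?_
    · rw [le_div_iff₀ (by positivity)]
      nlinarith only [hem, hE1]
    · exact one_div_le_one_div_of_le (by norm_num) (by linarith)
    · have a1 : 2 * Ccl η θ / A ≤ E / 4 := by
        rw [div_le_iff₀ hA0]; linarith
      nlinarith only [a1, hem, hzm, hE0]
    · simpa using u1
    · have e1 : (j : ℝ) = mm - 1 := by linarith
      rw [e1] at u2
      linarith
  refine ⟨hm2, by field_simp, hE0.le, le_of_eq (by rw [hE]; field_simp; norm_num),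
    fun β hβ => convexOn_scaled (hG.smul hβ.le) hc0.le hp0.le,
    fun x hx => (G_concaveOn hG (mul_nonneg hp0.le hx)).smul hc0.le,
    fun β h1 h2 => (hch β h1 h2).1, fun β h1 h2 => (hch β h1 h2).2.1,
    fun β h1 h2 => (hch β h1 h2).2.2, fun β h1 h2 γ ν hmin x hx hx1 => ?_,
    fun β h1 h2 x hx => ?_,
    fun β h1 h2 γ ν hmin x hx hx1 => hlow β _ (by linarith) (by linarith) (by linarith) γ ν hmin x hx hx1,
    fun β h1 h2 ξ hξ hξm s γ ν hs0 hs1 hmin => ?_⟩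
  · simp only [smul_sub]
    exact hlow β β h1 (by linarith) h2 γ ν hmin x hx hx1
  · simp only [smul_sub]
    refine le_trans ?_ (mf_lower h hT hR hA0 hp hK hs h1 (by linarith) h2 hℓ1 hpk hzR' hz1
      (Ph_grow hm2 h2 x) hx)
    have := mul_le_mul_of_nonneg_right hε1 (show 0 ≤ 1 + x by positivity)
    linarith
  · have hβ0 : 0 < β := by linarith
    set c := 2 / (A * p ^ 2) with hc
    have hb := bd_T (x := p * ξ) (X := p * mm) (s := s * A) (γ := γ / c) (ν := ν / (c * p)) h hA hy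
      hK' (show 3 / 4 ≤ β by linarith) h2 (by positivity) (by gcongr) hC00 hC0 hCs (by positivity)
      (by nlinarith only [hs1, hA0]) (fun w hw => by
        have a1 := hmin (w / p) (by positivity)
        simp only [mul_div_cancel₀ w hp0.ne'] at a1
        have e1 : γ / c + ν / (c * p) * w + s * A / 2 * w ^ 2
            = (γ + ν * (w / p) + s * (w / p) ^ 2) / c := by
          rw [hc]; field_simp
        rw [e1, div_le_iff₀ hc0]
        linarith)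
    set q := 2 * A * Cs / (y : ℝ) ^ 3
      + A * (G (β • (φ - Tt A y 0)) (p * ξ) - γ / c - ν / (c * p) * (p * ξ)) / (s * A) with hq
    have hy0 : (0 : ℝ) < y := by exact_mod_cast (by omega : 0 < y)
    have hcq : c * q ≤ E + (c * G (β • (φ - Tt A y 0)) (p * ξ) - γ - ν * ξ) / s := by
      have e1 : c * q = 4 * Cs / (y : ℝ) ^ 3 / p ^ 2
          + (c * G (β • (φ - Tt A y 0)) (p * ξ) - γ - ν * ξ) / s := by
        rw [hq]
        have hc1 : c * (A * p ^ 2) = 2 := by rw [hc]; field_simp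
        have e2 : c * (2 * A * Cs / (y : ℝ) ^ 3) = 4 * Cs / (y : ℝ) ^ 3 / p ^ 2 := by
          rw [hc]; field_simp; ring
        rw [mul_add, e2]
        congr 1
        field_simp
      have a1 : 4 * Cs / (y : ℝ) ^ 3 ≤ E := by rw [div_le_iff₀ (by positivity)]; exact hyC
      have a2 : 4 * Cs / (y : ℝ) ^ 3 / p ^ 2 ≤ E / p ^ 2 := by gcongr
      have a3 : E / p ^ 2 ≤ E := div_le_self hE0.le (one_le_pow₀ hp)
      linarith
    constructor
    · have e1 : β • (φ - Tt A y 0) + (1 / 4 : ℝ) • Tt A y 0 = β • φ - (β - 1 / 4) • Tt A y 0 := by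
        funext r
        simp only [Pi.add_apply, Pi.smul_apply, Pi.sub_apply, smul_eq_mul]
        ring
      have hG2 : Good (β • φ - (β - 1 / 4) • Tt A y 0) :=
        (h.smul hβ0.le).good_sub (hT.smul (by linarith)) hR (by
          have a1 : 0 < mm * A := by positivity
          have a2 := mul_le_mul_of_nonneg_left hK' hβ0.le
          nlinarith only [a1, a2, hβ0, mul_pos hβ0 a1])
      have a1 := hb.back (t := 1 / 4) (by positivity) (by norm_num) (by rwa [e1])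
      rw [e1] at a1
      have a2 := mul_le_mul_of_nonneg_left a1 hc0.le
      linarith
    · intro β'' h0 hlt
      have a1 := bd_conseq h.nonneg hG hβ0 (by positivity) hb β'' h0 hlt
      have a2 := mul_le_mul_of_nonneg_left a1 hc0.le
      have a3 := mul_le_mul_of_nonneg_left hcq (show 0 ≤ β - β'' by linarith)
      linarith

end Crest.Agent.R149
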