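import Crest.Agent.R149.Scales

set_option autoImplicit false

namespace Crest.Agent.R149

open MeasureTheory Crest.ProbabilityR.Continuum Classical Filter Topology
open scoped ENNReal BigOperators

theorem Good.smul {ψ : ℝ → ℝ} (h : Good ψ) {β : ℝ} (hβ : 0 ≤ β) : Good (β • ψ) := by
  have := h.convex_comb h hβ le_rfl
  simpa using this

theorem G_concaveOn {ψ : ℝ → ℝ} (h : Good ψ) {x : ℝ} (hx : 0 ≤ x) :
    ConcaveOn ℝ (Set.Ioi 0) (fun β : ℝ => G (β • ψ) x) := by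
  refine ⟨convex_Ioi 0, fun β₁ h₁ β₂ h₂ a b ha hb hab => ?_⟩
  have := G_concave (h.smul (le_of_lt h₁)) (h.smul (le_of_lt h₂)) ha hb hab hx
  simp only [smul_eq_mul]
  rwa [smul_smul, smul_smul, ← add_smul] at this

theorem exists_C0 {ψ : ℝ → ℝ} (h : Good ψ) {X : ℝ} (hX : 0 < X) :
    ∃ C0, 0 ≤ C0 ∧ ∀ x, 0 ≤ x → x ≤ X → G ψ x ≤ C0 := by
  refine ⟨max (G ψ X) 0, le_max_right _ _, fun x hx hxX => ?_⟩
  have := (G_convexOn h).le_max_of_mem_segment (x := 0) (y := X) (z := x) Set.self_mem_Ici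
    (show X ∈ Set.Ici 0 from hX.le) (by rw [segment_eq_Icc hX.le]; exact ⟨hx, hxX⟩)
  rwa [G_zero h, max_comm] at this

variable {φ : ℝ → ℝ} {K δ η θ A β x : ℝ} {y : ℕ}

theorem smul_sub_Tt (hA : 2 ≤ A) (hy : 2 ≤ y) (φ : ℝ → ℝ) (β : ℝ) (k : ℕ) :
    β • (φ - Tt A y 0) = β • φ - β • Low A y k - β • Tt A y k := by
  rw [Tt_split hA hy k]
  funext r
  simp only [Pi.add_apply, Pi.smul_apply, Pi.sub_apply, smul_eq_mul]
  ring

theorem Core.good_T (h : Core φ K δ η θ) (hA : 2 ≤ A) (hy : 2 ≤ y) (hK : 2064 * mm * A ≤ K) :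
    Good (φ - Tt A y 0) := by
  refine h.good_sub (tail_Tt hA hy 0) (Rk_ge_two hy 0) ?_
  rw [At_zero hy]
  have := mm_pos
  nlinarith

/-- The comparison lemma at scale `k`. -/
theorem cmp_scale (h : Core φ K δ η θ) (hA : 2 ≤ A) (hy : 4 ≤ y) (hK : 2064 * mm * A ≤ K)
    (hβ : 3 / 4 ≤ β) (k : ℕ) {τ' : ℝ → ℝ} {A' s γ ν : ℝ} (hτ' : Tail τ' A' (Rk y k)) (hs : 0 ≤ s)
    (hsA : s ≤ A / 2)
    (hA' : A' ≤ β * At A y k + (1 - 3000 * (1 / (Yk y k : ℝ) ^ 8)) * s)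
    (hmin : ∀ w, 0 ≤ w → γ + ν * w + s / 2 * w ^ 2 ≤ G (β • (φ - Tt A y 0)) w) (hx : 0 ≤ x) :
    Good (β • φ - β • Low A y k - τ') ∧
    γ + ν * x - 1 / (Yk y k : ℝ) ^ 8 *
      (2000 * (γ + ν * x) - 7 * γ + 2000 * (1 + β * K) * (2 + x) + (x + 1))
      ≤ G (β • φ - β • Low A y k - τ') x := by
  have hy2 : 2 ≤ y := by omega
  have hβ0 : 0 ≤ β := by linarith
  have hY := Yk_pos hy2 k
  have hY4 : (4 : ℝ) ≤ Yk y k := le_trans (by exact_mod_cast hy) (Yk_ge_y hy2 k)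
  have hY1 : (1 : ℝ) ≤ Yk y k := by linarith
  have hm := mm_pos
  have hz : 1 / (Yk y k : ℝ) ^ 8 ≤ 1 / 10000 := by
    refine one_div_le_one_div_of_le (by norm_num) (le_trans ?_ (pow_le_pow_left₀ (by norm_num) hY4 8))
    norm_num
  have hz0 : 0 < 1 / (Yk y k : ℝ) ^ 8 := by positivity
  have hsplit := At_split (A := A) hy2 k
  have hG := (h.good_T hA hy2 hK).smul hβ0
  have hγ : γ ≤ 0 := by
    have := hmin 0 le_rfl
    rw [G_zero hG] at this
    simpa using this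
  have hK1 : 1032 * mm * (2 * (β * Sg A y k) + 2 * (β * At A y k)) ≤ β * K := by
    have : 1032 * mm * (2 * (β * Sg A y k) + 2 * (β * At A y k)) = β * (2064 * mm * A) := by
      conv_rhs => rw [hsplit]
      ring
    rw [this]
    exact mul_le_mul_of_nonneg_left hK hβ0
  have hK2 : 1032 * mm * (β * Sg A y k + A') ≤ β * K := by
    refine le_trans (mul_le_mul_of_nonneg_left ?_ (by positivity)) hK1
    have a1 : (1 - 3000 * (1 / (Yk y k : ℝ) ^ 8)) * s ≤ s := by nlinarith only [hz0, hs]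
    have a2 : β * Sg A y k + β * At A y k = β * A := by
      conv_rhs => rw [hsplit]
      ring
    have a3 : A / 2 ≤ β * A := by nlinarith only [hβ, hA]
    linarith
  refine ⟨(h.smul hβ0).good_sub2 ((tail_Low hA hy2 k).smul hβ0)
    (hτ'.mono two_pos (Rk_ge_two hy2 k)) hK2, ?_⟩
  refine cmp (m := Yk y k ^ 8) (R' := (Yk y k : ℝ) ^ 16) (ℓ := (Yk y k : ℝ) ^ 24) (h.smul hβ0)
    ((tail_Low hA hy2 k).smul hβ0) (by positivity) (fun r hr => ?_) ((tail_Tt hA hy2 k).smul hβ0)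
    hτ' (Rk_ge_two hy2 k) hK1 hK2 ?_ ?_ ?_ ?_ ?_ hz hs hA' hγ ?_ hx
  · simp [Low_zero hy2 k r hr]
  · have : 0 < Yk y k := by exact_mod_cast hY
    positivity
  · push_cast; ring
  · push_cast; rfl
  · unfold Rk
    refine le_of_eq ?_
    field_simp
  · exact one_div_le_one_div_of_le (by positivity) (pow_le_pow_right₀ hY1 (by norm_num))
  · rw [← smul_sub_Tt hA hy2]
    exact hmin

/-- Moving a little attraction from scale `k + 1` to scale `k` costs little. -/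
theorem bd_step (h : Core φ K δ η θ) (hA : 2 ≤ A) (hy : 4 ≤ y) (hK : 2064 * mm * A ≤ K)
    (hβ : 3 / 4 ≤ β) (hβ1 : β ≤ 9 / 8) {X C0 Cs : ℝ} (hx : 0 < x) (hxX : x ≤ X) (hC00 : 0 ≤ C0)
    (hC0 : ∀ w, 0 ≤ w → w ≤ 2 * X → G ((9 / 8 : ℝ) • φ) w ≤ C0)
    (hCs : 2000 * C0 + 7 * (C0 + 2 + 2 * K * X) + 2000 * (1 + 2 * K) * (2 + X) + (X + 1) ≤ Cs)
    (k : ℕ) : Bd (β • (φ - Tt A y 0)) (uu (Rk y k) - uu (Rk y (k + 1))) x
      (4 / 3 * Cs / (y : ℝ) ^ 3 * (1 / 2) ^ (k + 1)) := by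
  have hy2 : 2 ≤ y := by omega
  have hβ0 : 0 ≤ β := by linarith
  have hK0 := h.Knn
  have hm := mm_pos
  have hG := (h.good_T hA hy2 hK).smul hβ0
  set g := G (β • (φ - Tt A y 0)) with hg
  obtain ⟨ν, hν⟩ := exists_support (G_convexOn hG) hx
  have hup : ∀ w, 0 ≤ w → w ≤ 2 * X → g w ≤ C0 := fun w hw hw' => by
    refine le_trans (G_mono hG (h.good.smul (β := 9 / 8) (by norm_num)) (fun r hr => ?_) hw)
      (hC0 w hw hw')
    have a1 := h.nonneg r hr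
    have a2 := (tail_Tt hA hy2 0).dec.nonneg r
    simp only [Pi.smul_apply, Pi.sub_apply, smul_eq_mul]
    nlinarith only [a1, a2, hβ0, hβ1]
  have hlo : -1 - β * K / 2 * x ≤ g x := by
    have := (h.smul hβ0).stab ((tail_Tt hA hy2 0).smul hβ0) (Rk_ge_two hy2 0) (by
      rw [At_zero hy2]
      have : 1032 * mm * A ≤ K := by nlinarith
      have := mul_le_mul_of_nonneg_left this hβ0
      linarith)
    rw [← smul_sub] at this
    exact G_lower hG.meas this hx.le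
  have hRk := Rk_pos hy2 k
  have ha0 := ak_pos hA hy2 k
  have ha1 := ak_pos hA hy2 (k + 1)
  have hτ' : Tail (β • ((ak A y k + ak A y (k + 1)) • uu (Rk y k) + Tt A y (k + 2)))
      (β * ((ak A y k + ak A y (k + 1)) * 1 + At A y (k + 2))) (Rk y k) :=
    (((tail_uu hRk).smul (by positivity)).add hRk
      ((tail_Tt hA hy2 (k + 2)).mono hRk (Rk_mono hy2 (by omega)))).smul hβ0
  obtain ⟨hG', hc⟩ := cmp_scale (x := x) (s := 0) (γ := g x - ν * x) (ν := ν) h hA hy hK hβ k hτ'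
    le_rfl (by linarith) (by
      rw [At_succ hy2 k, At_succ hy2 (k + 1)]
      refine le_of_eq ?_
      ring) (fun w hw => by
      have := hν w hw
      linarith) hx.le
  have e : β • φ - β • Low A y k - β • ((ak A y k + ak A y (k + 1)) • uu (Rk y k) + Tt A y (k + 2))
      = β • (φ - Tt A y 0) - (β * ak A y (k + 1)) • (uu (Rk y k) - uu (Rk y (k + 1))) := by
    rw [smul_sub_Tt hA hy2 φ β k, Tt_succ hA hy2 k, Tt_succ hA hy2 (k + 1)]
    funext r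
    simp only [Pi.add_apply, Pi.smul_apply, Pi.sub_apply, smul_eq_mul]
    ring
  rw [e] at hG' hc
  refine Bd.of_point hG hx.le (by positivity) hG' (le_trans ?_ hc)
  rw [sub_add_cancel]
  have b1 := hν (2 * x) (by positivity)
  have b2 := hup (2 * x) (by positivity) (by linarith)
  have b3 := hup x hx.le (by linarith)
  have b4 : β * K ≤ 2 * K := by nlinarith only [hβ1, hK0]
  have b5 : β * K * x ≤ 2 * K * X := mul_le_mul b4 hxX hx.le (by positivity)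
  have b6 : (1 + β * K) * (2 + x) ≤ (1 + 2 * K) * (2 + X) :=
    mul_le_mul (by linarith) (by linarith) (by positivity) (by positivity)
  have b7 : 2000 * g x - 7 * (g x - ν * x) + 2000 * (1 + β * K) * (2 + x) + (x + 1) ≤ Cs := by
    linarith
  have hCs0 : 0 ≤ Cs := by
    have : 0 ≤ X := by linarith
    refine le_trans ?_ hCs
    positivity
  have hY := Yk_pos hy2 k
  have hy0 : (0 : ℝ) < y := by exact_mod_cast (by omega : 0 < y)
  have b8 : 1 / (Yk y k : ℝ) ^ 8 * Cs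
      ≤ β * ak A y (k + 1) * (4 / 3 * Cs / (y : ℝ) ^ 3 * (1 / 2) ^ (k + 1)) := by
    rw [ak_succ, Yk_succ]
    push_cast
    have c1 := inv_Yk_le hy2 k
    have c2 : 1 / (Yk y k : ℝ) ^ 3 ≤ 1 / (y : ℝ) ^ 3 :=
      one_div_le_one_div_of_le (by positivity) (pow_le_pow_left₀ hy0.le (Yk_ge_y hy2 k) 3)
    have c3 := mul_le_mul c2 c1 (by positivity) (by positivity)
    have c4 : (1 : ℝ) ≤ β * (4 / 3) := by linarith
    have c5 := mul_le_mul c4 c3 (by positivity) (by positivity)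
    have c6 := mul_le_mul_of_nonneg_left c5
      (show 0 ≤ 1 / ((Yk y k : ℝ) ^ 2) ^ 2 * Cs by positivity)
    refine le_trans (le_of_eq ?_) (c6.trans (le_of_eq ?_))
    · field_simp
    · ring
  have b9 := mul_le_mul_of_nonneg_left b7 (show 0 ≤ 1 / (Yk y k : ℝ) ^ 8 by positivity)
  linarith

theorem tendsto_zk (hy : 2 ≤ y) : Tendsto (fun k => 1 / (Yk y k : ℝ) ^ 8) atTop (𝓝 0) := by
  refine squeeze_zero (fun k => by positivity) (fun k => ?_)
    (tendsto_pow_atTop_nhds_zero_of_lt_one (r := 1 / 2) (by norm_num) (by norm_num))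
  have h1 := Yk_ge_two hy k
  calc 1 / (Yk y k : ℝ) ^ 8 ≤ 1 / (Yk y k : ℝ) :=
        one_div_le_one_div_of_le (by linarith) (le_self_pow₀ (by linarith) (by norm_num))
    _ ≤ (1 / 2) ^ (k + 1) := inv_Yk_le hy k
    _ ≤ (1 / 2) ^ k := pow_le_pow_of_le_one (by norm_num) (by norm_num) (by omega)

/-- Adding attraction at a very long scale. -/
theorem bd_far (h : Core φ K δ η θ) (hA : 2 ≤ A) (hy : 4 ≤ y) (hK : 2064 * mm * A ≤ K)
    (hβ : 3 / 4 ≤ β) (hx : 0 ≤ x) {s γ ν ζ : ℝ} (hs : 0 < s) (hsA : s ≤ A / 2) (hζ : 0 < ζ)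
    (hmin : ∀ w, 0 ≤ w → γ + ν * w + s / 2 * w ^ 2 ≤ G (β • (φ - Tt A y 0)) w) :
    ∃ k, Bd (β • (φ - Tt A y 0)) (Sg A y k • uu (Rk y k) + Tt A y k) x
      (A * (G (β • (φ - Tt A y 0)) x - γ - ν * x) / s + ζ) := by
  have hy2 : 2 ≤ y := by omega
  have hβ0 : 0 ≤ β := by linarith
  have hG := (h.good_T hA hy2 hK).smul hβ0
  set D := G (β • (φ - Tt A y 0)) x - γ - ν * x with hD
  set C := 2000 * (γ + ν * x) - 7 * γ + 2000 * (1 + β * K) * (2 + x) + (x + 1) with hC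
  have hlim : Tendsto (fun k => (D + 1 / (Yk y k : ℝ) ^ 8 * C) /
      ((1 - 3000 * (1 / (Yk y k : ℝ) ^ 8)) * s / A)) atTop (𝓝 ((D + 0 * C) / ((1 - 3000 * 0) * s / A))) := by
    have := tendsto_zk hy2
    refine (tendsto_const_nhds.add (this.mul_const C)).div
      (((tendsto_const_nhds.sub (this.const_mul 3000)).mul_const s).div_const A) ?_
    have : 0 < A := by linarith
    simp only [mul_zero, sub_zero, one_mul]
    positivity
  have hlt : (D + 0 * C) / ((1 - 3000 * 0) * s / A) < A * D / s + ζ := by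
    have : (D + 0 * C) / ((1 - 3000 * 0) * s / A) = A * D / s := by
      have : 0 < A := by linarith
      field_simp
      ring
    linarith
  obtain ⟨k, hk⟩ := (hlim.eventually (gt_mem_nhds hlt)).exists
  refine ⟨k, Bd.mono ?_ hk.le⟩
  set z := 1 / (Yk y k : ℝ) ^ 8 with hz
  have hY4 : (4 : ℝ) ≤ Yk y k := le_trans (by exact_mod_cast hy) (Yk_ge_y hy2 k)
  have hz1 : z ≤ 1 / 10000 := by
    refine one_div_le_one_div_of_le (by norm_num) (le_trans ?_ (pow_le_pow_left₀ (by norm_num) hY4 8))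
    norm_num
  have hA0 : 0 < A := by linarith
  set σ₀ := (1 - 3000 * z) * s / A with hσ₀
  have hσ0 : 0 < σ₀ := by
    have : 0 < 1 - 3000 * z := by linarith
    positivity
  have hRk := Rk_pos hy2 k
  have hτ' : Tail (β • Tt A y k + σ₀ • (Sg A y k • uu (Rk y k) + Tt A y k))
      (β * At A y k + σ₀ * (Sg A y k * 1 + At A y k)) (Rk y k) :=
    ((tail_Tt hA hy2 k).smul hβ0).add hRk ((((tail_uu hRk).smul (Sg_nonneg hA hy2 k)).add hRk
      (tail_Tt hA hy2 k)).smul hσ0.le)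
  obtain ⟨hG', hc⟩ := cmp_scale (x := x) h hA hy hK hβ k hτ' hs.le hsA (by
    rw [mul_one, ← At_split hy2 k, hσ₀, div_mul_cancel₀ _ hA0.ne']) hmin hx
  have e : β • φ - β • Low A y k - (β • Tt A y k + σ₀ • (Sg A y k • uu (Rk y k) + Tt A y k))
      = β • (φ - Tt A y 0) - σ₀ • (Sg A y k • uu (Rk y k) + Tt A y k) := by
    rw [smul_sub_Tt hA hy2 φ β k, sub_add_eq_sub_sub]
  rw [e] at hG' hc
  refine Bd.of_point hG hx hσ0 hG' (le_trans (le_of_eq ?_) hc)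
  rw [mul_div_cancel₀ _ hσ0.ne', hD]
  ring

/-- The directional bound for the whole attraction. -/
theorem bd_T (h : Core φ K δ η θ) (hA : 2 ≤ A) (hy : 4 ≤ y) (hK : 2064 * mm * A ≤ K)
    (hβ : 3 / 4 ≤ β) (hβ1 : β ≤ 9 / 8) {X C0 Cs : ℝ} (hx : 0 < x) (hxX : x ≤ X) (hC00 : 0 ≤ C0)
    (hC0 : ∀ w, 0 ≤ w → w ≤ 2 * X → G ((9 / 8 : ℝ) • φ) w ≤ C0)
    (hCs : 2000 * C0 + 7 * (C0 + 2 + 2 * K * X) + 2000 * (1 + 2 * K) * (2 + X) + (X + 1) ≤ Cs)
    {s γ ν : ℝ} (hs : 0 < s) (hsA : s ≤ A / 2)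
    (hmin : ∀ w, 0 ≤ w → γ + ν * w + s / 2 * w ^ 2 ≤ G (β • (φ - Tt A y 0)) w) :
    Bd (β • (φ - Tt A y 0)) (Tt A y 0) x
      (2 * A * Cs / (y : ℝ) ^ 3 + A * (G (β • (φ - Tt A y 0)) x - γ - ν * x) / s) := by
  have hy2 : 2 ≤ y := by omega
  have hβ0 : 0 ≤ β := by linarith
  have hG := (h.good_T hA hy2 hK).smul hβ0
  have hy0 : (0 : ℝ) < y := by exact_mod_cast (by omega : 0 < y)
  have hK0 := h.Knn
  have hA0 : 0 < A := by linarith
  have hCs0 : 0 < Cs := by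
    have : 0 ≤ X := by linarith
    refine lt_of_lt_of_le ?_ hCs
    positivity
  obtain ⟨k, hk⟩ := bd_far (ζ := 2 / 3 * A * Cs / (y : ℝ) ^ 3) h hA hy hK hβ hx.le hs hsA
    (by positivity) hmin
  have h1 := Bd.sum hG hx.le _ _ (fun i => (bd_step h hA hy hK hβ hβ1 hx hxX hC00 hC0 hCs i).smul
    (Sg_nonneg hA hy2 (i + 1))) k
  have h2 := h1.add hx.le hk
  rw [← add_assoc, ← Low_decomp, ← Tt_split hA hy2] at h2
  refine h2.mono ?_
  have h3 : ∑ i ∈ Finset.range k, Sg A y (i + 1) * (4 / 3 * Cs / (y : ℝ) ^ 3 * (1 / 2) ^ (i + 1))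
      ≤ ∑ i ∈ Finset.range k, (2 / 3 * A * Cs / (y : ℝ) ^ 3) * (1 / 2) ^ i := by
    refine Finset.sum_le_sum fun i _ => ?_
    have := mul_le_mul_of_nonneg_right (Sg_le hA hy2 (i + 1))
      (show 0 ≤ 4 / 3 * Cs / (y : ℝ) ^ 3 * (1 / 2) ^ (i + 1) by positivity)
    refine this.trans (le_of_eq ?_)
    ring
  rw [← Finset.mul_sum] at h3
  have h4 := mul_le_mul_of_nonneg_left (sum_geometric_two_le k)
    (show 0 ≤ 2 / 3 * A * Cs / (y : ℝ) ^ 3 by positivity)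
  have e : 2 * A * Cs / (y : ℝ) ^ 3 = 3 * (2 / 3 * A * Cs / (y : ℝ) ^ 3) := by ring
  linarith

/-- Consequences of a directional bound. -/
theorem bd_conseq {T : ℝ → ℝ} (hφ : ∀ r, 0 ≤ r → 0 ≤ φ r) (hG : Good (φ - T)) (hβ : 0 < β)
    (hx : 0 ≤ x) {q : ℝ} (hb : Bd (β • (φ - T)) T x q) (β'' : ℝ) (h0 : 0 < β'') (h1 : β'' < β) :
    -(β - β'') * q ≤ G (β • (φ - T)) x - G (β'' • (φ - T)) x := by
  obtain ⟨a, ha, hb⟩ := hb
  obtain ⟨g1, g2⟩ := hb a ha.le le_rfl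
  have a1 : G (β • (φ - T) - a • T) x ≤ G ((β + a) • (φ - T)) x := by
    refine G_mono g1 (hG.smul (by positivity)) (fun r hr => ?_) hx
    have := mul_nonneg ha.le (hφ r hr)
    simp only [Pi.smul_apply, Pi.sub_apply, smul_eq_mul]
    linarith
  have a2 := (G_concaveOn hG hx).slope_anti_adjacent (x := β'') (y := β) (z := β + a)
    h0 (show (0 : ℝ) < β + a by positivity) h1 (by linarith)
  simp only [add_sub_cancel_left] at a2
  have a3 : -q ≤ (G ((β + a) • (φ - T)) x - G (β • (φ - T)) x) / a := by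
    rw [le_div_iff₀ ha]; linarith
  have a4 := a3.trans a2
  rw [le_div_iff₀ (by linarith)] at a4
  linarith

end Crest.Agent.R149
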