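import Crest.Agent.R149.LP

set_option autoImplicit false

namespace Crest.Agent.R149

open MeasureTheory Crest.ProbabilityR.Continuum Classical Filter Topology
open scoped ENNReal BigOperators

theorem sep_card_le {L : ℝ} (hL : 0 ≤ L) {ι : Type} [Fintype ι] (x : ι → Pt) (hx : ∀ i, x i ∈ cube L)
    (hsep : ∀ i j, i ≠ j → 1 ≤ dist (x i) (x j)) : Fintype.card ι ≤ (⌊L / (1 / 2)⌋₊ + 2) ^ 3 := by
  have h0 : (0 : ℝ) < 1 / 2 := by norm_num
  have hinj : Function.Injective fun i => cidx h0 (t := 0) (by norm_num) (hx i) := by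
    intro i j hij
    by_contra hne
    have h1 := mem_cidx h0 (t := 0) le_rfl (by norm_num) (hx i)
    have h2 := mem_cidx h0 (t := 0) le_rfl (by norm_num) (hx j)
    simp only at hij
    rw [hij] at h1
    have h3 := dist_le_of_mem_tcube h1 h2
    have := hsep i j hne
    linarith
  have := Fintype.card_le_of_injective _ hinj
  simpa using this

theorem packingSet_bdd {L : ℝ} (hL : 0 ≤ L) : ∀ n ∈ packingSet L, n ≤ (⌊L / (1 / 2)⌋₊ + 2) ^ 3 := by
  rintro n ⟨X, rfl, hX, hsep⟩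
  have := sep_card_le hL (fun i : X => (i : Pt)) (fun i => hX i i.2)
    (fun i j hij => hsep i i.2 j j.2 (fun e => hij (Subtype.ext e)))
  simpa using this

theorem le_packingNumber {L : ℝ} (hL : 0 ≤ L) {ι : Type} [Fintype ι] (x : ι → Pt)
    (hx : ∀ i, x i ∈ cube L) (hsep : ∀ i j, i ≠ j → 1 ≤ dist (x i) (x j)) :
    Fintype.card ι ≤ packingNumber L := by
  refine le_csSup ⟨_, packingSet_bdd hL⟩ ⟨Finset.univ.image x, ?_, ?_, ?_⟩
  · rw [Finset.card_image_of_injective, Finset.card_univ]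
    intro i j hij
    by_contra hne
    have := hsep i j hne
    rw [hij, dist_self] at this
    linarith
  · intro y hy
    obtain ⟨i, -, rfl⟩ := Finset.mem_image.mp hy
    exact hx i
  · intro y hy z hz hyz
    obtain ⟨i, -, rfl⟩ := Finset.mem_image.mp hy
    obtain ⟨j, -, rfl⟩ := Finset.mem_image.mp hz
    exact hsep i j fun e => hyz (by rw [e])

theorem exists_packing {L : ℝ} (hL : 0 ≤ L) : ∃ x : Fin (packingNumber L) → Pt,
    (∀ i, x i ∈ cube L) ∧ ∀ i j, i ≠ j → 1 ≤ dist (x i) (x j) := by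
  have hne : (packingSet L).Nonempty := ⟨0, ∅, rfl, by simp, by simp⟩
  obtain ⟨X, hX, h1, h2⟩ := Nat.sSup_mem hne ⟨_, packingSet_bdd hL⟩
  let e : X ≃ Fin (packingNumber L) := X.equivFinOfCardEq hX
  refine ⟨fun i => e.symm i, fun i => h1 _ (e.symm i).2, fun i j hij => ?_⟩
  exact h2 _ (e.symm i).2 _ (e.symm j).2 fun h => hij (e.symm.injective (Subtype.ext h))

theorem packingNumber_le {L : ℝ} (hL : 0 ≤ L) : (packingNumber L : ℝ) ≤ 8 * (L + 1) ^ 3 := by
  obtain ⟨x, h1, h2⟩ := exists_packing hL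
  have h := sep_card_le hL x h1 h2
  rw [Fintype.card_fin] at h
  have h3 : (packingNumber L : ℝ) ≤ ((⌊L / (1 / 2)⌋₊ : ℝ) + 2) ^ 3 := by exact_mod_cast h
  have h4 : (⌊L / (1 / 2)⌋₊ : ℝ) ≤ L / (1 / 2) := Nat.floor_le (by positivity)
  calc _ ≤ _ := h3
    _ ≤ (2 * (L + 1)) ^ 3 := pow_le_pow_left₀ (by positivity) (by linarith) 3
    _ = _ := by ring

theorem one_le_packingNumber {L : ℝ} (hL : 0 ≤ L) : 1 ≤ packingNumber L := by
  have := le_packingNumber hL (fun _ : Unit => (0 : Pt)) (fun _ k => by simp [hL])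
    (fun i j hij => absurd (Subsingleton.elim i j) hij)
  simpa using this

theorem packing_super {ℓ L : ℝ} (hℓ : 0 ≤ ℓ) (hL : 0 ≤ L) {k : ℕ} (hk : k * (ℓ + 1) ≤ L + 1) :
    k ^ 3 * packingNumber ℓ ≤ packingNumber L := by
  obtain ⟨x, h1, h2⟩ := exists_packing hℓ
  have hm : ∀ (c : Fin 3 → Fin k) i, gv (ℓ + 1) 0 c + x i ∈ tcube (gv (ℓ + 1) 0 c) ℓ := by
    intro c i
    simpa [tcube] using h1 i
  have := le_packingNumber hL
    (fun p : (Fin 3 → Fin k) × Fin (packingNumber ℓ) => gv (ℓ + 1) 0 p.1 + x p.2)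
    (fun p => grid_sub (by positivity) (by linarith) p.1 (hm p.1 p.2)) ?_
  · simpa using this
  · rintro ⟨c, i⟩ ⟨c', i'⟩ hne
    by_cases hc : c = c'
    · subst hc
      simp only [dist_add_left]
      exact h2 i i' fun e => hne (by rw [e])
    · have := grid_far (by positivity) hc (hm c i) (hm c' i')
      linarith

/-- The packing density. -/
noncomputable def pk : ℝ := sSup ((fun ℓ : ℝ => (packingNumber ℓ : ℝ) / (ℓ + 1) ^ 3) '' Set.Ici 0)

theorem pk_bdd : BddAbove ((fun ℓ : ℝ => (packingNumber ℓ : ℝ) / (ℓ + 1) ^ 3) '' Set.Ici 0) := by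
  refine ⟨8, ?_⟩
  rintro _ ⟨ℓ, hℓ, rfl⟩
  have : (0 : ℝ) ≤ ℓ := hℓ
  simp only
  rw [div_le_iff₀ (by positivity)]
  exact packingNumber_le hℓ

theorem packing_le_pk {ℓ : ℝ} (hℓ : 0 ≤ ℓ) : (packingNumber ℓ : ℝ) ≤ pk * (ℓ + 1) ^ 3 := by
  rw [← div_le_iff₀ (by positivity)]
  exact le_csSup pk_bdd ⟨ℓ, hℓ, rfl⟩

theorem one_le_pk : 1 ≤ pk := by
  have h := packing_le_pk le_rfl
  have h1 : (1 : ℝ) ≤ packingNumber 0 := by exact_mod_cast one_le_packingNumber le_rfl
  simp only [zero_add, one_pow, mul_one] at h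
  linarith

theorem pk_le : pk ≤ 8 := by
  refine csSup_le ⟨_, 0, Set.self_mem_Ici, rfl⟩ ?_
  rintro _ ⟨ℓ, hℓ, rfl⟩
  have : (0 : ℝ) ≤ ℓ := hℓ
  simp only
  rw [div_le_iff₀ (by positivity)]
  exact packingNumber_le hℓ

theorem tendsto_pk : Tendsto (fun L : ℝ => (packingNumber L : ℝ) / L ^ 3) atTop (𝓝 pk) := by
  rw [tendsto_order]
  constructor
  · intro a ha
    obtain ⟨_, ⟨ℓ, hℓ, rfl⟩, h⟩ := exists_lt_of_lt_csSup
      (Set.Nonempty.image _ (Set.nonempty_Ici (a := (0 : ℝ)))) ha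
    have hℓ0 : (0 : ℝ) ≤ ℓ := hℓ
    have hb : 0 < ℓ + 1 := by positivity
    have hlim := (tendsto_floor_div_cube hb).mul_const (packingNumber ℓ : ℝ)
    have h' : a < 1 / (ℓ + 1) ^ 3 * (packingNumber ℓ : ℝ) := by
      simp only at h
      rwa [one_div, inv_mul_eq_div]
    filter_upwards [hlim.eventually (lt_mem_nhds h'), eventually_gt_atTop 0] with L h1 hL
    refine h1.trans_le ?_
    rw [div_mul_eq_mul_div]
    gcongr
    have h2 : (⌊L / (ℓ + 1)⌋₊ : ℝ) * (ℓ + 1) ≤ L := by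
      rw [← le_div_iff₀ hb]; exact Nat.floor_le (by positivity)
    exact_mod_cast packing_super hℓ0 hL.le (k := ⌊L / (ℓ + 1)⌋₊) (by linarith)
  · intro a ha
    have hlim := (tendsto_shift_cube 1).const_mul pk
    rw [mul_one] at hlim
    filter_upwards [hlim.eventually (gt_mem_nhds ha), eventually_gt_atTop 0] with L h1 hL
    refine lt_of_le_of_lt ?_ h1
    rw [← mul_div_assoc]
    gcongr
    exact packing_le_pk hL.le

/-- Sizes of point sets with all mutual distances in `(1/2, 1)`. -/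
def cliqueSet : Set ℕ :=
  {n | ∃ z : Fin n → Pt, ∀ i j, i ≠ j → 1 / 2 < dist (z i) (z j) ∧ dist (z i) (z j) < 1}

/-- The maximal cluster size. -/
noncomputable def mm : ℕ := sSup cliqueSet

theorem cliqueSet_bdd : BddAbove cliqueSet := by
  refine ⟨packingNumber 4, ?_⟩
  rintro n ⟨z, hz⟩
  rcases Nat.eq_zero_or_pos n with rfl | hn
  · exact Nat.zero_le _
  have := le_packingNumber (L := 4) (by norm_num)
    (fun i => (2 : ℝ) • (z i - z ⟨0, hn⟩) + WithLp.toLp 2 (fun _ => (2 : ℝ))) ?_ ?_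
  · simpa using this
  · intro i k
    have h1 : |z i k - z ⟨0, hn⟩ k| ≤ 1 := by
      refine (coord_le_dist _ _ k).trans ?_
      by_cases h : i = ⟨0, hn⟩
      · simp [h]
      · exact (hz _ _ h).2.le
    have h2 := abs_le.mp h1
    simp only [PiLp.add_apply, PiLp.smul_apply, PiLp.sub_apply, smul_eq_mul]
    constructor <;> linarith [h2.1, h2.2]
  · intro i j hij
    rw [dist_add_right, dist_smul₀, dist_sub_right]
    have := (hz i j hij).1
    simp only [Real.norm_ofNat]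
    linarith

theorem clique_le_mm {δ : ℝ} (hδ : 0 < δ) {ι : Type} [Fintype ι] (x : ι → Pt)
    (h : ∀ i j, i ≠ j → δ / 2 < dist (x i) (x j) ∧ dist (x i) (x j) < δ) : Fintype.card ι ≤ mm := by
  refine le_csSup cliqueSet_bdd ⟨fun i => δ⁻¹ • x ((Fintype.equivFin ι).symm i), fun i j hij => ?_⟩
  have := h _ _ (fun e => hij ((Fintype.equivFin ι).symm.injective e))
  rw [dist_smul₀, Real.norm_eq_abs, abs_of_pos (inv_pos.mpr hδ), inv_mul_eq_div, lt_div_iff₀ hδ,
    div_lt_iff₀ hδ]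
  constructor <;> linarith [this.1, this.2]

theorem two_le_mm : 2 ≤ mm := by
  have h := clique_le_mm one_pos (fun b : Bool => if b then EuclideanSpace.single 0 (3 / 4 : ℝ) else (0 : Pt)) ?_
  · simpa using h
  · intro i j hij
    have e : dist (EuclideanSpace.single (0 : Fin 3) (3 / 4 : ℝ) : Pt) 0 = 3 / 4 := by
      rw [dist_zero_right, PiLp.norm_single]; norm_num
    cases i <;> cases j
    · exact absurd rfl hij
    · simp only [Bool.false_eq_true, if_false, if_true]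
      rw [dist_comm, e]; norm_num
    · simp only [Bool.false_eq_true, if_false, if_true]
      rw [e]; norm_num
    · exact absurd rfl hij

theorem exists_clique : ∃ (z : Fin mm → Pt) (η : ℝ), 0 < η ∧ η ≤ 1 / 12 ∧
    ∀ i j, i ≠ j → 1 / 2 + 3 * η ≤ dist (z i) (z j) ∧ dist (z i) (z j) ≤ 1 - 3 * η := by
  have hne : cliqueSet.Nonempty := ⟨0, Fin.elim0, fun i => i.elim0⟩
  obtain ⟨z, hz⟩ : mm ∈ cliqueSet := Nat.sSup_mem hne cliqueSet_bdd
  have h1 : ∀ᶠ η : ℝ in 𝓝[>] 0, ∀ p : Fin mm × Fin mm, p.1 ≠ p.2 →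
      1 / 2 + 3 * η ≤ dist (z p.1) (z p.2) ∧ dist (z p.1) (z p.2) ≤ 1 - 3 * η := by
    refine eventually_all.mpr fun p => ?_
    by_cases hp : p.1 = p.2
    · exact Eventually.of_forall fun _ h => absurd hp h
    have := hz _ _ hp
    have h2 : ∀ᶠ η : ℝ in 𝓝 0, η < min ((dist (z p.1) (z p.2) - 1 / 2) / 3)
        ((1 - dist (z p.1) (z p.2)) / 3) :=
      gt_mem_nhds (lt_min (by linarith [this.1]) (by linarith [this.2]))
    filter_upwards [nhdsWithin_le_nhds h2] with η hη _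
    rw [lt_min_iff] at hη
    constructor <;> linarith [hη.1, hη.2]
  have h3 : ∀ᶠ η : ℝ in 𝓝[>] 0, η ≤ 1 / 12 :=
    nhdsWithin_le_nhds (ge_mem_nhds (by norm_num : (0 : ℝ) < 1 / 12))
  obtain ⟨η, hη1, hη2, hη3⟩ := (h1.and (h3.and self_mem_nhdsWithin)).exists
  exact ⟨z, η, hη3, hη2, fun i j hij => hη1 (i, j) hij⟩

/-- Number of ordered bad pairs inside `T`. -/
noncomputable def Dbad {ι : Type} (bad : ι → ι → Prop) (T : Finset ι) : ℝ :=
  ∑ i ∈ T, ∑ j ∈ T, if i ≠ j ∧ bad i j then 1 else 0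

theorem Dbad_nonneg {ι : Type} (bad : ι → ι → Prop) (T : Finset ι) : 0 ≤ Dbad bad T :=
  Finset.sum_nonneg fun _ _ => Finset.sum_nonneg fun _ _ => by split_ifs <;> norm_num

theorem exists_max_indep {ι : Type} (bad : ι → ι → Prop) (hsymm : ∀ i j, bad i j → bad j i)
    (T : Finset ι) : ∃ I ⊆ T, (∀ i ∈ I, ∀ j ∈ I, i ≠ j → ¬ bad i j) ∧
      ∀ v ∈ T, v ∉ I → ∃ u ∈ I, bad v u := by
  obtain ⟨I, hI, hmax⟩ := Finset.exists_max_image
    (T.powerset.filter fun S => ∀ i ∈ S, ∀ j ∈ S, i ≠ j → ¬ bad i j) Finset.card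
    ⟨∅, by simp⟩
  simp only [Finset.mem_filter, Finset.mem_powerset] at hI
  refine ⟨I, hI.1, hI.2, fun v hv hvI => ?_⟩
  by_contra hno
  push Not at hno
  have := hmax (insert v I) (by
    simp only [Finset.mem_filter, Finset.mem_powerset]
    refine ⟨Finset.insert_subset hv hI.1, fun i hi j hj hij => ?_⟩
    rcases Finset.mem_insert.mp hi with rfl | hi' <;> rcases Finset.mem_insert.mp hj with rfl | hj'
    · exact absurd rfl hij
    · exact hno j hj'
    · exact fun h => hno i hi' (hsymm _ _ h)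
    · exact hI.2 i hi' j hj' hij)
  rw [Finset.card_insert_of_notMem hvI] at this
  omega

/-- A Turán-type bound. -/
theorem turan {ι : Type} (bad : ι → ι → Prop) (hsymm : ∀ i j, bad i j → bad j i) {α : ℝ}
    (hα : 0 < α) (T : Finset ι)
    (hT : ∀ S ⊆ T, (∀ i ∈ S, ∀ j ∈ S, i ≠ j → ¬ bad i j) → (S.card : ℝ) ≤ α) :
    (T.card : ℝ) * (T.card - α) / α ≤ Dbad bad T := by
  induction T using Finset.strongInduction with
  | H T ih =>
    rcases T.eq_empty_or_nonempty with rfl | hne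
    · simp [Dbad]
    obtain ⟨I, hIT, hI, hmax⟩ := exists_max_indep bad hsymm T
    have hIne : I.Nonempty := by
      obtain ⟨v, hv⟩ := hne
      by_cases hvI : v ∈ I
      · exact ⟨v, hvI⟩
      · obtain ⟨u, hu, -⟩ := hmax v hv hvI
        exact ⟨u, hu⟩
    have h1 := ih (T \ I) (Finset.sdiff_ssubset hIT hIne)
      (fun S hS => hT S (hS.trans Finset.sdiff_subset))
    have hiα := hT I hIT hI
    have hcard : ((T \ I).card : ℝ) = T.card - I.card := by
      rw [Finset.card_sdiff_of_subset hIT, Nat.cast_sub (Finset.card_le_card hIT)]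
    set f : ι → ι → ℝ := fun i j => if i ≠ j ∧ bad i j then 1 else 0 with hf
    have hf0 : ∀ i j, 0 ≤ f i j := fun i j => by simp only [hf]; split_ifs <;> norm_num
    have hfs : ∀ i j, f i j = f j i := fun i j => by
      simp only [hf]
      congr 1
      exact propext ⟨fun h => ⟨h.1.symm, hsymm _ _ h.2⟩, fun h => ⟨h.1.symm, hsymm _ _ h.2⟩⟩
    have h2 : ∀ v ∈ T \ I, 1 ≤ ∑ u ∈ I, f v u := by
      intro v hv
      rw [Finset.mem_sdiff] at hv
      obtain ⟨u, hu, hb⟩ := hmax v hv.1 hv.2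
      have := Finset.single_le_sum (f := fun u => f v u) (fun u _ => hf0 v u) hu
      have e : f v u = 1 := by
        simp only [hf]
        rw [if_pos ⟨fun e => hv.2 (e ▸ hu), hb⟩]
      linarith
    have h3 : ((T \ I).card : ℝ) ≤ ∑ v ∈ T \ I, ∑ u ∈ I, f v u := by
      calc _ = ∑ _v ∈ T \ I, (1 : ℝ) := by simp
        _ ≤ _ := Finset.sum_le_sum h2
    have h4 : Dbad bad T = Dbad bad (T \ I) + ∑ v ∈ T \ I, ∑ u ∈ I, f v u
        + (∑ u ∈ I, ∑ v ∈ T \ I, f u v + ∑ u ∈ I, ∑ v ∈ I, f u v) := by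
      unfold Dbad
      rw [← Finset.sum_add_distrib, ← Finset.sum_add_distrib, ← Finset.sum_sdiff hIT]
      congr 1
      · exact Finset.sum_congr rfl fun i _ => (Finset.sum_sdiff hIT).symm
      · exact Finset.sum_congr rfl fun i _ => (Finset.sum_sdiff hIT).symm
    have h5 : ∑ u ∈ I, ∑ v ∈ T \ I, f u v = ∑ v ∈ T \ I, ∑ u ∈ I, f v u := by
      rw [Finset.sum_comm]
      exact Finset.sum_congr rfl fun v _ => Finset.sum_congr rfl fun u _ => hfs u v
    have h6 : 0 ≤ ∑ u ∈ I, ∑ v ∈ I, f u v :=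
      Finset.sum_nonneg fun u _ => Finset.sum_nonneg fun v _ => hf0 u v
    rw [hcard] at h1 h3
    have hiT : (I.card : ℝ) ≤ T.card := by exact_mod_cast Finset.card_le_card hIT
    have hi0 : (0 : ℝ) ≤ I.card := Nat.cast_nonneg _
    generalize (T.card : ℝ) = n at *
    generalize (I.card : ℝ) = i at *
    have h7 : n * (n - α) / α ≤ (n - i) * (n - i - α) / α + 2 * (n - i) := by
      rw [div_add' _ _ _ hα.ne', div_le_div_iff_of_pos_right hα]
      nlinarith [mul_nonneg (sub_nonneg.mpr hiα) (show 0 ≤ 2 * n - i by linarith)]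
    linarith

theorem En_ge_Dbad {φ : ℝ → ℝ} (hφ : ∀ r, 0 ≤ r → 0 ≤ φ r) {K : ℝ} (hK : 0 ≤ K) {ι : Type}
    [Fintype ι] (x : ι → Pt) (bad : ι → ι → Prop)
    (hbad : ∀ i j, i ≠ j → bad i j → K ≤ φ (dist (x i) (x j))) (T : Finset ι) :
    K / 2 * Dbad bad T ≤ En φ x := by
  unfold Dbad En
  have h1 : ∀ i j, K * (if i ≠ j ∧ bad i j then 1 else 0)
      ≤ @ite ℝ (i = j) (Classical.propDecidable _) 0 (φ (dist (x i) (x j))) := by
    intro i j
    by_cases h : i ≠ j ∧ bad i j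
    · rw [if_pos h, if_neg h.1, mul_one]; exact hbad i j h.1 h.2
    · rw [if_neg h, mul_zero]
      split_ifs
      · exact le_rfl
      · exact hφ _ dist_nonneg
  have h0 : ∀ i j, 0 ≤ @ite ℝ (i = j) (Classical.propDecidable _) 0 (φ (dist (x i) (x j))) := by
    intro i j
    split_ifs
    · exact le_rfl
    · exact hφ _ dist_nonneg
  have h2 : K * ∑ i ∈ T, ∑ j ∈ T, (if i ≠ j ∧ bad i j then (1 : ℝ) else 0)
      ≤ ∑ i, ∑ j, @ite ℝ (i = j) (Classical.propDecidable _) 0 (φ (dist (x i) (x j))) := by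
    rw [Finset.mul_sum]
    refine le_trans (Finset.sum_le_sum fun i _ => ?_)
      (Finset.sum_le_sum_of_subset_of_nonneg (Finset.subset_univ T)
        fun i _ _ => Finset.sum_nonneg fun j _ => h0 i j)
    rw [Finset.mul_sum]
    exact le_trans (Finset.sum_le_sum fun j _ => h1 i j)
      (Finset.sum_le_sum_of_subset_of_nonneg (Finset.subset_univ T) fun j _ _ => h0 i j)
  linarith

end Crest.Agent.R149
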