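import Crest.Agent.R149.Basic

set_option autoImplicit false

namespace Crest.Agent.R149

open MeasureTheory Crest.ProbabilityR.Continuum Classical
open scoped ENNReal BigOperators

/-- Normalised configuration integral. -/
noncomputable def Zn (ψ : ℝ → ℝ) (ℓ : ℝ) (n : ℕ) : ℝ≥0∞ := Zc ψ ℓ n / (n.factorial : ℝ≥0∞)

/-- Size of a fibre. -/
noncomputable def fib {ι C : Type} [Fintype ι] (a : ι → C) (c : C) : ℕ := Fintype.card {i // a i = c}

theorem fib_eq_sum {ι C : Type} [Fintype ι] (a : ι → C) (c : C) :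
    fib a c = ∑ i, if a i = c then 1 else 0 := by
  unfold fib
  rw [Fintype.card_subtype, Finset.card_filter]

theorem sum_fib {ι C : Type} [Fintype ι] [Fintype C] (a : ι → C) :
    ∑ c, fib a c = Fintype.card ι := by
  simp_rw [fib_eq_sum]
  rw [Finset.sum_comm]
  simp

theorem fib_sigma {C : Type} [Fintype C] (n : C → ℕ) (c : C) :
    fib (Sigma.fst : ((c : C) × Fin (n c)) → C) c = n c := by
  rw [fib_eq_sum, Fintype.sum_sigma]
  have : ∀ x : C, (∑ _y : Fin (n x), if x = c then 1 else 0) = if x = c then n x else 0 := by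
    intro x; split_ifs <;> simp
  simp only [this]
  rw [Finset.sum_ite_eq']
  simp

theorem prod_bf_res {ψ : ℝ → ℝ} {ι C : Type} [Fintype ι] [Fintype C] (a : ι → C) (x : ι → Pt) :
    ∏ c, bf ψ (res a c x) = ENNReal.ofReal (Real.exp (-∑ c, EnR ψ a c x)) := by
  unfold bf EnR
  rw [← ENNReal.ofReal_prod_of_nonneg (fun c _ => (Real.exp_pos _).le), ← Real.exp_sum,
    Finset.sum_neg_distrib]

theorem lintegral_cells {ψ : ℝ → ℝ} (hψ : Measurable ψ) {ι C : Type} [Fintype ι] [Fintype C]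
    (a : ι → C) (v : C → Pt) (ℓ : ℝ) :
    ∫⁻ x in Set.pi Set.univ (fun i => tcube (v (a i)) ℓ), ∏ c, bf ψ (res a c x)
      = ∏ c, Zc ψ ℓ (fib a c) := by
  rw [lintegral_factor a (fun c => tcube (v c) ℓ) (fun c y => bf ψ y) (fun c => measurable_bf hψ)]
  refine Finset.prod_congr rfl fun c _ => ?_
  exact Zp_tcube hψ (v c) ℓ

theorem card_perm_le {ι C : Type} [Fintype ι] [Fintype C] (a : ι → C) :
    (Fintype.card ι).factorial ≤ (∏ c, (fib a c).factorial) *
      (Finset.univ.image fun π : Equiv.Perm ι => a ∘ π).card := by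
  rw [← Fintype.card_perm, ← Finset.card_univ]
  refine Finset.card_le_mul_card_image _ _ ?_
  intro b hb
  obtain ⟨π₀, -, rfl⟩ := Finset.mem_image.mp hb
  have h := DomMulAct.stabilizer_card a
  unfold fib
  rw [← h, Fintype.card_subtype]
  refine Finset.card_le_card_of_injOn (fun π => π * π₀⁻¹) ?_ ?_
  · intro π hπ
    simp only [Finset.coe_filter, Finset.mem_univ, true_and, Set.mem_ofPred_eq] at hπ ⊢
    funext i
    have := congrFun hπ (π₀⁻¹ i)
    simpa using this
  · intro π _ π' _ h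
    simpa using h

/-- General superadditivity: placing prescribed groups of particles in disjoint cells. -/
theorem SAgen {ψ ψ' : ℝ → ℝ} (hψ : Measurable ψ) (hψ' : Measurable ψ') {ι C : Type} [Fintype ι]
    [Fintype C] (a : ι → C) (v : C → Pt) (ℓ L w : ℝ)
    (hsub : ∀ c, tcube (v c) ℓ ⊆ cube L)
    (hdisj : ∀ c c', c ≠ c' → Disjoint (tcube (v c) ℓ) (tcube (v c') ℓ))
    (hE : ∀ x : ι → Pt, (∀ i, x i ∈ tcube (v (a i)) ℓ) → En ψ x ≤ ∑ c, EnR ψ' a c x + w) :
    ENNReal.ofReal (Real.exp (-w)) * ∏ c, Zn ψ' ℓ (fib a c) ≤ Zn ψ L (Fintype.card ι) := by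
  set S := Finset.univ.image fun π : Equiv.Perm ι => a ∘ π with hS
  set I := Zp ψ (fun i => tcube (v (a i)) ℓ) with hI
  have h1 : ENNReal.ofReal (Real.exp (-w)) * ∏ c, Zc ψ' ℓ (fib a c) ≤ I := by
    rw [← lintegral_cells hψ' a v ℓ, ← lintegral_const_mul' _ _ ENNReal.ofReal_ne_top]
    refine setLIntegral_mono' (MeasurableSet.univ_pi fun i => measurableSet_tcube _ _) ?_
    intro x hx
    rw [prod_bf_res, ← ENNReal.ofReal_mul (Real.exp_pos _).le, ← Real.exp_add]
    unfold bf
    refine ENNReal.ofReal_le_ofReal (Real.exp_le_exp.mpr ?_)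
    have := hE x (fun i => hx i (Set.mem_univ _))
    linarith
  have h2 : (S.card : ℝ≥0∞) * I ≤ Zc ψ L (Fintype.card ι) := by
    have h3 : ∀ b ∈ S, Zp ψ (fun i => tcube (v (b i)) ℓ) = I := by
      intro b hb
      obtain ⟨π, -, rfl⟩ := Finset.mem_image.mp hb
      exact Zp_reindex' hψ π (fun i => tcube (v (a i)) ℓ) (fun i => measurableSet_tcube _ _)
    have h4 : (S.card : ℝ≥0∞) * I = ∑ b ∈ S, Zp ψ (fun i => tcube (v (b i)) ℓ) := by
      rw [Finset.sum_congr rfl h3]; simp
    rw [h4, Zc, ← Zp_reindex hψ (Fintype.equivFin ι) _ (measurableSet_cube L)]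
    unfold Zp
    rw [← lintegral_biUnion_finset]
    · refine lintegral_mono_set ?_
      intro x hx
      simp only [Set.mem_iUnion] at hx
      obtain ⟨b, -, hb⟩ := hx
      intro i _
      exact hsub _ (hb i (Set.mem_univ _))
    · intro b _ b' _ hbb'
      rw [Function.onFun, Set.disjoint_left]
      intro x hx hx'
      apply hbb'
      funext i
      by_contra hne
      exact Set.disjoint_left.mp (hdisj _ _ hne) (hx i (Set.mem_univ _)) (hx' i (Set.mem_univ _))
    · intro b _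
      exact MeasurableSet.univ_pi fun i => measurableSet_tcube _ _
  have h5 := card_perm_le a
  rw [← hS] at h5
  have h6 : ((Fintype.card ι).factorial : ℝ≥0∞) ≤ (∏ c, ((fib a c).factorial : ℝ≥0∞)) * S.card := by
    exact_mod_cast h5
  unfold Zn
  have hP0 : (∏ c, ((fib a c).factorial : ℝ≥0∞)) ≠ 0 :=
    Finset.prod_ne_zero_iff.mpr fun c _ => by exact_mod_cast Nat.factorial_ne_zero _
  have hPt : (∏ c, ((fib a c).factorial : ℝ≥0∞)) ≠ ⊤ :=
    ENNReal.prod_ne_top fun c _ => ENNReal.natCast_ne_top _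
  have hN0 : ((Fintype.card ι).factorial : ℝ≥0∞) ≠ 0 := by exact_mod_cast Nat.factorial_ne_zero _
  have h7 : ∏ c, Zc ψ' ℓ (fib a c) / ((fib a c).factorial : ℝ≥0∞)
      = (∏ c, Zc ψ' ℓ (fib a c)) / ∏ c, ((fib a c).factorial : ℝ≥0∞) := by
    simp_rw [div_eq_mul_inv]
    rw [Finset.prod_mul_distrib, ENNReal.prod_inv_distrib]
    intro c _ c' _ _
    exact Or.inl (by exact_mod_cast Nat.factorial_ne_zero _)
  rw [h7, ← mul_div_assoc, ENNReal.le_div_iff_mul_le (Or.inl hN0) (Or.inl (ENNReal.natCast_ne_top _))]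
  calc _ ≤ I / (∏ c, ((fib a c).factorial : ℝ≥0∞)) * ((∏ c, ((fib a c).factorial : ℝ≥0∞)) * S.card) := by
        gcongr
    _ = S.card * I := by
        rw [← mul_assoc, ENNReal.div_mul_cancel hP0 hPt, mul_comm]
    _ ≤ _ := h2

theorem sum_prod_fib_factorial (C : Type) [Fintype C] (N : ℕ) :
    ∑ a : Fin N → C, ∏ c, (fib a c).factorial = (Fintype.card C).ascFactorial N := by
  induction N with
  | zero => simp [fib]
  | succ N ih =>
    rw [← (Fin.consEquiv fun _ : Fin (N + 1) => C).sum_comp, Fintype.sum_prod_type_right]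
    have h1 : ∀ (a : Fin N → C) (c : C),
        ∏ c', (fib ((Fin.consEquiv fun _ : Fin (N + 1) => C) (c, a)) c').factorial
          = (fib a c + 1) * ∏ c', (fib a c').factorial := by
      intro a c
      have h2 : ∀ c', fib ((Fin.consEquiv fun _ : Fin (N + 1) => C) (c, a)) c'
          = fib a c' + if c = c' then 1 else 0 := by
        intro c'
        rw [fib_eq_sum, fib_eq_sum, Fin.sum_univ_succ, add_comm]
        simp [Fin.consEquiv]
      simp_rw [h2]
      rw [← Finset.mul_prod_erase _ _ (Finset.mem_univ c),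
        ← Finset.mul_prod_erase _ (fun c' => (fib a c').factorial) (Finset.mem_univ c)]
      rw [if_pos rfl, Nat.factorial_succ, mul_assoc]
      congr 2
      refine Finset.prod_congr rfl fun c' hc' => ?_
      rw [if_neg (Finset.ne_of_mem_erase hc').symm, add_zero]
    simp_rw [h1]
    have h3 : ∀ a : Fin N → C, ∑ c, (fib a c + 1) * ∏ c', (fib a c').factorial
        = (Fintype.card C + N) * ∏ c', (fib a c').factorial := by
      intro a
      rw [← Finset.sum_mul, Finset.sum_add_distrib, sum_fib]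
      simp [add_comm]
    simp_rw [h3]
    rw [← Finset.mul_sum, ih, Nat.ascFactorial_succ]

theorem ascFactorial_le (M N : ℕ) {ℓ : ℝ} (hℓ : 0 < ℓ) :
    (M.ascFactorial N : ℝ) ≤ N.factorial * Real.exp (M * ℓ + N / ℓ) := by
  rw [Nat.ascFactorial_eq_factorial_mul_choose']
  push_cast
  refine mul_le_mul_of_nonneg_left ?_ (by positivity)
  have h1 : ((M + N - 1).choose N : ℝ) ≤ (N + M).choose N := by
    exact_mod_cast Nat.choose_le_choose N (by omega)
  have h2 : ℓ ^ N * 1 ^ (N + M - N) * ((N + M).choose N : ℝ) ≤ (ℓ + 1) ^ (N + M) := by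
    rw [add_pow]
    exact Finset.single_le_sum (f := fun k => ℓ ^ k * 1 ^ (N + M - k) * ((N + M).choose k : ℝ))
      (fun k _ => by positivity) (Finset.mem_range.mpr (by omega))
  have h3 : (ℓ + 1) ^ (N + M) ≤ ℓ ^ N * Real.exp (M * ℓ + N / ℓ) := by
    rw [pow_add, Real.exp_add, mul_comm (Real.exp _), ← mul_assoc]
    have h4 : (ℓ + 1) ^ M ≤ Real.exp (M * ℓ) := by
      rw [Real.exp_nat_mul]
      exact pow_le_pow_left₀ (by positivity) (Real.add_one_le_exp ℓ) M
    have h5 : (ℓ + 1) ^ N ≤ ℓ ^ N * Real.exp (N / ℓ) := by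
      rw [div_eq_mul_inv, Real.exp_nat_mul, ← mul_pow]
      refine pow_le_pow_left₀ (by positivity) ?_ N
      have := Real.add_one_le_exp ℓ⁻¹
      have h6 : ℓ * (ℓ⁻¹ + 1) = ℓ + 1 := by field_simp; ring
      nlinarith
    exact mul_le_mul h5 h4 (by positivity) (by positivity)
  rw [one_pow, mul_one] at h2
  have h7 := h2.trans h3
  have h8 : ((N + M).choose N : ℝ) ≤ Real.exp (M * ℓ + N / ℓ) :=
    le_of_mul_le_mul_left h7 (by positivity)
  exact h1.trans h8

/-- General upper factorisation bound. -/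
theorem UBgen {ψ ψ' : ℝ → ℝ} (hψ' : Measurable ψ') {J C : Type} [Fintype J] [Fintype C]
    (v : J → C → Pt) {ℓ : ℝ} (hℓ : 0 < ℓ) (L : ℝ) (N : ℕ) (h : ℕ → ℝ) (α ν : ℝ)
    (hE : ∀ x : Fin N → Pt, (∀ i, x i ∈ cube L) → ∃ (j : J) (a : Fin N → C),
      (∀ i, x i ∈ tcube (v j (a i)) ℓ) ∧ ∑ c, EnR ψ' a c x - ∑ c, h (fib a c) ≤ En ψ x)
    (hZ : ∀ n, Zn ψ' ℓ n * ENNReal.ofReal (Real.exp (h n)) ≤ ENNReal.ofReal (Real.exp (-α - ν * n))) :
    Zn ψ L N ≤ ENNReal.ofReal (Fintype.card J *
      Real.exp (Fintype.card C * ℓ + N / ℓ - Fintype.card C * α - ν * N)) := by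
  set F : J × (Fin N → C) → (Fin N → Pt) → ℝ≥0∞ := fun p x =>
    (Set.pi Set.univ (fun i => tcube (v p.1 (p.2 i)) ℓ)).indicator
      (fun x => (∏ c, bf ψ' (res p.2 c x)) * ∏ c, ENNReal.ofReal (Real.exp (h (fib p.2 c)))) x with hF
  have hmb : ∀ a : Fin N → C, Measurable fun x : Fin N → Pt => ∏ c, bf ψ' (res a c x) := fun a =>
    Finset.measurable_prod _ fun c _ => (measurable_bf hψ').comp
      (measurable_pi_lambda _ fun i => measurable_pi_apply _)
  have hFm : ∀ p, Measurable (F p) := fun p =>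
    ((hmb p.2).mul_const _).indicator (MeasurableSet.univ_pi fun i => measurableSet_tcube _ _)
  have h1 : Zc ψ L N ≤ ∑ p, ∫⁻ x, F p x := by
    rw [← lintegral_finsetSum _ (fun p _ => hFm p)]
    unfold Zc Zp
    refine le_trans ?_ (setLIntegral_le_lintegral (Set.pi Set.univ fun _ : Fin N => cube L) _)
    refine setLIntegral_mono' (MeasurableSet.univ_pi fun i => measurableSet_cube _) ?_
    intro x hx
    obtain ⟨j, a, hxa, hEa⟩ := hE x (fun i => hx i (Set.mem_univ _))
    refine le_trans ?_ (Finset.single_le_sum (f := fun p => F p x) (fun _ _ => zero_le)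
      (Finset.mem_univ (j, a)))
    simp only [hF]
    rw [Set.indicator_of_mem (by intro i _; exact hxa i), prod_bf_res,
      ← ENNReal.ofReal_prod_of_nonneg (fun c _ => (Real.exp_pos _).le), ← Real.exp_sum,
      ← ENNReal.ofReal_mul (Real.exp_pos _).le, ← Real.exp_add]
    unfold bf
    refine ENNReal.ofReal_le_ofReal (Real.exp_le_exp.mpr ?_)
    linarith
  have h2 : ∀ p : J × (Fin N → C), ∫⁻ x, F p x ≤ ((∏ c, (fib p.2 c).factorial : ℕ) : ℝ≥0∞) *
      ENNReal.ofReal (Real.exp (- Fintype.card C * α - ν * N)) := by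
    intro p
    simp only [hF]
    rw [lintegral_indicator (MeasurableSet.univ_pi fun i => measurableSet_tcube _ _),
      lintegral_mul_const _ (hmb p.2), lintegral_cells hψ' p.2 (v p.1) ℓ, ← Finset.prod_mul_distrib]
    have h3 : ∀ c, Zc ψ' ℓ (fib p.2 c) * ENNReal.ofReal (Real.exp (h (fib p.2 c)))
        ≤ ((fib p.2 c).factorial : ℝ≥0∞) * ENNReal.ofReal (Real.exp (-α - ν * fib p.2 c)) := by
      intro c
      have h4 := hZ (fib p.2 c)
      have h5 : Zc ψ' ℓ (fib p.2 c) = ((fib p.2 c).factorial : ℝ≥0∞) * Zn ψ' ℓ (fib p.2 c) := by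
        unfold Zn
        rw [ENNReal.mul_div_cancel (by exact_mod_cast Nat.factorial_ne_zero _)
          (ENNReal.natCast_ne_top _)]
      rw [h5, mul_assoc]
      gcongr
    refine (Finset.prod_le_prod' fun c _ => h3 c).trans (le_of_eq ?_)
    rw [Finset.prod_mul_distrib, ← ENNReal.ofReal_prod_of_nonneg (fun c _ => (Real.exp_pos _).le),
      ← Real.exp_sum]
    push_cast
    congr 3
    have h6 : (∑ c, (fib p.2 c : ℝ)) = N := by
      have := sum_fib p.2
      rw [Fintype.card_fin] at this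
      exact_mod_cast this
    rw [Finset.sum_sub_distrib, ← Finset.mul_sum, h6]
    simp
  have h7 : ∑ p : J × (Fin N → C), ((∏ c, (fib p.2 c).factorial : ℕ) : ℝ≥0∞)
      = ((Fintype.card J * (Fintype.card C).ascFactorial N : ℕ) : ℝ≥0∞) := by
    rw [← Nat.cast_sum, Fintype.sum_prod_type, ← sum_prod_fib_factorial]
    simp
  have h8 : Zc ψ L N ≤ ((Fintype.card J * (Fintype.card C).ascFactorial N : ℕ) : ℝ≥0∞) *
      ENNReal.ofReal (Real.exp (- Fintype.card C * α - ν * N)) := by
    rw [← h7, Finset.sum_mul]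
    exact h1.trans (Finset.sum_le_sum fun p _ => h2 p)
  unfold Zn
  rw [ENNReal.div_le_iff (by exact_mod_cast Nat.factorial_ne_zero _) (ENNReal.natCast_ne_top _)]
  refine h8.trans ?_
  rw [← ENNReal.ofReal_natCast, ← ENNReal.ofReal_natCast, ← ENNReal.ofReal_mul (by positivity),
    ← ENNReal.ofReal_mul (by positivity)]
  refine ENNReal.ofReal_le_ofReal ?_
  have h9 := ascFactorial_le (Fintype.card C) N hℓ
  push_cast
  have h10 : Real.exp (Fintype.card C * ℓ + N / ℓ - Fintype.card C * α - ν * N)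
      = Real.exp (Fintype.card C * ℓ + N / ℓ) * Real.exp (- Fintype.card C * α - ν * N) := by
    rw [← Real.exp_add]; congr 1; ring
  rw [h10]
  calc _ ≤ (Fintype.card J : ℝ) * (N.factorial * Real.exp (Fintype.card C * ℓ + N / ℓ)) *
        Real.exp (- Fintype.card C * α - ν * N) := by gcongr
    _ = _ := by ring

end Crest.Agent.R149
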