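import Crest.Agent.R149.CMP

set_option autoImplicit false

namespace Crest.Agent.R149

open MeasureTheory Crest.ProbabilityR.Continuum Classical Filter Topology
open scoped ENNReal BigOperators

/-- The basic doubly exponential sequence. -/
def Yk (y k : ℕ) : ℕ := y ^ 2 ^ k

/-- Length scales. -/
noncomputable def Rk (y k : ℕ) : ℝ := (Yk y k : ℝ) ^ 32

/-- Total strength of the scales `k ≥ 1`. -/
noncomputable def rest (y : ℕ) : ℝ := ∑' j, 1 / (Yk y (j + 1) : ℝ) ^ 2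

/-- Strengths. -/
noncomputable def ak (A : ℝ) (y k : ℕ) : ℝ := if k = 0 then A - rest y else 1 / (Yk y k : ℝ) ^ 2

/-- The attraction from scales `≥ k`. -/
noncomputable def Tt (A : ℝ) (y k : ℕ) : ℝ → ℝ := fun r => ∑' j, ak A y (j + k) * uu (Rk y (j + k)) r

/-- Its mass. -/
noncomputable def At (A : ℝ) (y k : ℕ) : ℝ := ∑' j, ak A y (j + k)

/-- The attraction from scales `< k`. -/
noncomputable def Low (A : ℝ) (y k : ℕ) : ℝ → ℝ := ∑ j ∈ Finset.range k, ak A y j • uu (Rk y j)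

/-- Its mass. -/
noncomputable def Sg (A : ℝ) (y k : ℕ) : ℝ := ∑ j ∈ Finset.range k, ak A y j

variable {A : ℝ} {y : ℕ}

theorem Yk_succ (y k : ℕ) : Yk y (k + 1) = Yk y k ^ 2 := by
  unfold Yk; rw [pow_succ, pow_mul]

theorem Yk_ge (hy : 2 ≤ y) (k : ℕ) : (2 : ℝ) ^ (k + 1) ≤ Yk y k := by
  have h1 : 2 ^ (k + 1) ≤ 2 ^ 2 ^ k := Nat.pow_le_pow_right (by norm_num) (Nat.lt_two_pow_self)
  have h2 : 2 ^ 2 ^ k ≤ y ^ 2 ^ k := Nat.pow_le_pow_left hy _
  exact_mod_cast h1.trans h2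

theorem Yk_ge_y (hy : 2 ≤ y) (k : ℕ) : (y : ℝ) ≤ Yk y k := by
  have : y ^ 1 ≤ y ^ 2 ^ k := Nat.pow_le_pow_right (by omega) (Nat.one_le_two_pow)
  rw [pow_one] at this
  exact_mod_cast this

theorem Yk_ge_two (hy : 2 ≤ y) (k : ℕ) : (2 : ℝ) ≤ Yk y k :=
  le_trans (by exact_mod_cast hy) (Yk_ge_y hy k)

theorem Yk_pos (hy : 2 ≤ y) (k : ℕ) : (0 : ℝ) < Yk y k := by linarith [Yk_ge_two hy k]

theorem Yk_mono (hy : 2 ≤ y) {j k : ℕ} (h : j ≤ k) : (Yk y j : ℝ) ≤ Yk y k := by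
  have : y ^ 2 ^ j ≤ y ^ 2 ^ k :=
    Nat.pow_le_pow_right (by omega) (Nat.pow_le_pow_right (by norm_num) h)
  exact_mod_cast this

theorem Rk_pos (hy : 2 ≤ y) (k : ℕ) : 0 < Rk y k := pow_pos (Yk_pos hy k) _

theorem Rk_ge (hy : 2 ≤ y) (k : ℕ) : 4 ≤ Rk y k := by
  have h := pow_le_pow_left₀ (by norm_num) (Yk_ge_two hy k) 32
  unfold Rk
  refine le_trans ?_ h
  norm_num

theorem Rk_ge_two (hy : 2 ≤ y) (k : ℕ) : 2 ≤ Rk y k := by linarith [Rk_ge hy k]

theorem Rk_mono (hy : 2 ≤ y) {j k : ℕ} (h : j ≤ k) : Rk y j ≤ Rk y k :=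
  pow_le_pow_left₀ (Yk_pos hy j).le (Yk_mono hy h) _

theorem inv_Yk_le (hy : 2 ≤ y) (k : ℕ) : 1 / (Yk y k : ℝ) ≤ (1 / 2) ^ (k + 1) := by
  rw [one_div_pow]
  exact one_div_le_one_div_of_le (by positivity) (Yk_ge hy k)

theorem inv_Yk_sq_le (hy : 2 ≤ y) (k : ℕ) : 1 / (Yk y k : ℝ) ^ 2 ≤ (1 / 2) ^ (k + 1) := by
  refine le_trans ?_ (inv_Yk_le hy k)
  have := Yk_ge_two hy k
  exact one_div_le_one_div_of_le (by linarith) (by nlinarith)

theorem summable_rest (hy : 2 ≤ y) : Summable fun j => 1 / (Yk y (j + 1) : ℝ) ^ 2 := by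
  refine Summable.of_nonneg_of_le (fun j => by positivity) (fun j => ?_) summable_geometric_two
  refine (inv_Yk_sq_le hy (j + 1)).trans ?_
  exact pow_le_pow_of_le_one (by norm_num) (by norm_num) (by omega)

theorem rest_le (hy : 2 ≤ y) : rest y ≤ 1 := by
  have h : ∀ j, 1 / (Yk y (j + 1) : ℝ) ^ 2 ≤ (1 / 2) * (1 / 2) ^ j := fun j => by
    refine (inv_Yk_sq_le hy (j + 1)).trans ?_
    rw [← pow_succ']
    exact pow_le_pow_of_le_one (by norm_num) (by norm_num) (by omega)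
  have := (summable_rest hy).tsum_le_tsum h (summable_geometric_two.mul_left _)
  rw [tsum_mul_left, tsum_geometric_two] at this
  unfold rest
  linarith

theorem rest_nonneg (y : ℕ) : 0 ≤ rest y := tsum_nonneg fun j => by positivity

theorem ak_succ (A : ℝ) (y k : ℕ) : ak A y (k + 1) = 1 / (Yk y (k + 1) : ℝ) ^ 2 := by simp [ak]

theorem ak_pos (hA : 2 ≤ A) (hy : 2 ≤ y) (k : ℕ) : 0 < ak A y k := by
  unfold ak
  split_ifs
  · linarith [rest_le hy]
  · have := Yk_pos hy k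
    positivity

theorem summable_ak (hy : 2 ≤ y) (k : ℕ) : Summable fun j => ak A y (j + k) := by
  have h : Summable fun j => ak A y j := by
    rw [← summable_nat_add_iff 1]
    simp_rw [ak_succ]
    exact summable_rest hy
  exact (summable_nat_add_iff k).mpr h

theorem At_zero (hy : 2 ≤ y) : At A y 0 = A := by
  unfold At
  simp only [add_zero]
  have h := summable_ak (A := A) hy 0
  simp only [add_zero] at h
  rw [h.tsum_eq_zero_add]
  simp_rw [ak_succ]
  simp [ak, rest]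

theorem term_le (hA : 2 ≤ A) (hy : 2 ≤ y) (j : ℕ) (r : ℝ) :
    ‖ak A y j * uu (Rk y j) r‖ ≤ ak A y j * 16 := by
  have h0 := ak_pos hA hy j
  have hR := Rk_pos hy j
  rw [Real.norm_eq_abs, abs_of_nonneg (mul_nonneg h0.le (uu_nonneg hR r))]
  refine mul_le_mul_of_nonneg_left ((uu_le hR r).trans ?_) h0.le
  rw [div_le_iff₀ (by positivity)]
  have := one_le_pow₀ (n := 3) (show 1 ≤ Rk y j by linarith [Rk_ge hy j])
  linarith

theorem summable_Tt (hA : 2 ≤ A) (hy : 2 ≤ y) (k : ℕ) (r : ℝ) :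
    Summable fun j => ak A y (j + k) * uu (Rk y (j + k)) r :=
  Summable.of_norm_bounded ((summable_ak hy k).mul_right 16) fun j => term_le hA hy _ r

theorem tail_Tt (hA : 2 ≤ A) (hy : 2 ≤ y) (k : ℕ) : Tail (Tt A y k) (At A y k) (Rk y k) := by
  have := Tail.tsum (τ := fun j => ak A y (j + k) • uu (Rk y (j + k))) (A := fun j => ak A y (j + k))
    (Rk_pos hy k) (fun j => by
      have := ((tail_uu (Rk_pos hy (j + k))).smul (ak_pos hA hy (j + k)).le).mono (Rk_pos hy k)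
        (Rk_mono hy (by omega))
      rwa [mul_one] at this) (summable_ak hy k) (summable_Tt hA hy k)
  exact this

theorem Tt_succ (hA : 2 ≤ A) (hy : 2 ≤ y) (k : ℕ) :
    Tt A y k = ak A y k • uu (Rk y k) + Tt A y (k + 1) := by
  funext r
  simp only [Tt, Pi.add_apply, Pi.smul_apply, smul_eq_mul]
  rw [(summable_Tt hA hy k r).tsum_eq_zero_add, zero_add]
  congr 1
  refine tsum_congr fun j => ?_
  rw [show j + 1 + k = j + (k + 1) by ring]

theorem At_succ (hy : 2 ≤ y) (k : ℕ) : At A y k = ak A y k + At A y (k + 1) := by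
  unfold At
  rw [(summable_ak hy k).tsum_eq_zero_add, zero_add]
  congr 1
  refine tsum_congr fun j => ?_
  rw [show j + 1 + k = j + (k + 1) by ring]

theorem Tt_split (hA : 2 ≤ A) (hy : 2 ≤ y) (k : ℕ) : Tt A y 0 = Low A y k + Tt A y k := by
  induction k with
  | zero => simp [Low]
  | succ k ih =>
    rw [ih, Tt_succ hA hy k]
    unfold Low
    rw [Finset.sum_range_succ, add_assoc]

theorem At_split (hy : 2 ≤ y) (k : ℕ) : A = Sg A y k + At A y k := by
  induction k with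
  | zero => simp [Sg, At_zero hy]
  | succ k ih =>
    unfold Sg at *
    rw [Finset.sum_range_succ, add_assoc, ← At_succ hy k]
    exact ih

theorem Sg_nonneg (hA : 2 ≤ A) (hy : 2 ≤ y) (k : ℕ) : 0 ≤ Sg A y k :=
  Finset.sum_nonneg fun j _ => (ak_pos hA hy j).le

theorem Sg_le (hA : 2 ≤ A) (hy : 2 ≤ y) (k : ℕ) : Sg A y k ≤ A := by
  have := At_split (A := A) hy k
  have := (tail_Tt hA hy k).Anonneg
  linarith

theorem tail_zero : Tail 0 0 2 :=
  ⟨⟨measurable_const, fun _ => le_rfl, fun _ _ _ _ => le_rfl⟩, le_rfl,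
    fun d _ _ => by simp [Iup], fun d _ _ => by simp, by simp⟩

theorem tail_Low (hA : 2 ≤ A) (hy : 2 ≤ y) (k : ℕ) : Tail (Low A y k) (Sg A y k) 2 := by
  induction k with
  | zero => simpa [Low, Sg] using tail_zero
  | succ k ih =>
    unfold Low Sg at *
    rw [Finset.sum_range_succ, Finset.sum_range_succ]
    have := ((tail_uu (Rk_pos hy k)).smul (ak_pos hA hy k).le).mono two_pos (Rk_ge_two hy k)
    rw [mul_one] at this
    exact ih.add two_pos this

theorem Low_zero (hy : 2 ≤ y) (k : ℕ) (r : ℝ) (hr : (Yk y k : ℝ) ^ 16 ≤ r) : Low A y k r = 0 := by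
  unfold Low
  rw [Finset.sum_apply]
  refine Finset.sum_eq_zero fun j hj => ?_
  have hj' := Finset.mem_range.mp hj
  simp only [Pi.smul_apply, smul_eq_mul]
  rw [uu_zero (Rk_pos hy j), mul_zero]
  refine le_trans ?_ hr
  have h1 := Yk_mono hy (show j + 1 ≤ k by omega)
  have h2 := pow_le_pow_left₀ (Yk_pos hy _).le h1 16
  rw [Yk_succ] at h2
  push_cast at h2
  rw [← pow_mul] at h2
  exact h2

theorem Low_decomp (A : ℝ) (y k : ℕ) : Low A y k =
    ∑ i ∈ Finset.range k, Sg A y (i + 1) • (uu (Rk y i) - uu (Rk y (i + 1)))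
      + Sg A y k • uu (Rk y k) := by
  induction k with
  | zero => simp [Low, Sg]
  | succ k ih =>
    have e1 : Low A y (k + 1) = Low A y k + ak A y k • uu (Rk y k) := by
      unfold Low; rw [Finset.sum_range_succ]
    have e2 : Sg A y (k + 1) = Sg A y k + ak A y k := by
      unfold Sg; rw [Finset.sum_range_succ]
    rw [e1, ih, Finset.sum_range_succ, e2]
    funext r
    simp only [Pi.add_apply, Pi.smul_apply, Pi.sub_apply, smul_eq_mul]
    ring

theorem continuous_Tt (hA : 2 ≤ A) (hy : 2 ≤ y) : Continuous (Tt A y 0) :=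
  continuous_tsum (fun j => (continuous_uu _).const_mul _) ((summable_ak hy 0).mul_right 16)
    fun j r => term_le hA hy _ r

theorem Tt_le (hA : 2 ≤ A) (hy : 2 ≤ y) (r : ℝ) : Tt A y 0 r ≤ A * 16 := by
  have := (summable_Tt hA hy 0 r).tsum_le_tsum
    (fun j => (le_abs_self _).trans (term_le hA hy (j + 0) r)) ((summable_ak hy 0).mul_right 16)
  rw [tsum_mul_right] at this
  have e := At_zero (A := A) hy
  unfold At at e
  rw [e] at this
  exact this

theorem Tt_pos (hA : 2 ≤ A) (hy : 2 ≤ y) : 0 < Tt A y 0 3 := by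
  rw [Tt_succ hA hy 0]
  have h1 := uu_pos (Rk_pos hy 0) (r := 3) (by norm_num) (by linarith [Rk_ge hy 0])
  have h2 := (tail_Tt hA hy 1).dec.nonneg 3
  have h3 := ak_pos hA hy 0
  simp only [Pi.add_apply, Pi.smul_apply, smul_eq_mul]
  positivity

theorem Tt_decay (hA : 2 ≤ A) (hy : 2 ≤ y) :
    ∃ C : ℝ, ∀ r : ℝ, 0 < r → Tt A y 0 r ≤ C * r ^ (-(3 + 1 / 32 : ℝ)) := by
  have hy0 : (1 : ℝ) ≤ y := by exact_mod_cast (by omega : 1 ≤ y)
  refine ⟨16 * (A * y) * 2, fun r hr => ?_⟩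
  have hp : 0 < r ^ (-(3 + 1 / 32 : ℝ)) := Real.rpow_pos_of_pos hr _
  have h1 : ∀ j, ak A y j * Yk y j ≤ A * y * (1 / 2) ^ j := by
    intro j
    cases j with
    | zero =>
      have : ak A y 0 ≤ A := by simp [ak, rest_nonneg]
      simp only [Yk, pow_zero, pow_one, mul_one]
      gcongr
    | succ j =>
      have hY := Yk_pos hy (j + 1)
      have e : ak A y (j + 1) * Yk y (j + 1) = 1 / (Yk y (j + 1) : ℝ) := by
        rw [ak_succ]; field_simp
      rw [e]
      refine (inv_Yk_le hy (j + 1)).trans ?_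
      have a1 : ((1 : ℝ) / 2) ^ (j + 1 + 1) ≤ (1 / 2) ^ (j + 1) :=
        pow_le_pow_of_le_one (by norm_num) (by norm_num) (by omega)
      have a2 : (1 : ℝ) ≤ A * y := by nlinarith
      have a3 : (0 : ℝ) ≤ (1 / 2) ^ (j + 1) := by positivity
      nlinarith
  have h2 : ∀ j, ak A y (j + 0) * uu (Rk y (j + 0)) r
      ≤ 16 * (A * y) * r ^ (-(3 + 1 / 32 : ℝ)) * (1 / 2) ^ j := by
    intro j
    rw [add_zero]
    have hR := Rk_pos hy j
    have hY := Yk_pos hy j
    by_cases hrR : Rk y j ≤ r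
    · rw [uu_zero hR hrR, mul_zero]
      have : 0 < A := by linarith
      positivity
    push Not at hrR
    have a1 : (Rk y j) ^ (-(3 + 1 / 32 : ℝ)) ≤ r ^ (-(3 + 1 / 32 : ℝ)) :=
      Real.rpow_le_rpow_of_nonpos hr hrR.le (by norm_num)
    have a2 : (Rk y j) ^ (-(3 + 1 / 32 : ℝ)) = 1 / ((Rk y j) ^ 3 * Yk y j) := by
      unfold Rk
      have b1 : ((Yk y j : ℝ) ^ 32) ^ (-(3 + 1 / 32 : ℝ)) = (Yk y j : ℝ) ^ (-((97 : ℕ) : ℝ)) := by
        rw [← Real.rpow_natCast (Yk y j : ℝ) 32, ← Real.rpow_mul hY.le]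
        norm_num
      rw [b1, Real.rpow_neg hY.le, Real.rpow_natCast, ← pow_mul, ← pow_succ, one_div]
    have a3 : uu (Rk y j) r ≤ 16 * Yk y j * r ^ (-(3 + 1 / 32 : ℝ)) := by
      refine (uu_le hR r).trans ?_
      have e : 16 / (Rk y j) ^ 3 = 16 * Yk y j * (1 / ((Rk y j) ^ 3 * Yk y j)) := by field_simp
      rw [e, ← a2]
      gcongr
    calc _ ≤ ak A y j * (16 * Yk y j * r ^ (-(3 + 1 / 32 : ℝ))) :=
          mul_le_mul_of_nonneg_left a3 (ak_pos hA hy j).le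
      _ = 16 * r ^ (-(3 + 1 / 32 : ℝ)) * (ak A y j * Yk y j) := by ring
      _ ≤ 16 * r ^ (-(3 + 1 / 32 : ℝ)) * (A * y * (1 / 2) ^ j) :=
          mul_le_mul_of_nonneg_left (h1 j) (by positivity)
      _ = _ := by ring
  have := (summable_Tt hA hy 0 r).tsum_le_tsum h2 (summable_geometric_two.mul_left _)
  rw [tsum_mul_left, tsum_geometric_two] at this
  unfold Tt
  linarith

end Crest.Agent.R149
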