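import Crest.Agent.R149.Wfun

set_option autoImplicit false

namespace Crest.Agent.R149

open MeasureTheory Crest.ProbabilityR.Continuum Classical Filter Topology
open scoped ENNReal BigOperators

theorem exists_even_list (r M : ℕ) (hM : 0 < M) :
    ∃ l : List ℕ, l.length = M ∧ l.sum = r ∧ ∀ n ∈ l, n ≤ r / M + 1 := by
  refine ⟨List.replicate (r % M) (r / M + 1) ++ List.replicate (M - r % M) (r / M), ?_, ?_, ?_⟩
  · have := Nat.mod_lt r hM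
    simp; omega
  · have h1 := Nat.mod_lt r hM
    have h2 := Nat.div_add_mod r M
    simp only [List.sum_append, List.sum_replicate, smul_eq_mul]
    obtain ⟨d, hd⟩ : ∃ d, M = r % M + d := ⟨M - r % M, by omega⟩
    have h3 : M - r % M = d := by omega
    rw [h3]
    set q := r / M
    set s := r % M
    calc s * (q + 1) + d * q = (s + d) * q + s := by ring
      _ = r := by rw [← hd]; exact h2
  · intro n hn
    rcases List.mem_append.mp hn with h | h <;> rw [List.eq_of_mem_replicate h] <;> omega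

theorem exists_W_bound (ψ : ℝ → ℝ) (ℓ : ℝ) (m : ℕ) :
    ∃ C : ℝ, 0 ≤ C ∧ ∀ n ≤ m, |W ψ ℓ n| ≤ C := by
  refine ⟨∑ n ∈ Finset.range (m + 1), |W ψ ℓ n|, by positivity, fun n hn => ?_⟩
  exact Finset.single_le_sum (f := fun n => |W ψ ℓ n|) (fun _ _ => abs_nonneg _)
    (Finset.mem_range.mpr (by omega))

theorem list_sum_le (f : ℕ → ℝ) (C : ℝ) (l : List ℕ) (h : ∀ n ∈ l, f n ≤ C) :
    (l.map f).sum ≤ l.length * C := by
  induction l with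
  | nil => simp
  | cons a l ih =>
    simp only [List.map_cons, List.sum_cons, List.length_cons]
    have h1 := h a (by simp)
    have h2 := ih (fun n hn => h n (by simp [hn]))
    push_cast
    linarith

theorem tendsto_floor_div {b : ℝ} (hb : 0 < b) :
    Tendsto (fun L : ℝ => (⌊L / b⌋₊ : ℝ) / L) atTop (𝓝 (1 / b)) := by
  have := tendsto_nat_floor_mul_div_atTop (a := 1 / b) (by positivity)
  refine this.congr fun L => ?_
  rw [one_div, inv_mul_eq_div]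

theorem tendsto_floor_div_cube {b : ℝ} (hb : 0 < b) :
    Tendsto (fun L : ℝ => (⌊L / b⌋₊ : ℝ) ^ 3 / L ^ 3) atTop (𝓝 (1 / b ^ 3)) := by
  have := (tendsto_floor_div hb).pow 3
  simp_rw [div_pow, one_pow] at this
  exact this

theorem tendsto_inv_cube : Tendsto (fun L : ℝ => 1 / L ^ 3) atTop (𝓝 0) :=
  tendsto_const_nhds.div_atTop (tendsto_pow_atTop (by norm_num))

theorem tendsto_floor_vol {ρ : ℝ} (hρ : 0 ≤ ρ) :
    Tendsto (fun L : ℝ => (⌊ρ * L ^ 3⌋₊ : ℝ) / L ^ 3) atTop (𝓝 ρ) :=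
  (tendsto_nat_floor_mul_div_atTop hρ).comp (tendsto_pow_atTop (by norm_num))

theorem tendsto_shift_cube (c : ℝ) :
    Tendsto (fun L : ℝ => (L + c) ^ 3 / L ^ 3) atTop (𝓝 1) := by
  have h1 : Tendsto (fun L : ℝ => 1 + c / L) atTop (𝓝 (1 + 0)) :=
    tendsto_const_nhds.add (tendsto_const_nhds.div_atTop tendsto_id)
  have h2 := h1.pow 3
  simp only [add_zero, one_pow] at h2
  refine h2.congr' ?_
  filter_upwards [eventually_gt_atTop 0] with L hL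
  field_simp

/-- Mixing two cell occupations gives an asymptotic upper bound for the free energy. -/
theorem mix_upper {ψ : ℝ → ℝ} (hψ : Good ψ) {ℓ t ρ : ℝ} (hℓ : 0 < ℓ) (ht0 : 0 ≤ t) (ht1 : t ≤ 1)
    (n₁ n₂ : ℕ) (hρ : ρ * (ℓ + 2) ^ 3 = t * n₁ + (1 - t) * n₂) {ε : ℝ} (hε : 0 < ε) :
    ∀ᶠ L : ℝ in atTop, W ψ L ⌊ρ * L ^ 3⌋₊ / L ^ 3
      ≤ (t * W ψ ℓ n₁ + (1 - t) * W ψ ℓ n₂) / (ℓ + 2) ^ 3 + ε := by
  set b := ℓ + 2 with hb
  have hb0 : 0 < b := by positivity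
  set D := t * n₁ + (1 - t) * n₂ with hD
  have hD0 : 0 ≤ D := by have : 0 ≤ 1 - t := by linarith
                         positivity
  have hρ0 : 0 ≤ ρ := by
    by_contra h
    have : ρ * b ^ 3 < 0 := mul_neg_of_neg_of_pos (not_le.mp h) (by positivity)
    linarith
  obtain ⟨C, hC0, hC⟩ := exists_W_bound ψ ℓ (⌈D⌉₊ + 2 + n₁ + n₂)
  set Wm := t * W ψ ℓ n₁ + (1 - t) * W ψ ℓ n₂ with hWm
  obtain ⟨θ, hθ0, hθ1, hθε⟩ : ∃ θ : ℝ, 0 < θ ∧ θ ≤ 1 ∧ 2 * θ * C / b ^ 3 < ε := by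
    refine ⟨min 1 (ε * b ^ 3 / (2 * C + 1) / 2), by positivity, min_le_left _ _, ?_⟩
    rw [div_lt_iff₀ (by positivity)]
    have h1 : min 1 (ε * b ^ 3 / (2 * C + 1) / 2) ≤ ε * b ^ 3 / (2 * C + 1) / 2 := min_le_right _ _
    have h2 : 0 < ε * b ^ 3 / (2 * C + 1) := by positivity
    have h3 : ε * b ^ 3 / (2 * C + 1) * (2 * C + 1) = ε * b ^ 3 := by field_simp
    nlinarith
  -- the asymptotic bound
  have hlim : Tendsto (fun L : ℝ => (⌊L / b⌋₊ : ℝ) ^ 3 / L ^ 3 * (Wm + 2 * θ * C) + 4 * C * (1 / L ^ 3))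
      atTop (𝓝 (1 / b ^ 3 * (Wm + 2 * θ * C) + 4 * C * 0)) :=
    ((tendsto_floor_div_cube hb0).mul_const _).add (tendsto_inv_cube.const_mul _)
  have hlt : 1 / b ^ 3 * (Wm + 2 * θ * C) + 4 * C * 0 < Wm / b ^ 3 + ε := by
    have : 1 / b ^ 3 * (Wm + 2 * θ * C) + 4 * C * 0 = Wm / b ^ 3 + 2 * θ * C / b ^ 3 := by ring
    linarith
  -- the room condition
  have hroom : ∀ᶠ L : ℝ in atTop, ρ * L ^ 3 + n₁ + n₂ ≤ (D + θ) * (⌊L / b⌋₊ : ℝ) ^ 3 := by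
    have h1 : Tendsto (fun L : ℝ => (D + θ) * ((⌊L / b⌋₊ : ℝ) ^ 3 / L ^ 3) - (n₁ + n₂) * (1 / L ^ 3))
        atTop (𝓝 ((D + θ) * (1 / b ^ 3) - (n₁ + n₂) * 0)) :=
      ((tendsto_floor_div_cube hb0).const_mul _).sub (tendsto_inv_cube.const_mul _)
    have h2 : ρ < (D + θ) * (1 / b ^ 3) - (n₁ + n₂) * 0 := by
      have : ρ = D * (1 / b ^ 3) := by rw [← hρ]; field_simp
      have h3 : 0 < θ * (1 / b ^ 3) := by positivity
      linarith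
    filter_upwards [h1.eventually (lt_mem_nhds h2), eventually_gt_atTop 0] with L hL hL0
    have h4 : (D + θ) * ((⌊L / b⌋₊ : ℝ) ^ 3 / L ^ 3) - (n₁ + n₂) * (1 / L ^ 3)
        = ((D + θ) * (⌊L / b⌋₊ : ℝ) ^ 3 - (n₁ + n₂)) / L ^ 3 := by ring
    rw [h4, lt_div_iff₀ (by positivity)] at hL
    linarith
  filter_upwards [hlim.eventually (gt_mem_nhds hlt), hroom, eventually_ge_atTop b] with L hL hr hLb
  refine le_trans ?_ hL.le
  have hL0 : 0 < L := by linarith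
  set k := ⌊L / b⌋₊ with hk
  have hk1 : 1 ≤ k := by
    rw [hk, Nat.one_le_floor_iff, le_div_iff₀ hb0]; linarith
  have hkb : (k : ℝ) * b ≤ L := by
    rw [← le_div_iff₀ hb0]; exact Nat.floor_le (by positivity)
  set M : ℝ := (k : ℝ) ^ 3 with hM
  have hM0 : 0 < M := by positivity
  set M₁ := ⌊(1 - θ) * t * M⌋₊ with hM₁
  set M₂ := ⌊(1 - θ) * (1 - t) * M⌋₊ with hM₂
  have hθ' : 0 ≤ 1 - θ := by linarith
  have ht' : 0 ≤ 1 - t := by linarith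
  have h1u : (M₁ : ℝ) ≤ (1 - θ) * t * M := Nat.floor_le (by positivity)
  have h1l : (1 - θ) * t * M < M₁ + 1 := Nat.lt_floor_add_one _
  have h2u : (M₂ : ℝ) ≤ (1 - θ) * (1 - t) * M := Nat.floor_le (by positivity)
  have h2l : (1 - θ) * (1 - t) * M < M₂ + 1 := Nat.lt_floor_add_one _
  have hsum : (M₁ : ℝ) + M₂ + θ * M ≤ M := by linarith only [h1u, h2u]
  have hsumN : M₁ + M₂ < k ^ 3 := by
    have : (M₁ : ℝ) + M₂ < (k : ℝ) ^ 3 := by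
      have : 0 < θ * M := by positivity
      linarith
    exact_mod_cast this
  obtain ⟨M₃, hM₃⟩ : ∃ M₃, k ^ 3 = M₁ + M₂ + M₃ := ⟨k ^ 3 - (M₁ + M₂), by omega⟩
  have hM₃r : M = M₁ + M₂ + M₃ := by rw [hM]; exact_mod_cast hM₃
  have hM₃0 : 0 < M₃ := by omega
  set N := ⌊ρ * L ^ 3⌋₊ with hN
  have hNu : (N : ℝ) ≤ ρ * L ^ 3 := Nat.floor_le (by positivity)
  have hDM : D * M ≤ ρ * L ^ 3 := by
    rw [← hρ, mul_assoc, hM, ← mul_pow]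
    gcongr
    linarith
  have hn1 : (0 : ℝ) ≤ n₁ := Nat.cast_nonneg _
  have hn2 : (0 : ℝ) ≤ n₂ := Nat.cast_nonneg _
  have hused : (M₁ : ℝ) * n₁ + M₂ * n₂ ≤ (1 - θ) * D * M := by
    have a1 := mul_le_mul_of_nonneg_right h1u hn1
    have a2 := mul_le_mul_of_nonneg_right h2u hn2
    have : (1 - θ) * D * M = (1 - θ) * t * M * n₁ + (1 - θ) * (1 - t) * M * n₂ := by rw [hD]; ring
    linarith
  have hused' : (1 - θ) * D * M ≤ (M₁ : ℝ) * n₁ + M₂ * n₂ + n₁ + n₂ := by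
    have a1 := mul_le_mul_of_nonneg_right h1l.le hn1
    have a2 := mul_le_mul_of_nonneg_right h2l.le hn2
    have : (1 - θ) * D * M = (1 - θ) * t * M * n₁ + (1 - θ) * (1 - t) * M * n₂ := by rw [hD]; ring
    linarith
  have hle : M₁ * n₁ + M₂ * n₂ ≤ N := by
    rw [hN]
    refine Nat.le_floor ?_
    push_cast
    have : 0 ≤ θ * D * M := by positivity
    linarith only [this, hused, hDM]
  obtain ⟨r, hr'⟩ : ∃ r, N = M₁ * n₁ + M₂ * n₂ + r := ⟨N - (M₁ * n₁ + M₂ * n₂), by omega⟩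
  have hrr : (N : ℝ) = M₁ * n₁ + M₂ * n₂ + r := by exact_mod_cast hr'
  have hrle : (r : ℝ) ≤ (D + 1) * M₃ := by
    have a1 : θ * M ≤ M₃ := by linarith
    have a2 : (r : ℝ) ≤ (D + 1) * (θ * M) := by linarith only [hrr, hNu, hr, hused']
    exact a2.trans (mul_le_mul_of_nonneg_left a1 (by positivity))
  have hq : r / M₃ ≤ ⌈D⌉₊ + 1 := by
    refine Nat.div_le_of_le_mul ?_
    have a1 : D ≤ ⌈D⌉₊ := Nat.le_ceil D
    have a2 : (r : ℝ) ≤ M₃ * (⌈D⌉₊ + 1) := by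
      have : (0 : ℝ) ≤ M₃ := Nat.cast_nonneg _
      nlinarith only [this, a1, hrle]
    exact_mod_cast a2
  obtain ⟨l, hl1, hl2, hl3⟩ := exists_even_list r M₃ hM₃0
  have hSA := SAlist hψ hℓ hL0 (k := k) (by linarith)
    (List.replicate M₁ n₁ ++ List.replicate M₂ n₂ ++ l) (by simp; omega)
  simp only [List.sum_append, List.sum_replicate, smul_eq_mul, List.map_append,
    List.map_replicate, nsmul_eq_mul, hl2] at hSA
  rw [← hr'] at hSA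
  have hl4 : (l.map (W ψ ℓ)).sum ≤ M₃ * C := by
    rw [← hl1]
    refine list_sum_le _ _ _ fun n hn => (le_abs_self _).trans (hC n ?_)
    have := hl3 n hn
    omega
  have hw1 := abs_le.mp (hC n₁ (by omega))
  have hw2 := abs_le.mp (hC n₂ (by omega))
  have hA1 : (M₁ : ℝ) * W ψ ℓ n₁ ≤ t * M * W ψ ℓ n₁ + (θ * t * M + 1) * C := by
    have a1 : 0 ≤ t * M - M₁ := by
      have : 0 ≤ θ * t * M := by positivity
      linarith
    have a2 : t * M - M₁ ≤ θ * t * M + 1 := by linarith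
    have a3 : (t * M - M₁) * (-W ψ ℓ n₁) ≤ (t * M - M₁) * C :=
      mul_le_mul_of_nonneg_left (by linarith) a1
    have a4 : (t * M - M₁) * C ≤ (θ * t * M + 1) * C := mul_le_mul_of_nonneg_right a2 hC0
    linarith
  have hA2 : (M₂ : ℝ) * W ψ ℓ n₂ ≤ (1 - t) * M * W ψ ℓ n₂ + (θ * (1 - t) * M + 1) * C := by
    have a1 : 0 ≤ (1 - t) * M - M₂ := by
      have : 0 ≤ θ * (1 - t) * M := by positivity
      linarith
    have a2 : (1 - t) * M - M₂ ≤ θ * (1 - t) * M + 1 := by linarith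
    have a3 : ((1 - t) * M - M₂) * (-W ψ ℓ n₂) ≤ ((1 - t) * M - M₂) * C :=
      mul_le_mul_of_nonneg_left (by linarith) a1
    have a4 : ((1 - t) * M - M₂) * C ≤ (θ * (1 - t) * M + 1) * C := mul_le_mul_of_nonneg_right a2 hC0
    linarith
  have hA3 : (M₃ : ℝ) * C ≤ (θ * M + 2) * C := by
    refine mul_le_mul_of_nonneg_right ?_ hC0
    linarith
  have hfin : W ψ L N ≤ M * (Wm + 2 * θ * C) + 4 * C := by
    have : M * (Wm + 2 * θ * C) + 4 * C = t * M * W ψ ℓ n₁ + (θ * t * M + 1) * C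
        + ((1 - t) * M * W ψ ℓ n₂ + (θ * (1 - t) * M + 1) * C) + (θ * M + 2) * C := by
      rw [hWm]; ring
    linarith
  have : M / L ^ 3 * (Wm + 2 * θ * C) + 4 * C * (1 / L ^ 3)
      = (M * (Wm + 2 * θ * C) + 4 * C) / L ^ 3 := by ring
  rw [this]
  gcongr

theorem crude_upper {ψ : ℝ → ℝ} (hψ : Good ψ) {ρ : ℝ} (hρ : 0 ≤ ρ) :
    ∃ C : ℝ, 0 ≤ C ∧ ∀ L : ℝ, 3 ≤ L → ∀ n : ℕ, (n : ℝ) ≤ ρ * L ^ 3 → W ψ L n ≤ C * L ^ 3 := by
  obtain ⟨C, hC0, hC⟩ := exists_W_bound ψ 1 (⌈216 * ρ⌉₊ + 1)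
  refine ⟨C, hC0, fun L hL n hn => ?_⟩
  set k := ⌊L / 3⌋₊ with hk
  have hk1 : 1 ≤ k := by
    rw [hk, Nat.one_le_floor_iff, le_div_iff₀ (by norm_num)]; linarith
  have hk1r : (1 : ℝ) ≤ k := by exact_mod_cast hk1
  have hkb : (k : ℝ) ≤ L / 3 := Nat.floor_le (by positivity)
  have hkl : L / 3 < k + 1 := Nat.lt_floor_add_one _
  have hL6 : L ≤ 6 * k := by linarith
  obtain ⟨l, hl1, hl2, hl3⟩ := exists_even_list n (k ^ 3) (by positivity)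
  have hSA := SAlist hψ one_pos (by linarith : 0 < L) (k := k) (by linarith) l hl1.le
  rw [hl2] at hSA
  have hq : n / k ^ 3 ≤ ⌈216 * ρ⌉₊ := by
    refine Nat.div_le_of_le_mul ?_
    have a1 : 216 * ρ ≤ ⌈216 * ρ⌉₊ := Nat.le_ceil _
    have a2 : L ^ 3 ≤ (6 * k) ^ 3 := pow_le_pow_left₀ (by linarith) hL6 3
    have a3 : (n : ℝ) ≤ (k : ℝ) ^ 3 * ⌈216 * ρ⌉₊ := by
      have : ρ * L ^ 3 ≤ ρ * (6 * k) ^ 3 := mul_le_mul_of_nonneg_left a2 hρ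
      have h4 : (0 : ℝ) ≤ (k : ℝ) ^ 3 := by positivity
      nlinarith
    exact_mod_cast a3
  have hl4 : (l.map (W ψ 1)).sum ≤ (k ^ 3 : ℕ) * C := by
    rw [← hl1]
    refine list_sum_le _ _ _ fun m hm => (le_abs_self _).trans (hC m ?_)
    have := hl3 m hm
    omega
  have : ((k ^ 3 : ℕ) : ℝ) ≤ L ^ 3 := by
    push_cast
    exact pow_le_pow_left₀ (by positivity) (by linarith) 3
  nlinarith

/-- Values of two-occupation mixtures at density `ρ`. -/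
def mixSet (ψ : ℝ → ℝ) (ρ : ℝ) : Set ℝ :=
  {g | ∃ (ℓ t : ℝ) (n₁ n₂ : ℕ), 0 < ℓ ∧ 0 ≤ t ∧ t ≤ 1 ∧ ρ * (ℓ + 2) ^ 3 = t * n₁ + (1 - t) * n₂ ∧
    g = (t * W ψ ℓ n₁ + (1 - t) * W ψ ℓ n₂) / (ℓ + 2) ^ 3}

/-- The infinite-volume free energy density (inverse temperature absorbed in `ψ`). -/
noncomputable def G (ψ : ℝ → ℝ) (ρ : ℝ) : ℝ := sInf (mixSet ψ ρ)

theorem mixSet_nonempty (ψ : ℝ → ℝ) {ρ : ℝ} (hρ : 0 ≤ ρ) : (mixSet ψ ρ).Nonempty := by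
  set n := ⌈27 * ρ⌉₊ + 1 with hn
  have hn0 : (0 : ℝ) < n := by positivity
  have hn1 : 27 * ρ ≤ n := by
    have := Nat.le_ceil (27 * ρ)
    push_cast [hn]
    linarith
  refine ⟨_, 1, 27 * ρ / n, n, 0, one_pos, by positivity, ?_, ?_, rfl⟩
  · rwa [div_le_one hn0]
  · field_simp; norm_num

theorem mixSet_lower {ψ : ℝ → ℝ} (hψ : Measurable ψ) {B : ℝ} (hB : Stab ψ B) {ρ g : ℝ}
    (hg : g ∈ mixSet ψ ρ) : -1 - B * ρ ≤ g := by
  obtain ⟨ℓ, t, n₁, n₂, hℓ, ht0, ht1, hρ, rfl⟩ := hg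
  rw [le_div_iff₀ (by positivity)]
  have h1 := mul_le_mul_of_nonneg_left (W_lower hψ hB hℓ n₁) ht0
  have h2 := mul_le_mul_of_nonneg_left (W_lower hψ hB hℓ n₂) (by linarith : 0 ≤ 1 - t)
  have h3 : ℓ ^ 3 ≤ (ℓ + 2) ^ 3 := pow_le_pow_left₀ hℓ.le (by linarith) 3
  have h4 : (-1 - B * ρ) * (ℓ + 2) ^ 3 = -(ℓ + 2) ^ 3 - B * (t * n₁ + (1 - t) * n₂) := by
    rw [← hρ]; ring
  linarith

theorem Good.bddBelow {ψ : ℝ → ℝ} (hψ : Good ψ) (ρ : ℝ) : BddBelow (mixSet ψ ρ) := by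
  obtain ⟨B, -, hB⟩ := hψ.stab
  exact ⟨_, fun g hg => mixSet_lower hψ.meas hB hg⟩

theorem G_lower {ψ : ℝ → ℝ} (hψ : Measurable ψ) {B : ℝ} (hB : Stab ψ B) {ρ : ℝ} (hρ : 0 ≤ ρ) :
    -1 - B * ρ ≤ G ψ ρ :=
  le_csInf (mixSet_nonempty ψ hρ) fun _ hg => mixSet_lower hψ hB hg

theorem G_le_mix {ψ : ℝ → ℝ} (hψ : Good ψ) {ℓ t ρ : ℝ} (hℓ : 0 < ℓ) (ht0 : 0 ≤ t) (ht1 : t ≤ 1)
    (n₁ n₂ : ℕ) (hρ : ρ * (ℓ + 2) ^ 3 = t * n₁ + (1 - t) * n₂) :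
    G ψ ρ ≤ (t * W ψ ℓ n₁ + (1 - t) * W ψ ℓ n₂) / (ℓ + 2) ^ 3 :=
  csInf_le (hψ.bddBelow ρ) ⟨ℓ, t, n₁, n₂, hℓ, ht0, ht1, hρ, rfl⟩

theorem G_le_cell {ψ : ℝ → ℝ} (hψ : Good ψ) {ℓ : ℝ} (hℓ : 0 < ℓ) (n : ℕ) :
    G ψ (n / (ℓ + 2) ^ 3) ≤ W ψ ℓ n / (ℓ + 2) ^ 3 := by
  have := G_le_mix hψ (ρ := n / (ℓ + 2) ^ 3) hℓ zero_le_one le_rfl n 0 (by field_simp; simp)
  simpa using this

theorem eventually_le_G {ψ : ℝ → ℝ} (hψ : Good ψ) {ρ : ℝ} (hρ : 0 ≤ ρ) {ε : ℝ} (hε : 0 < ε) :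
    ∀ᶠ L : ℝ in atTop, W ψ L ⌊ρ * L ^ 3⌋₊ / L ^ 3 ≤ G ψ ρ + ε := by
  obtain ⟨g, ⟨ℓ, t, n₁, n₂, hℓ, ht0, ht1, hρ', rfl⟩, hg⟩ :=
    exists_lt_of_csInf_lt (mixSet_nonempty ψ hρ) (show G ψ ρ < G ψ ρ + ε / 2 by linarith)
  filter_upwards [mix_upper hψ hℓ ht0 ht1 n₁ n₂ hρ' (half_pos hε)] with L hL
  linarith

theorem G_zero {ψ : ℝ → ℝ} (hψ : Good ψ) : G ψ 0 = 0 := by
  apply le_antisymm
  · have := G_le_cell hψ one_pos 0
    simpa [W_zero] using this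
  · refine le_of_forall_pos_le_add fun ε hε => ?_
    obtain ⟨L, hL⟩ := (eventually_le_G hψ le_rfl hε).exists
    simpa [W_zero] using hL

theorem eventually_G_le {ψ : ℝ → ℝ} (hψ : Good ψ) {ρ : ℝ} (hρ : 0 < ρ) {ε : ℝ} (hε : 0 < ε) :
    ∀ᶠ L : ℝ in atTop, G ψ ρ - ε ≤ W ψ L ⌊ρ * L ^ 3⌋₊ / L ^ 3 := by
  obtain ⟨B, hB0, hB⟩ := hψ.stab
  obtain ⟨C, hC0, hC⟩ := crude_upper hψ (ρ := 16 * ρ + 1) (by positivity)
  -- u L bounds 1 - t
  set u : ℝ → ℝ := fun L => (ρ * ((L + 2) ^ 3 / L ^ 3) - (⌊ρ * L ^ 3⌋₊ : ℝ) / L ^ 3) / ρ with hu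
  have hu0 : Tendsto u atTop (𝓝 ((ρ * 1 - ρ) / ρ)) :=
    (((tendsto_shift_cube 2).const_mul ρ).sub (tendsto_floor_vol hρ.le)).div_const ρ
  have hlim : Tendsto (fun L => G ψ ρ * ((L + 2) ^ 3 / L ^ 3) - u L * (1 + B * ρ + C)) atTop
      (𝓝 (G ψ ρ * 1 - (ρ * 1 - ρ) / ρ * (1 + B * ρ + C))) :=
    ((tendsto_shift_cube 2).const_mul _).sub (hu0.mul_const _)
  have hlt : G ψ ρ - ε < G ψ ρ * 1 - (ρ * 1 - ρ) / ρ * (1 + B * ρ + C) := by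
    simp; exact hε
  filter_upwards [hlim.eventually (lt_mem_nhds hlt), eventually_ge_atTop 3] with L hL hL3
  refine hL.le.trans ?_
  have hL0 : 0 < L := by linarith
  have hV : 0 < L ^ 3 := by positivity
  set n₁ := ⌊ρ * L ^ 3⌋₊ with hn₁
  set D := ρ * (L + 2) ^ 3 with hD
  set n₂ := ⌈2 * D⌉₊ with hn₂
  have h1u : (n₁ : ℝ) ≤ ρ * L ^ 3 := Nat.floor_le (by positivity)
  have hLL : L ^ 3 ≤ (L + 2) ^ 3 := pow_le_pow_left₀ hL0.le (by linarith) 3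
  have hLL' : (L + 2) ^ 3 ≤ 8 * L ^ 3 := by
    have : (L + 2) ^ 3 ≤ (2 * L) ^ 3 := pow_le_pow_left₀ (by positivity) (by linarith) 3
    linarith
  have hD1 : ρ * L ^ 3 ≤ D := mul_le_mul_of_nonneg_left hLL hρ.le
  have hD2 : D ≤ 8 * (ρ * L ^ 3) := by
    have := mul_le_mul_of_nonneg_left hLL' hρ.le
    linarith
  have hρV : 0 < ρ * L ^ 3 := by positivity
  have h2l : 2 * D ≤ n₂ := Nat.le_ceil _
  have h2u : (n₂ : ℝ) < 2 * D + 1 := Nat.ceil_lt_add_one (by positivity)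
  have hV1 : 1 ≤ L ^ 3 := one_le_pow₀ (by linarith)
  have hW2 : W ψ L n₂ ≤ C * L ^ 3 := hC L hL3 n₂ (by linarith only [h2u, hD2, hV1])
  have hW1 := W_lower hψ.meas hB hL0 n₁
  have hgap : ρ * L ^ 3 ≤ n₂ - n₁ := by linarith
  set s := (D - n₁) / (n₂ - n₁) with hs
  have hs0 : 0 ≤ s := div_nonneg (by linarith) (by linarith)
  have hs1 : s ≤ 1 := by rw [hs, div_le_one (by linarith)]; linarith
  have hsu : s ≤ u L := by
    have : u L = (D - n₁) / (ρ * L ^ 3) := by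
      simp only [hu, hD]; rw [← hn₁]; field_simp
    rw [this]
    exact div_le_div_of_nonneg_left (by linarith) hρV hgap
  have hmix := G_le_mix hψ (ρ := ρ) (t := 1 - s) hL0 (by linarith) (by linarith) n₁ n₂ (by
    have : (n₂ : ℝ) - n₁ ≠ 0 := by linarith
    rw [← hD, hs]; field_simp; ring)
  rw [le_div_iff₀ (by positivity)] at hmix
  have h5 : G ψ ρ * ((L + 2) ^ 3 / L ^ 3) - u L * (1 + B * ρ + C)
      = (G ψ ρ * (L + 2) ^ 3 - u L * (1 + B * ρ + C) * L ^ 3) / L ^ 3 := by field_simp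
  rw [h5]
  gcongr
  have h6 : s * (-W ψ L n₁) ≤ s * ((1 + B * ρ) * L ^ 3) := by
    refine mul_le_mul_of_nonneg_left ?_ hs0
    have := mul_le_mul_of_nonneg_left h1u hB0
    linarith
  have h7 : s * W ψ L n₂ ≤ s * (C * L ^ 3) := mul_le_mul_of_nonneg_left hW2 hs0
  have h8 : s * ((1 + B * ρ + C) * L ^ 3) ≤ u L * ((1 + B * ρ + C) * L ^ 3) :=
    mul_le_mul_of_nonneg_right hsu (by positivity)
  linarith

/-- The thermodynamic limit. -/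
theorem tendsto_G {ψ : ℝ → ℝ} (hψ : Good ψ) {ρ : ℝ} (hρ : 0 ≤ ρ) :
    Tendsto (fun L : ℝ => W ψ L ⌊ρ * L ^ 3⌋₊ / L ^ 3) atTop (𝓝 (G ψ ρ)) := by
  rcases hρ.eq_or_lt with rfl | hρ'
  · simp [W_zero, G_zero hψ]
  · rw [Metric.tendsto_nhds]
    intro ε hε
    filter_upwards [eventually_le_G hψ hρ (half_pos hε), eventually_G_le hψ hρ' (half_pos hε)]
      with L h1 h2
    rw [Real.dist_eq, abs_lt]
    constructor <;> linarith

theorem G_mono {ψ χ : ℝ → ℝ} (hψ : Good ψ) (hχ : Good χ) (h : ∀ r, 0 ≤ r → ψ r ≤ χ r) {ρ : ℝ}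
    (hρ : 0 ≤ ρ) : G ψ ρ ≤ G χ ρ := by
  refine le_of_tendsto_of_tendsto (tendsto_G hψ hρ) (tendsto_G hχ hρ) ?_
  filter_upwards [eventually_gt_atTop 0] with L hL
  exact div_le_div_of_nonneg_right (W_mono hψ hχ h hL _) (by positivity)

theorem G_concave {ψ χ : ℝ → ℝ} (hψ : Good ψ) (hχ : Good χ) {a b : ℝ} (ha : 0 ≤ a)
    (hb : 0 ≤ b) (hab : a + b = 1) {ρ : ℝ} (hρ : 0 ≤ ρ) :
    a * G ψ ρ + b * G χ ρ ≤ G (a • ψ + b • χ) ρ := by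
  refine le_of_tendsto_of_tendsto
    (((tendsto_G hψ hρ).const_mul a).add ((tendsto_G hχ hρ).const_mul b))
    (tendsto_G (hψ.convex_comb hχ ha hb) hρ) ?_
  filter_upwards [eventually_gt_atTop 0] with L hL
  have := div_le_div_of_nonneg_right (W_concave hψ hχ ha hb hab hL ⌊ρ * L ^ 3⌋₊)
    (by positivity : 0 ≤ L ^ 3)
  refine le_trans (le_of_eq ?_) this
  ring

theorem G_convexOn {ψ : ℝ → ℝ} (hψ : Good ψ) : ConvexOn ℝ (Set.Ici 0) (G ψ) := by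
  refine LinearOrder.convexOn_of_lt (convex_Ici 0) ?_
  intro x hx y hy hxy a b ha hb hab
  simp only [smul_eq_mul]
  have hx0 : 0 ≤ x := hx
  have hy0 : 0 ≤ y := hy
  set ρ := a * x + b * y with hρ
  set t : ℝ → ℝ := fun L => ((⌊y * L ^ 3⌋₊ : ℝ) / L ^ 3 - ρ * ((L + 2) ^ 3 / L ^ 3)) /
    ((⌊y * L ^ 3⌋₊ : ℝ) / L ^ 3 - (⌊x * L ^ 3⌋₊ : ℝ) / L ^ 3) with ht
  have hden : Tendsto (fun L : ℝ => (⌊y * L ^ 3⌋₊ : ℝ) / L ^ 3 - (⌊x * L ^ 3⌋₊ : ℝ) / L ^ 3) atTop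
      (𝓝 (y - x)) := (tendsto_floor_vol hy0).sub (tendsto_floor_vol hx0)
  have htl : Tendsto t atTop (𝓝 a) := by
    have h1 := ((tendsto_floor_vol hy0).sub ((tendsto_shift_cube 2).const_mul ρ)).div hden
      (by linarith)
    have h2 : (y - ρ * 1) / (y - x) = a := by
      have : y - x ≠ 0 := by linarith
      have hb' : b = 1 - a := by linarith
      rw [hρ, hb']; field_simp; ring
    rw [h2] at h1
    exact h1
  have hlim : Tendsto (fun L : ℝ => (t L * (W ψ L ⌊x * L ^ 3⌋₊ / L ^ 3) +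
      (1 - t L) * (W ψ L ⌊y * L ^ 3⌋₊ / L ^ 3)) / ((L + 2) ^ 3 / L ^ 3)) atTop
      (𝓝 ((a * G ψ x + (1 - a) * G ψ y) / 1)) :=
    ((htl.mul (tendsto_G hψ hx0)).add ((tendsto_const_nhds.sub htl).mul (tendsto_G hψ hy0))).div
      (tendsto_shift_cube 2) one_ne_zero
  have hb' : 1 - a = b := by linarith
  rw [div_one, hb'] at hlim
  refine ge_of_tendsto hlim ?_
  filter_upwards [htl.eventually (lt_mem_nhds ha), htl.eventually (gt_mem_nhds (by linarith : a < 1)),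
    hden.eventually (lt_mem_nhds (by linarith : 0 < y - x)), eventually_gt_atTop 0]
    with L h1 h2 h3 hL
  have hmix := G_le_mix hψ (ρ := ρ) (t := t L) hL h1.le h2.le ⌊x * L ^ 3⌋₊ ⌊y * L ^ 3⌋₊ (by
    have h4 : (⌊y * L ^ 3⌋₊ : ℝ) - (⌊x * L ^ 3⌋₊ : ℝ) ≠ 0 := by
      rw [← sub_div] at h3
      have := (div_pos_iff_of_pos_right (by positivity : 0 < L ^ 3)).mp h3
      linarith
    simp only [ht]
    generalize (⌊y * L ^ 3⌋₊ : ℝ) = Y at h4 ⊢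
    generalize (⌊x * L ^ 3⌋₊ : ℝ) = X at h4 ⊢
    rw [← sub_div]
    field_simp
    ring)
  refine hmix.trans (le_of_eq ?_)
  field_simp

end Crest.Agent.R149
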