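import Crest.Agent.R149.SA

set_option autoImplicit false

namespace Crest.Agent.R149

open MeasureTheory Crest.ProbabilityR.Continuum Classical
open scoped ENNReal BigOperators

/-- Stability with constant `B`. -/
def Stab (ψ : ℝ → ℝ) (B : ℝ) : Prop := ∀ (N : ℕ) (x : Fin N → Pt), -(B * N) ≤ En ψ x

/-- Measurable, non-positive beyond distance two, and stable. -/
structure Good (ψ : ℝ → ℝ) : Prop where
  meas : Measurable ψ
  temp : ∀ r, 2 ≤ r → ψ r ≤ 0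
  stab : ∃ B, 0 ≤ B ∧ Stab ψ B

/-- Finite-volume free energy (not divided by the volume). -/
noncomputable def W (ψ : ℝ → ℝ) (ℓ : ℝ) (n : ℕ) : ℝ := -Real.log (Zn ψ ℓ n).toReal

theorem volume_pi_cube {ℓ : ℝ} (hℓ : 0 ≤ ℓ) (n : ℕ) :
    volume (Set.pi Set.univ fun _ : Fin n => cube ℓ) = ENNReal.ofReal ((ℓ ^ 3) ^ n) := by
  rw [volume_pi_pi]
  simp only [volume_cube hℓ, Finset.prod_const, Finset.card_univ, Fintype.card_fin]
  rw [ENNReal.ofReal_pow (by positivity : 0 ≤ ℓ ^ 3)]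

theorem Zn_le_of_stab {ψ : ℝ → ℝ} {B : ℝ} (hB : Stab ψ B) {ℓ : ℝ} (hℓ : 0 ≤ ℓ) (n : ℕ) :
    Zn ψ ℓ n ≤ ENNReal.ofReal (Real.exp (ℓ ^ 3 + B * n)) := by
  have h1 : Zc ψ ℓ n ≤ ENNReal.ofReal (Real.exp (B * n)) * ENNReal.ofReal ((ℓ ^ 3) ^ n) := by
    rw [← volume_pi_cube hℓ, ← setLIntegral_const]
    unfold Zc Zp
    refine lintegral_mono fun x => ?_
    unfold bf
    refine ENNReal.ofReal_le_ofReal (Real.exp_le_exp.mpr ?_)
    have := hB n x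
    linarith
  unfold Zn
  rw [ENNReal.div_le_iff (by exact_mod_cast Nat.factorial_ne_zero _) (ENNReal.natCast_ne_top _)]
  refine h1.trans ?_
  rw [← ENNReal.ofReal_natCast, ← ENNReal.ofReal_mul (by positivity),
    ← ENNReal.ofReal_mul (by positivity)]
  refine ENNReal.ofReal_le_ofReal ?_
  have h2 := Real.pow_div_factorial_le_exp (ℓ ^ 3) (by positivity) n
  rw [div_le_iff₀ (by positivity)] at h2
  rw [Real.exp_add]
  calc _ ≤ Real.exp (B * n) * (Real.exp (ℓ ^ 3) * n.factorial) := by gcongr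
    _ = _ := by ring

theorem Good.Zn_ne_top {ψ : ℝ → ℝ} (h : Good ψ) {ℓ : ℝ} (hℓ : 0 ≤ ℓ) (n : ℕ) : Zn ψ ℓ n ≠ ⊤ := by
  obtain ⟨B, -, hB⟩ := h.stab
  exact ne_top_of_le_ne_top ENNReal.ofReal_ne_top (Zn_le_of_stab hB hℓ n)

theorem Zn_ne_zero {ψ : ℝ → ℝ} (hψ : Measurable ψ) {ℓ : ℝ} (hℓ : 0 < ℓ) (n : ℕ) :
    Zn ψ ℓ n ≠ 0 := by
  have h1 : Zc ψ ℓ n ≠ 0 := by
    unfold Zc Zp
    rw [← pos_iff_ne_zero, setLIntegral_pos_iff (measurable_bf hψ)]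
    have : Function.support (fun x : Fin n → Pt => bf ψ x) = Set.univ := by
      ext x
      simp [bf, Real.exp_pos]
    rw [this, Set.univ_inter, volume_pi_cube hℓ.le]
    exact ENNReal.ofReal_pos.mpr (by positivity)
  unfold Zn
  exact ENNReal.div_ne_zero.mpr ⟨h1, ENNReal.natCast_ne_top _⟩

theorem Zn_zero (ψ : ℝ → ℝ) (ℓ : ℝ) : Zn ψ ℓ 0 = 1 := by
  unfold Zn Zc Zp bf En
  simp [volume_pi]

theorem W_zero (ψ : ℝ → ℝ) (ℓ : ℝ) : W ψ ℓ 0 = 0 := by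
  simp [W, Zn_zero]

theorem Zn_eq_exp {ψ : ℝ → ℝ} (hψ : Measurable ψ) {ℓ : ℝ} (hℓ : 0 < ℓ) (n : ℕ)
    (ht : Zn ψ ℓ n ≠ ⊤) : Zn ψ ℓ n = ENNReal.ofReal (Real.exp (-W ψ ℓ n)) := by
  unfold W
  rw [neg_neg, Real.exp_log (ENNReal.toReal_pos (Zn_ne_zero hψ hℓ n) ht), ENNReal.ofReal_toReal ht]

theorem Good.Zn_eq {ψ : ℝ → ℝ} (h : Good ψ) {ℓ : ℝ} (hℓ : 0 < ℓ) (n : ℕ) :
    Zn ψ ℓ n = ENNReal.ofReal (Real.exp (-W ψ ℓ n)) :=
  Zn_eq_exp h.meas hℓ n (h.Zn_ne_top hℓ.le n)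

theorem Good.W_le {ψ : ℝ → ℝ} (h : Good ψ) {ℓ : ℝ} (hℓ : 0 < ℓ) (n : ℕ) {w : ℝ}
    (hw : ENNReal.ofReal (Real.exp (-w)) ≤ Zn ψ ℓ n) : W ψ ℓ n ≤ w := by
  rw [h.Zn_eq hℓ, ENNReal.ofReal_le_ofReal_iff (Real.exp_pos _).le, Real.exp_le_exp] at hw
  linarith

theorem le_W {ψ : ℝ → ℝ} (h : Measurable ψ) {ℓ : ℝ} (hℓ : 0 < ℓ) (n : ℕ) {w : ℝ}
    (hw : Zn ψ ℓ n ≤ ENNReal.ofReal (Real.exp (-w))) : w ≤ W ψ ℓ n := by
  rw [Zn_eq_exp h hℓ n (ne_top_of_le_ne_top ENNReal.ofReal_ne_top hw),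
    ENNReal.ofReal_le_ofReal_iff (Real.exp_pos _).le, Real.exp_le_exp] at hw
  linarith

theorem W_lower {ψ : ℝ → ℝ} (h : Measurable ψ) {B : ℝ} (hB : Stab ψ B) {ℓ : ℝ} (hℓ : 0 < ℓ)
    (n : ℕ) : -(ℓ ^ 3 + B * n) ≤ W ψ ℓ n :=
  le_W h hℓ n (by rw [neg_neg]; exact Zn_le_of_stab hB hℓ.le n)

theorem partitionFn_eq {φ : ℝ → ℝ} (hφ : Measurable φ) (L : ℝ) (N : ℕ) (β : ℝ) :
    partitionFn φ L N β = (Zn (β • φ) L N).toReal := by
  unfold partitionFn Zn Zc Zp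
  rw [ENNReal.toReal_div, ENNReal.toReal_natCast, one_div, mul_comm, ← div_eq_mul_inv]
  congr 1
  rw [integral_eq_lintegral_of_nonneg_ae (ae_of_all _ fun x => (Real.exp_pos _).le)]
  · congr 1
    refine lintegral_congr fun x => ?_
    unfold bf
    rw [En_smul, energy_eq_En, neg_mul]
  · have : Measurable fun x : Fin N → Pt => Real.exp (-β * energy φ x) := by
      simp_rw [energy_eq_En]
      exact Real.measurable_exp.comp ((measurable_En hφ).const_mul _)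
    exact this.aestronglyMeasurable

theorem Zn_mono {ψ χ : ℝ → ℝ} (h : ∀ r, 0 ≤ r → ψ r ≤ χ r) (ℓ : ℝ) (n : ℕ) :
    Zn χ ℓ n ≤ Zn ψ ℓ n := by
  unfold Zn Zc Zp
  gcongr with x
  unfold bf
  refine ENNReal.ofReal_le_ofReal (Real.exp_le_exp.mpr ?_)
  have := En_mono h x
  linarith

theorem W_mono {ψ χ : ℝ → ℝ} (hψ : Good ψ) (hχ : Good χ) (h : ∀ r, 0 ≤ r → ψ r ≤ χ r) {ℓ : ℝ}
    (hℓ : 0 < ℓ) (n : ℕ) : W ψ ℓ n ≤ W χ ℓ n :=
  hψ.W_le hℓ n (by rw [← hχ.Zn_eq hℓ]; exact Zn_mono h ℓ n)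

theorem Good.convex_comb {ψ χ : ℝ → ℝ} (hψ : Good ψ) (hχ : Good χ) {a b : ℝ} (ha : 0 ≤ a)
    (hb : 0 ≤ b) : Good (a • ψ + b • χ) := by
  refine ⟨(hψ.meas.const_smul a).add (hχ.meas.const_smul b), fun r hr => ?_, ?_⟩
  · have h1 := hψ.temp r hr
    have h2 := hχ.temp r hr
    simp only [Pi.add_apply, Pi.smul_apply, smul_eq_mul]
    nlinarith
  · obtain ⟨B, hB0, hB⟩ := hψ.stab
    obtain ⟨B', hB0', hB'⟩ := hχ.stab
    refine ⟨a * B + b * B', by positivity, fun N x => ?_⟩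
    rw [En_add, En_smul, En_smul]
    have h1 := mul_le_mul_of_nonneg_left (hB N x) ha
    have h2 := mul_le_mul_of_nonneg_left (hB' N x) hb
    linarith

theorem W_concave {ψ χ : ℝ → ℝ} (hψ : Good ψ) (hχ : Good χ) {a b : ℝ} (ha : 0 ≤ a)
    (hb : 0 ≤ b) (hab : a + b = 1) {ℓ : ℝ} (hℓ : 0 < ℓ) (n : ℕ) :
    a * W ψ ℓ n + b * W χ ℓ n ≤ W (a • ψ + b • χ) ℓ n := by
  refine le_W (hψ.convex_comb hχ ha hb).meas hℓ n ?_
  have h1 : Zc (a • ψ + b • χ) ℓ n ≤ Zc ψ ℓ n ^ a * Zc χ ℓ n ^ b := by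
    unfold Zc Zp
    refine le_trans (le_of_eq ?_) (ENNReal.lintegral_mul_norm_pow_le
      (measurable_bf hψ.meas).aemeasurable (measurable_bf hχ.meas).aemeasurable ha hb hab)
    refine lintegral_congr fun x => ?_
    unfold bf
    rw [ENNReal.ofReal_rpow_of_nonneg (Real.exp_pos _).le ha,
      ENNReal.ofReal_rpow_of_nonneg (Real.exp_pos _).le hb,
      ← ENNReal.ofReal_mul (by positivity), ← Real.exp_mul, ← Real.exp_mul, ← Real.exp_add,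
      En_add, En_smul, En_smul]
    congr 2; ring
  have hf0 : ((n.factorial : ℕ) : ℝ≥0∞) ≠ 0 := by exact_mod_cast Nat.factorial_ne_zero _
  have hft : ((n.factorial : ℕ) : ℝ≥0∞) ≠ ⊤ := ENNReal.natCast_ne_top _
  have h2 : Zn (a • ψ + b • χ) ℓ n ≤ Zn ψ ℓ n ^ a * Zn χ ℓ n ^ b := by
    unfold Zn
    rw [ENNReal.div_rpow_of_nonneg _ _ ha, ENNReal.div_rpow_of_nonneg _ _ hb,
      ENNReal.div_eq_inv_mul, ENNReal.div_eq_inv_mul, ENNReal.div_eq_inv_mul]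
    have h3 : ((n.factorial : ℕ) : ℝ≥0∞)⁻¹ = (((n.factorial : ℕ) : ℝ≥0∞) ^ a)⁻¹ *
        (((n.factorial : ℕ) : ℝ≥0∞) ^ b)⁻¹ := by
      rw [← ENNReal.inv_rpow, ← ENNReal.inv_rpow, ← ENNReal.rpow_add_of_nonneg _ _ ha hb, hab,
        ENNReal.rpow_one]
    rw [h3]
    calc _ ≤ (((n.factorial : ℕ) : ℝ≥0∞) ^ a)⁻¹ * (((n.factorial : ℕ) : ℝ≥0∞) ^ b)⁻¹ *
          (Zc ψ ℓ n ^ a * Zc χ ℓ n ^ b) := by gcongr
      _ = _ := by ring
  refine h2.trans (le_of_eq ?_)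
  rw [hψ.Zn_eq hℓ, hχ.Zn_eq hℓ, ENNReal.ofReal_rpow_of_nonneg (Real.exp_pos _).le ha,
      ENNReal.ofReal_rpow_of_nonneg (Real.exp_pos _).le hb,
      ← ENNReal.ofReal_mul (by positivity), ← Real.exp_mul, ← Real.exp_mul, ← Real.exp_add]
  congr 2; ring

/-- Real form of the general superadditivity bound. -/
theorem SAreal {ψ ψ' : ℝ → ℝ} (hψ : Good ψ) (hψ' : Good ψ') {C : Type}
    [Fintype C] (n : C → ℕ) (v : C → Pt) {ℓ L : ℝ} (w : ℝ) (hℓ : 0 < ℓ) (hL : 0 < L)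
    (hsub : ∀ c, tcube (v c) ℓ ⊆ cube L)
    (hdisj : ∀ c c', c ≠ c' → Disjoint (tcube (v c) ℓ) (tcube (v c') ℓ))
    (hE : ∀ x : ((c : C) × Fin (n c)) → Pt, (∀ i, x i ∈ tcube (v i.1) ℓ) →
      En ψ x ≤ ∑ c, EnR ψ' Sigma.fst c x + w) :
    W ψ L (∑ c, n c) ≤ ∑ c, W ψ' ℓ (n c) + w := by
  have h := SAgen hψ.meas hψ'.meas (Sigma.fst : ((c : C) × Fin (n c)) → C) v ℓ L w hsub hdisj hE
  simp only [fib_sigma, Fintype.card_sigma, Fintype.card_fin] at h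
  refine hψ.W_le hL _ (le_trans (le_of_eq ?_) h)
  simp_rw [hψ'.Zn_eq hℓ]
  rw [← ENNReal.ofReal_prod_of_nonneg (fun c _ => (Real.exp_pos _).le), ← Real.exp_sum,
    ← ENNReal.ofReal_mul (Real.exp_pos _).le, ← Real.exp_add, Finset.sum_neg_distrib]
  congr 2; ring

/-- Grid point with spacing `b` and offset `t`. -/
noncomputable def gv (b t : ℝ) {k : ℕ} (c : Fin 3 → Fin k) : Pt :=
  WithLp.toLp 2 fun i => b * (c i : ℕ) - t

@[simp] theorem gv_apply (b t : ℝ) {k : ℕ} (c : Fin 3 → Fin k) (i : Fin 3) :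
    gv b t c i = b * (c i : ℕ) - t := rfl

theorem mem_tcube {v x : Pt} {ℓ : ℝ} : x ∈ tcube v ℓ ↔ ∀ i, v i ≤ x i ∧ x i ≤ v i + ℓ := by
  unfold tcube cube
  simp only [Set.mem_ofPred_eq, PiLp.sub_apply]
  refine forall_congr' fun i => ?_
  constructor <;> rintro ⟨h1, h2⟩ <;> constructor <;> linarith

theorem coord_le_dist (x y : Pt) (i : Fin 3) : |x i - y i| ≤ dist x y := by
  have := PiLp.dist_apply_le x y i
  rwa [Real.dist_eq] at this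

theorem dist_le_of_coord {x y : Pt} {d : ℝ} (hd : 0 ≤ d) (h : ∀ i, |x i - y i| ≤ d) :
    dist x y ≤ 7 / 4 * d := by
  rw [EuclideanSpace.dist_eq]
  refine Real.sqrt_le_iff.mpr ⟨by positivity, ?_⟩
  have h1 : ∀ i, dist (x i) (y i) ^ 2 ≤ d ^ 2 := fun i => by
    rw [Real.dist_eq]
    exact pow_le_pow_left₀ (abs_nonneg _) (h i) 2
  rw [Fin.sum_univ_three]
  nlinarith [h1 0, h1 1, h1 2, sq_nonneg d]

theorem dist_le_of_mem_tcube {v x y : Pt} {ℓ : ℝ} (hx : x ∈ tcube v ℓ) (hy : y ∈ tcube v ℓ) :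
    dist x y ≤ 7 / 4 * ℓ := by
  rw [mem_tcube] at hx hy
  refine dist_le_of_coord (by linarith [hx 0]) fun i => ?_
  rw [abs_le]
  constructor <;> linarith [hx i, hy i]

theorem grid_sub {b ℓ L : ℝ} {k : ℕ} (hb : 0 ≤ b) (hk : k * b + ℓ ≤ L + b)
    (c : Fin 3 → Fin k) : tcube (gv b 0 c) ℓ ⊆ cube L := by
  intro x hx i
  have h := mem_tcube.mp hx i
  simp only [gv_apply, sub_zero] at h
  have h1 : ((c i : ℕ) : ℝ) + 1 ≤ k := by exact_mod_cast (c i).isLt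
  have h2 : (0 : ℝ) ≤ b * (c i : ℕ) := by positivity
  constructor
  · linarith [h.1]
  · nlinarith [h.2]

theorem grid_far {b ℓ t : ℝ} {k : ℕ} (hb : 0 ≤ b) {c c' : Fin 3 → Fin k} (hcc : c ≠ c') {x y : Pt}
    (hx : x ∈ tcube (gv b t c) ℓ) (hy : y ∈ tcube (gv b t c') ℓ) : b - ℓ ≤ dist x y := by
  obtain ⟨i, hi⟩ := Function.ne_iff.mp hcc
  refine le_trans ?_ (coord_le_dist x y i)
  have h1 := mem_tcube.mp hx i
  have h2 := mem_tcube.mp hy i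
  simp only [gv_apply] at h1 h2
  rcases lt_or_gt_of_ne hi with h | h
  · have h3 : ((c i : ℕ) : ℝ) + 1 ≤ (c' i : ℕ) := by exact_mod_cast h
    rw [abs_sub_comm]
    refine le_trans ?_ (le_abs_self _)
    nlinarith [h1.2, h2.1]
  · have h3 : ((c' i : ℕ) : ℝ) + 1 ≤ (c i : ℕ) := by exact_mod_cast h
    refine le_trans ?_ (le_abs_self _)
    nlinarith [h1.1, h2.2]

theorem grid_disj {b ℓ t : ℝ} {k : ℕ} (hb : 0 ≤ b) (hbℓ : ℓ < b) (c c' : Fin 3 → Fin k)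
    (hcc : c ≠ c') : Disjoint (tcube (gv b t c) ℓ) (tcube (gv b t c') ℓ) := by
  rw [Set.disjoint_left]
  intro x hx hx'
  have := grid_far hb hcc hx hx'
  rw [dist_self] at this
  linarith

theorem SAgrid {ψ : ℝ → ℝ} (hψ : Good ψ) {ℓ L : ℝ} (hℓ : 0 < ℓ) (hL : 0 < L) {k : ℕ}
    (hk : k * (ℓ + 2) ≤ L + 2) (n : (Fin 3 → Fin k) → ℕ) :
    W ψ L (∑ c, n c) ≤ ∑ c, W ψ ℓ (n c) := by
  have h := SAreal hψ hψ n (gv (ℓ + 2) 0) 0 hℓ hL
    (grid_sub (by positivity) (by linarith)) (grid_disj (by positivity) (by linarith)) ?_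
  · simpa using h
  · intro x hx
    rw [En_split ψ Sigma.fst x]
    gcongr
    refine Cr_nonpos _ _ fun i j hij => hψ.temp _ ?_
    have := grid_far (by positivity) hij (hx i) (hx j)
    linarith

theorem sum_range_getD (f : ℕ → ℝ) (hf : f 0 = 0) (l : List ℕ) (M : ℕ) (hM : l.length ≤ M) :
    ∑ i ∈ Finset.range M, f (l.getD i 0) = (l.map f).sum := by
  induction l generalizing M with
  | nil => simp [hf]
  | cons a l ih =>
    obtain ⟨M, rfl⟩ : ∃ M', M = M' + 1 := ⟨M - 1, by simp at hM; omega⟩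
    rw [Finset.sum_range_succ']
    simp only [List.getD_cons_succ, List.getD_cons_zero, List.map_cons, List.sum_cons]
    rw [ih M (by simpa using hM), add_comm]

theorem SAlist {ψ : ℝ → ℝ} (hψ : Good ψ) {ℓ L : ℝ} (hℓ : 0 < ℓ) (hL : 0 < L) {k : ℕ}
    (hk : k * (ℓ + 2) ≤ L + 2) (l : List ℕ) (hl : l.length ≤ k ^ 3) :
    W ψ L l.sum ≤ (l.map (W ψ ℓ)).sum := by
  have hc : Fintype.card (Fin 3 → Fin k) = k ^ 3 := by simp
  let e : (Fin 3 → Fin k) ≃ Fin (k ^ 3) := Fintype.equivFinOfCardEq hc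
  have h := SAgrid hψ hℓ hL hk (fun c => l.getD (e c) 0)
  have h1 : ∑ c, W ψ ℓ (l.getD (e c) 0) = (l.map (W ψ ℓ)).sum := by
    rw [e.sum_comp (fun i => W ψ ℓ (l.getD i 0)), Fin.sum_univ_eq_sum_range
      (fun i => W ψ ℓ (l.getD i 0)), sum_range_getD _ (W_zero _ _) l _ hl]
  have h2 : ∑ c, l.getD (e c) 0 = l.sum := by
    have h3 := sum_range_getD (fun n => (n : ℝ)) (by simp) l _ hl
    rw [← Fin.sum_univ_eq_sum_range (fun i => ((l.getD i 0 : ℕ) : ℝ)),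
      ← e.sum_comp (fun i => ((l.getD i 0 : ℕ) : ℝ))] at h3
    have h4 : (l.map (fun n : ℕ => (n : ℝ))).sum = (l.sum : ℝ) := by
      rw [Nat.cast_list_sum]
    rw [h4] at h3
    exact_mod_cast h3
  rwa [h1, h2] at h

end Crest.Agent.R149
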